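import Vale.Agent.Lib.P157.Defs

open MeasureTheory ProbabilityTheory

namespace P157

noncomputable section

variable {N : ℕ} {X : Type*} [Fintype X]

/-- Diagonally scaled linear field. -/
def fld (β g a : Fin N → ℝ) : ℝ := ∑ i, g i * β i * a i

/-- `s β g = ∑_x ν(x) y_μ(fld β g (v x))`. -/
def sAvg (μ : Measure ℝ) (ν : X → ℝ) (v : X → Fin N → ℝ) (β g : Fin N → ℝ) : ℝ :=
  ∑ x, ν x * yFun μ (fld β g (v x))

instance gaussVec_isProb (n : ℕ) : IsProbabilityMeasure (gaussVec n) := by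
  unfold gaussVec; infer_instance

theorem integral_cos_gauss (c : Fin N → ℝ) :
    ∫ g, Real.cos (∑ i, g i * c i) ∂(gaussVec N) = Real.exp (-(∑ i, c i ^ 2) / 2) := by
  have key : ∫ g : Fin N → ℝ, ∏ i, Complex.exp (((c i * g i : ℝ) : ℂ) * Complex.I) ∂(gaussVec N)
      = ∏ i, Complex.exp (-(((c i) ^ 2 / 2 : ℝ) : ℂ)) := by
    unfold gaussVec
    rw [integral_fintype_prod_eq_prod (𝕜 := ℂ) (fun i x => Complex.exp (((c i * x : ℝ) : ℂ) * Complex.I))]
    refine Finset.prod_congr rfl fun i _ => ?_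
    have h := charFun_gaussianReal (μ := 0) (v := 1) (c i)
    rw [charFun_apply_real] at h
    simp only [Complex.ofReal_mul]
    rw [h]
    congr 1
    push_cast
    simp
  have hprod : ∀ g : Fin N → ℝ, ∏ i, Complex.exp (((c i * g i : ℝ) : ℂ) * Complex.I)
      = Complex.exp (((∑ i, g i * c i : ℝ) : ℂ) * Complex.I) := by
    intro g
    rw [← Complex.exp_sum, ← Finset.sum_mul]
    congr 2
    push_cast
    exact Finset.sum_congr rfl fun i _ => by ring
  simp_rw [hprod] at key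
  have hr : ∀ g : Fin N → ℝ, Real.cos (∑ i, g i * c i)
      = (Complex.exp (((∑ i, g i * c i : ℝ) : ℂ) * Complex.I)).re := by
    intro g
    rw [Complex.exp_ofReal_mul_I_re]
  simp_rw [hr]
  have hint : Integrable (fun g : Fin N → ℝ => Complex.exp (((∑ i, g i * c i : ℝ) : ℂ) * Complex.I))
      (gaussVec N) := by
    refine Integrable.of_bound (C := 1) ?_ ?_
    · exact (Continuous.aestronglyMeasurable (by fun_prop))
    · exact Filter.Eventually.of_forall fun g => by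
        rw [Complex.norm_exp_ofReal_mul_I]
  have := integral_re hint
  simp only [RCLike.re_eq_complex_re] at this
  rw [show (∫ g : Fin N → ℝ, (Complex.exp (((∑ i, g i * c i : ℝ) : ℂ) * Complex.I)).re ∂(gaussVec N))
      = (∫ g : Fin N → ℝ, Complex.exp (((∑ i, g i * c i : ℝ) : ℂ) * Complex.I) ∂(gaussVec N)).re from this]
  rw [key, ← Complex.exp_sum]
  have : ∑ i, -(((c i) ^ 2 / 2 : ℝ) : ℂ) = ((-(∑ i, c i ^ 2) / 2 : ℝ) : ℂ) := by
    have h0 : (-(∑ i, c i ^ 2) / 2 : ℝ) = ∑ i, -((c i) ^ 2 / 2) := by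
      rw [neg_div, Finset.sum_neg_distrib, Finset.sum_div]
    rw [h0, Complex.ofReal_sum]
    refine Finset.sum_congr rfl fun i _ => ?_
    push_cast
    ring
  rw [this, ← Complex.ofReal_exp, Complex.ofReal_re]

theorem abs_yFun_le (μ : Measure ℝ) [IsFiniteMeasure μ] (u : ℝ) : |yFun μ u| ≤ μ.real Set.univ := by
  unfold yFun
  have := norm_integral_le_of_norm_le_const (μ := μ) (f := fun ξ => Real.cos (ξ * u)) (C := 1)
    (Filter.Eventually.of_forall fun ξ => by simpa using Real.abs_cos_le_one (ξ * u))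
  simpa using this

theorem continuous_yFun (μ : Measure ℝ) [IsFiniteMeasure μ] : Continuous (yFun μ) := by
  unfold yFun
  refine continuous_of_dominated (bound := fun _ => 1) ?_ ?_ ?_ ?_
  · intro u; exact (Continuous.aestronglyMeasurable (by fun_prop))
  · intro u; exact Filter.Eventually.of_forall fun ξ => by simpa using Real.abs_cos_le_one (ξ * u)
  · exact integrable_const _
  · exact Filter.Eventually.of_forall fun ξ => by fun_prop

theorem continuous_fld_g (β a : Fin N → ℝ) : Continuous fun g : Fin N → ℝ => fld β g a := by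
  unfold fld; fun_prop

theorem continuous_fld_a (β g : Fin N → ℝ) : Continuous fun a : Fin N → ℝ => fld β g a := by
  unfold fld; fun_prop

theorem continuous_sAvg (μ : Measure ℝ) [IsFiniteMeasure μ] (ν : X → ℝ) (v : X → Fin N → ℝ) (β : Fin N → ℝ) :
    Continuous (sAvg μ ν v β) := by
  unfold sAvg
  refine continuous_finsetSum _ fun x _ => ?_
  exact continuous_const.mul ((continuous_yFun μ).comp (continuous_fld_g β (v x)))

theorem abs_sAvg_le (μ : Measure ℝ) [IsFiniteMeasure μ] (ν : X → ℝ) (hν : ∀ x, 0 ≤ ν x)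
    (v : X → Fin N → ℝ) (β g : Fin N → ℝ) :
    |sAvg μ ν v β g| ≤ (∑ x, ν x) * μ.real Set.univ := by
  unfold sAvg
  refine (Finset.abs_sum_le_sum_abs _ _).trans ?_
  rw [Finset.sum_mul]
  refine Finset.sum_le_sum fun x _ => ?_
  rw [abs_mul, abs_of_nonneg (hν x)]
  exact mul_le_mul_of_nonneg_left (abs_yFun_le μ _) (hν x)

/-- `Φ β n a = E[cos(fld β g a) (s β g)^n]`. -/
def Phi (μ : Measure ℝ) (ν : X → ℝ) (v : X → Fin N → ℝ) (β : Fin N → ℝ) (n : ℕ) (a : Fin N → ℝ) : ℝ :=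
  ∫ g, Real.cos (fld β g a) * (sAvg μ ν v β g) ^ n ∂(gaussVec N)

/-- The positive operator. -/
def Top (μ : Measure ℝ) (ν : X → ℝ) (v : X → Fin N → ℝ) (F : (Fin N → ℝ) → ℝ) (a : Fin N → ℝ) : ℝ :=
  ∑ x, ν x * ∫ ξ, (1 / 2 : ℝ) * (F (a + ξ • v x) + F (a - ξ • v x)) ∂μ

theorem Phi_zero (μ : Measure ℝ) (ν : X → ℝ) (v : X → Fin N → ℝ) (β a : Fin N → ℝ) :
    Phi μ ν v β 0 a = Real.exp (-(∑ i, (β i * a i) ^ 2) / 2) := by
  unfold Phi
  simp only [pow_zero, mul_one]
  rw [← integral_cos_gauss]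
  refine integral_congr_ae (Filter.Eventually.of_forall fun g => ?_)
  simp only [fld]
  congr 1
  exact Finset.sum_congr rfl fun i _ => by ring

theorem fld_add_smul (β g a w : Fin N → ℝ) (ξ : ℝ) :
    fld β g (a + ξ • w) = fld β g a + ξ * fld β g w := by
  simp only [fld, Pi.add_apply, Pi.smul_apply, smul_eq_mul, Finset.mul_sum, ← Finset.sum_add_distrib]
  exact Finset.sum_congr rfl fun i _ => by ring

theorem fld_sub_smul (β g a w : Fin N → ℝ) (ξ : ℝ) :
    fld β g (a - ξ • w) = fld β g a - ξ * fld β g w := by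
  simp only [fld, Pi.sub_apply, Pi.smul_apply, smul_eq_mul, Finset.mul_sum, ← Finset.sum_sub_distrib]
  exact Finset.sum_congr rfl fun i _ => by ring

theorem abs_cos_mul_pow_le (μ : Measure ℝ) [IsFiniteMeasure μ] (ν : X → ℝ) (hν : ∀ x, 0 ≤ ν x)
    (v : X → Fin N → ℝ) (β g : Fin N → ℝ) (θ : ℝ) (n : ℕ) :
    ‖Real.cos θ * (sAvg μ ν v β g) ^ n‖ ≤ ((∑ x, ν x) * μ.real Set.univ) ^ n := by
  rw [norm_mul, norm_pow, Real.norm_eq_abs, Real.norm_eq_abs]
  calc |Real.cos θ| * |sAvg μ ν v β g| ^ n ≤ 1 * |sAvg μ ν v β g| ^ n :=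
        mul_le_mul_of_nonneg_right (Real.abs_cos_le_one θ) (by positivity)
    _ = |sAvg μ ν v β g| ^ n := one_mul _
    _ ≤ _ := pow_le_pow_left₀ (abs_nonneg _) (abs_sAvg_le μ ν hν v β g) n

theorem continuous_Phi (μ : Measure ℝ) [IsFiniteMeasure μ] (ν : X → ℝ) (hν : ∀ x, 0 ≤ ν x)
    (v : X → Fin N → ℝ) (β : Fin N → ℝ) (n : ℕ) : Continuous (Phi μ ν v β n) := by
  unfold Phi
  refine continuous_of_dominated (bound := fun _ => ((∑ x, ν x) * μ.real Set.univ) ^ n) ?_ ?_ ?_ ?_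
  · intro a
    exact ((Real.continuous_cos.comp (continuous_fld_g β a)).mul
      ((continuous_sAvg μ ν v β).pow n)).aestronglyMeasurable
  · intro a
    exact Filter.Eventually.of_forall fun g => abs_cos_mul_pow_le μ ν hν v β g _ n
  · exact integrable_const _
  · exact Filter.Eventually.of_forall fun g =>
      (Real.continuous_cos.comp (continuous_fld_a β g)).mul continuous_const

theorem abs_Phi_le (μ : Measure ℝ) [IsFiniteMeasure μ] (ν : X → ℝ) (hν : ∀ x, 0 ≤ ν x)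
    (v : X → Fin N → ℝ) (β : Fin N → ℝ) (n : ℕ) (a : Fin N → ℝ) :
    |Phi μ ν v β n a| ≤ ((∑ x, ν x) * μ.real Set.univ) ^ n := by
  unfold Phi
  have := norm_integral_le_of_norm_le_const (μ := gaussVec N)
    (f := fun g => Real.cos (fld β g a) * (sAvg μ ν v β g) ^ n)
    (C := ((∑ x, ν x) * μ.real Set.univ) ^ n)
    (Filter.Eventually.of_forall fun g => abs_cos_mul_pow_le μ ν hν v β g _ n)
  simpa using this

theorem integrable_shift {F : (Fin N → ℝ) → ℝ} (hF : Continuous F) {C : ℝ} (hC : ∀ a, |F a| ≤ C)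
    (μ : Measure ℝ) [IsFiniteMeasure μ] (a w : Fin N → ℝ) :
    Integrable (fun ξ : ℝ => (1 / 2 : ℝ) * (F (a + ξ • w) + F (a - ξ • w))) μ := by
  refine Integrable.of_bound (C := C) ?_ ?_
  · exact Continuous.aestronglyMeasurable (by fun_prop)
  · refine Filter.Eventually.of_forall fun ξ => ?_
    have h1 := hC (a + ξ • w)
    have h2 := hC (a - ξ • w)
    rw [Real.norm_eq_abs, abs_mul, abs_of_pos (by norm_num : (0 : ℝ) < 1 / 2)]
    have := abs_add_le (F (a + ξ • w)) (F (a - ξ • w))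
    linarith

theorem Phi_succ (μ : Measure ℝ) [IsFiniteMeasure μ] (ν : X → ℝ) (hν : ∀ x, 0 ≤ ν x)
    (v : X → Fin N → ℝ) (β : Fin N → ℝ) (n : ℕ) (a : Fin N → ℝ) :
    Phi μ ν v β (n + 1) a = Top μ ν v (Phi μ ν v β n) a := by
  unfold Top
  have hpt : ∀ g : Fin N → ℝ, Real.cos (fld β g a) * (sAvg μ ν v β g) ^ (n + 1)
      = ∑ x, ν x * ∫ ξ, (1 / 2 : ℝ) * (Real.cos (fld β g (a + ξ • v x)) * (sAvg μ ν v β g) ^ n
          + Real.cos (fld β g (a - ξ • v x)) * (sAvg μ ν v β g) ^ n) ∂μ := by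
    intro g
    have hone : ∀ x, ∫ ξ, (1 / 2 : ℝ) * (Real.cos (fld β g (a + ξ • v x)) * (sAvg μ ν v β g) ^ n
          + Real.cos (fld β g (a - ξ • v x)) * (sAvg μ ν v β g) ^ n) ∂μ
        = Real.cos (fld β g a) * (sAvg μ ν v β g) ^ n * yFun μ (fld β g (v x)) := by
      intro x
      unfold yFun
      rw [← integral_const_mul]
      refine integral_congr_ae (Filter.Eventually.of_forall fun ξ => ?_)
      simp only [fld_add_smul, fld_sub_smul, Real.cos_add, Real.cos_sub]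
      ring
    simp_rw [hone]
    have hS : sAvg μ ν v β g = ∑ x, ν x * yFun μ (fld β g (v x)) := rfl
    calc Real.cos (fld β g a) * (sAvg μ ν v β g) ^ (n + 1)
        = (Real.cos (fld β g a) * (sAvg μ ν v β g) ^ n) * sAvg μ ν v β g := by ring
      _ = (Real.cos (fld β g a) * (sAvg μ ν v β g) ^ n) * ∑ x, ν x * yFun μ (fld β g (v x)) := by
          congr 1
      _ = _ := by
          rw [Finset.mul_sum]
          refine Finset.sum_congr rfl fun x _ => ?_
          ring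
  have hmeasF : ∀ x, Continuous fun p : (Fin N → ℝ) × ℝ =>
      (1 / 2 : ℝ) * (Real.cos (fld β p.1 (a + p.2 • v x)) * (sAvg μ ν v β p.1) ^ n
          + Real.cos (fld β p.1 (a - p.2 • v x)) * (sAvg μ ν v β p.1) ^ n) := by
    intro x
    have hs := continuous_sAvg μ ν v β
    unfold fld
    fun_prop
  have hintF : ∀ x, Integrable (fun p : (Fin N → ℝ) × ℝ =>
      (1 / 2 : ℝ) * (Real.cos (fld β p.1 (a + p.2 • v x)) * (sAvg μ ν v β p.1) ^ n
          + Real.cos (fld β p.1 (a - p.2 • v x)) * (sAvg μ ν v β p.1) ^ n)) ((gaussVec N).prod μ) := by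
    intro x
    refine Integrable.of_bound (C := ((∑ x, ν x) * μ.real Set.univ) ^ n)
      (hmeasF x).aestronglyMeasurable ?_
    refine Filter.Eventually.of_forall fun p => ?_
    have h1 := abs_cos_mul_pow_le μ ν hν v β p.1 (fld β p.1 (a + p.2 • v x)) n
    have h2 := abs_cos_mul_pow_le μ ν hν v β p.1 (fld β p.1 (a - p.2 • v x)) n
    rw [Real.norm_eq_abs, abs_mul, abs_of_pos (by norm_num : (0 : ℝ) < 1 / 2)]
    rw [Real.norm_eq_abs] at h1 h2
    have := abs_add_le (Real.cos (fld β p.1 (a + p.2 • v x)) * (sAvg μ ν v β p.1) ^ n)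
      (Real.cos (fld β p.1 (a - p.2 • v x)) * (sAvg μ ν v β p.1) ^ n)
    linarith
  unfold Phi
  simp_rw [hpt]
  rw [integral_finsetSum]
  · refine Finset.sum_congr rfl fun x _ => ?_
    rw [integral_const_mul]
    congr 1
    rw [integral_integral_swap (hintF x)]
    refine integral_congr_ae (Filter.Eventually.of_forall fun ξ => ?_)
    dsimp only
    rw [integral_const_mul, integral_add]
    · have h1 : Integrable (fun g => Real.cos (fld β g (a + ξ • v x)) * (sAvg μ ν v β g) ^ n) (gaussVec N) := by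
        refine Integrable.of_bound (C := ((∑ x, ν x) * μ.real Set.univ) ^ n)
          (((Real.continuous_cos.comp (continuous_fld_g β _)).mul
            ((continuous_sAvg μ ν v β).pow n)).aestronglyMeasurable)
          (Filter.Eventually.of_forall fun g => abs_cos_mul_pow_le μ ν hν v β g _ n)
      exact h1
    · refine Integrable.of_bound (C := ((∑ x, ν x) * μ.real Set.univ) ^ n)
          (((Real.continuous_cos.comp (continuous_fld_g β _)).mul
            ((continuous_sAvg μ ν v β).pow n)).aestronglyMeasurable)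
          (Filter.Eventually.of_forall fun g => abs_cos_mul_pow_le μ ν hν v β g _ n)
  · intro x _
    refine Integrable.const_mul ?_ _
    exact (hintF x).integral_prod_left

theorem Top_mono (μ : Measure ℝ) [IsFiniteMeasure μ] (ν : X → ℝ) (hν : ∀ x, 0 ≤ ν x)
    (v : X → Fin N → ℝ) {F G : (Fin N → ℝ) → ℝ} (hF : Continuous F) (hG : Continuous G)
    {C D : ℝ} (hFb : ∀ a, |F a| ≤ C) (hGb : ∀ a, |G a| ≤ D) (hFG : ∀ a, F a ≤ G a) (a : Fin N → ℝ) :
    Top μ ν v F a ≤ Top μ ν v G a := by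
  unfold Top
  refine Finset.sum_le_sum fun x _ => mul_le_mul_of_nonneg_left ?_ (hν x)
  refine integral_mono (integrable_shift hF hFb μ a (v x)) (integrable_shift hG hGb μ a (v x)) ?_
  intro ξ
  dsimp only
  have h1 := hFG (a + ξ • v x)
  have h2 := hFG (a - ξ • v x)
  linarith

theorem Top_lin (μ : Measure ℝ) [IsFiniteMeasure μ] (ν : X → ℝ)
    (v : X → Fin N → ℝ) {F G : (Fin N → ℝ) → ℝ} (hF : Continuous F) (hG : Continuous G)
    {C D : ℝ} (hFb : ∀ a, |F a| ≤ C) (hGb : ∀ a, |G a| ≤ D) (l m : ℝ) (a : Fin N → ℝ) :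
    Top μ ν v (fun b => l * F b + m * G b) a = l * Top μ ν v F a + m * Top μ ν v G a := by
  unfold Top
  rw [Finset.mul_sum, Finset.mul_sum, ← Finset.sum_add_distrib]
  refine Finset.sum_congr rfl fun x _ => ?_
  have hint1 := integrable_shift hF hFb μ a (v x)
  have hint2 := integrable_shift hG hGb μ a (v x)
  have : ∫ ξ, (1 / 2 : ℝ) * ((l * F (a + ξ • v x) + m * G (a + ξ • v x))
        + (l * F (a - ξ • v x) + m * G (a - ξ • v x))) ∂μ
      = l * ∫ ξ, (1 / 2 : ℝ) * (F (a + ξ • v x) + F (a - ξ • v x)) ∂μ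
        + m * ∫ ξ, (1 / 2 : ℝ) * (G (a + ξ • v x) + G (a - ξ • v x)) ∂μ := by
    rw [← integral_const_mul, ← integral_const_mul, ← integral_add (hint1.const_mul l) (hint2.const_mul m)]
    refine integral_congr_ae (Filter.Eventually.of_forall fun ξ => ?_)
    dsimp only
    ring
  rw [this]
  ring

theorem Phi_comparison (μ : Measure ℝ) [IsFiniteMeasure μ] (ν : X → ℝ) (hν : ∀ x, 0 ≤ ν x)
    (v : X → Fin N → ℝ) (β β₁ β₂ : Fin N → ℝ) (l : ℝ) (hl0 : 0 ≤ l) (hl1 : l ≤ 1)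
    (hβ : ∀ i, β i ^ 2 = l * β₁ i ^ 2 + (1 - l) * β₂ i ^ 2) (n : ℕ) :
    ∀ a, Phi μ ν v β n a ≤ l * Phi μ ν v β₁ n a + (1 - l) * Phi μ ν v β₂ n a := by
  induction n with
  | zero =>
    intro a
    simp only [Phi_zero]
    have hsum : -(∑ i, (β i * a i) ^ 2) / 2
        = l * (-(∑ i, (β₁ i * a i) ^ 2) / 2) + (1 - l) * (-(∑ i, (β₂ i * a i) ^ 2) / 2) := by
      have : ∑ i, (β i * a i) ^ 2
          = l * ∑ i, (β₁ i * a i) ^ 2 + (1 - l) * ∑ i, (β₂ i * a i) ^ 2 := by
        rw [Finset.mul_sum, Finset.mul_sum, ← Finset.sum_add_distrib]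
        refine Finset.sum_congr rfl fun i _ => ?_
        rw [mul_pow, hβ i, mul_pow, mul_pow]
        ring
      rw [this]
      ring
    rw [hsum]
    have := convexOn_exp.2 (Set.mem_univ (-(∑ i, (β₁ i * a i) ^ 2) / 2))
      (Set.mem_univ (-(∑ i, (β₂ i * a i) ^ 2) / 2)) hl0 (sub_nonneg.2 hl1) (by ring)
    simpa [smul_eq_mul] using this
  | succ n ih =>
    intro a
    rw [Phi_succ μ ν hν, Phi_succ μ ν hν, Phi_succ μ ν hν]
    have hc := continuous_Phi μ ν hν v β n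
    have hc1 := continuous_Phi μ ν hν v β₁ n
    have hc2 := continuous_Phi μ ν hν v β₂ n
    have hb := abs_Phi_le μ ν hν v β n
    have hb1 := abs_Phi_le μ ν hν v β₁ n
    have hb2 := abs_Phi_le μ ν hν v β₂ n
    rw [← Top_lin μ ν v hc1 hc2 hb1 hb2 l (1 - l) a]
    have hcont : Continuous fun b => l * Phi μ ν v β₁ n b + (1 - l) * Phi μ ν v β₂ n b := by fun_prop
    have hbd : ∀ b, |l * Phi μ ν v β₁ n b + (1 - l) * Phi μ ν v β₂ n b|
        ≤ |l| * ((∑ x, ν x) * μ.real Set.univ) ^ n + |1 - l| * ((∑ x, ν x) * μ.real Set.univ) ^ n := by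
      intro b
      refine (abs_add_le _ _).trans (add_le_add ?_ ?_)
      · rw [abs_mul]; exact mul_le_mul_of_nonneg_left (hb1 b) (abs_nonneg _)
      · rw [abs_mul]; exact mul_le_mul_of_nonneg_left (hb2 b) (abs_nonneg _)
    exact Top_mono μ ν hν v hc hcont hb hbd ih a

theorem moment_comparison (μ : Measure ℝ) [IsFiniteMeasure μ] (ν : X → ℝ) (hν : ∀ x, 0 ≤ ν x)
    (v : X → Fin N → ℝ) (β β₁ β₂ : Fin N → ℝ) (l : ℝ) (hl0 : 0 ≤ l) (hl1 : l ≤ 1)
    (hβ : ∀ i, β i ^ 2 = l * β₁ i ^ 2 + (1 - l) * β₂ i ^ 2) (n : ℕ) :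
    ∫ g, (sAvg μ ν v β g) ^ n ∂(gaussVec N)
      ≤ l * ∫ g, (sAvg μ ν v β₁ g) ^ n ∂(gaussVec N)
        + (1 - l) * ∫ g, (sAvg μ ν v β₂ g) ^ n ∂(gaussVec N) := by
  have h := Phi_comparison μ ν hν v β β₁ β₂ l hl0 hl1 hβ n 0
  have hz : ∀ b : Fin N → ℝ, Phi μ ν v b n 0 = ∫ g, (sAvg μ ν v b g) ^ n ∂(gaussVec N) := by
    intro b
    unfold Phi
    refine integral_congr_ae (Filter.Eventually.of_forall fun g => ?_)
    simp [fld]
  simpa only [hz] using h

/-- `-log(1-s)` as an integrated series. -/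
theorem hasSum_integral_log (μ : Measure ℝ) [IsFiniteMeasure μ] (hμ : μ.real Set.univ < 1)
    (ν : X → ℝ) (hν : ∀ x, 0 ≤ ν x) (hν1 : ∑ x, ν x = 1) (v : X → Fin N → ℝ) (β : Fin N → ℝ) :
    HasSum (fun n : ℕ => (∫ g, (sAvg μ ν v β g) ^ (n + 1) ∂(gaussVec N)) / ((n : ℝ) + 1))
      (-(∫ g, Real.log (1 - sAvg μ ν v β g) ∂(gaussVec N))) := by
  have hm0 : 0 ≤ μ.real Set.univ := measureReal_nonneg
  have hs : ∀ g, |sAvg μ ν v β g| ≤ μ.real Set.univ := by
    intro g
    have := abs_sAvg_le μ ν hν v β g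
    rwa [hν1, one_mul] at this
  have hc := continuous_sAvg μ ν v β
  have hmeas : ∀ n : ℕ, Continuous fun g => (sAvg μ ν v β g) ^ (n + 1) / ((n : ℝ) + 1) := by
    intro n; exact (hc.pow _).div_const _
  have hbd : ∀ (n : ℕ) g, ‖(sAvg μ ν v β g) ^ (n + 1) / ((n : ℝ) + 1)‖ ≤ (μ.real Set.univ) ^ (n + 1) := by
    intro n g
    rw [norm_div, norm_pow, Real.norm_eq_abs, Real.norm_eq_abs,
      abs_of_pos (by positivity : (0 : ℝ) < (n : ℝ) + 1)]
    refine (div_le_self (by positivity) ?_).trans (pow_le_pow_left₀ (abs_nonneg _) (hs g) _)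
    have : (0 : ℝ) ≤ n := Nat.cast_nonneg n
    linarith
  have hint : ∀ n : ℕ, Integrable (fun g => (sAvg μ ν v β g) ^ (n + 1) / ((n : ℝ) + 1)) (gaussVec N) :=
    fun n => Integrable.of_bound (C := (μ.real Set.univ) ^ (n + 1)) (hmeas n).aestronglyMeasurable
      (Filter.Eventually.of_forall (hbd n))
  have hsumm : Summable fun n : ℕ => ∫ g, ‖(sAvg μ ν v β g) ^ (n + 1) / ((n : ℝ) + 1)‖ ∂(gaussVec N) := by
    refine Summable.of_nonneg_of_le (fun n => integral_nonneg fun g => norm_nonneg _) ?_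
      ((summable_geometric_of_lt_one hm0 hμ).comp_injective (add_left_injective 1))
    intro n
    have := integral_mono (μ := gaussVec N) ((hint n).norm) (integrable_const ((μ.real Set.univ) ^ (n + 1)))
      (fun g => hbd n g)
    simpa using this
  have key := hasSum_integral_of_summable_integral_norm hint hsumm
  have heq : ∀ g, ∑' n : ℕ, (sAvg μ ν v β g) ^ (n + 1) / ((n : ℝ) + 1) = -Real.log (1 - sAvg μ ν v β g) := by
    intro g
    exact (Real.hasSum_pow_div_log_of_abs_lt_one ((hs g).trans_lt hμ)).tsum_eq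
  simp_rw [heq, integral_div] at key
  rwa [integral_neg] at key

theorem log_comparison (μ : Measure ℝ) [IsFiniteMeasure μ] (hμ : μ.real Set.univ < 1)
    (ν : X → ℝ) (hν : ∀ x, 0 ≤ ν x) (hν1 : ∑ x, ν x = 1)
    (v : X → Fin N → ℝ) (β β₁ β₂ : Fin N → ℝ) (l : ℝ) (hl0 : 0 ≤ l) (hl1 : l ≤ 1)
    (hβ : ∀ i, β i ^ 2 = l * β₁ i ^ 2 + (1 - l) * β₂ i ^ 2) :
    l * ∫ g, Real.log (1 - sAvg μ ν v β₁ g) ∂(gaussVec N)
        + (1 - l) * ∫ g, Real.log (1 - sAvg μ ν v β₂ g) ∂(gaussVec N)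
      ≤ ∫ g, Real.log (1 - sAvg μ ν v β g) ∂(gaussVec N) := by
  have h0 := hasSum_integral_log μ hμ ν hν hν1 v β
  have h1 := hasSum_integral_log μ hμ ν hν hν1 v β₁
  have h2 := hasSum_integral_log μ hμ ν hν hν1 v β₂
  have hmix := (h1.mul_left l).add (h2.mul_left (1 - l))
  have hle := hasSum_le (fun n => ?_) h0 hmix
  · linarith
  · have hm := moment_comparison μ ν hν v β β₁ β₂ l hl0 hl1 hβ (n + 1)
    have hpos : (0 : ℝ) < (n : ℝ) + 1 := by positivity
    rw [← mul_div_assoc, ← mul_div_assoc, ← add_div]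
    exact div_le_div_of_nonneg_right hm hpos.le

end

end P157
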