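import Mathlib

/-!
# P157: definitions for the Gaussian perceptron on the Ising cube

`spin`, `yFun`, `logPot`, `gaussVec`, `localField`, `logPartition`, `expectedPressure`.
-/

open MeasureTheory ProbabilityTheory

namespace P157

noncomputable section

/-- The spin `±1` attached to a Boolean. -/
def spin (b : Bool) : ℝ := if b then 1 else -1

/-- The positive definite function `y_μ(u) = ∫ cos(ξ u) dμ(ξ)`. -/
def yFun (μ : Measure ℝ) (u : ℝ) : ℝ := ∫ ξ, Real.cos (ξ * u) ∂μ

/-- The log-potential `f(u) = log (c (1 - y_μ(u)))`. -/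
def logPot (μ : Measure ℝ) (c u : ℝ) : ℝ := Real.log (c * (1 - yFun μ u))

/-- The standard Gaussian measure on `ℝ^n`. -/
def gaussVec (n : ℕ) : Measure (Fin n → ℝ) := Measure.pi fun _ => gaussianReal 0 1

/-- The local field `g · x / √N` of a pattern `g` at a configuration `x` of the cube. -/
def localField {N : ℕ} (g : Fin N → ℝ) (x : Fin N → Bool) : ℝ :=
  (∑ i, g i * spin (x i)) / Real.sqrt N

/-- `log ∫ exp (∑_a f(g^a · x / √N)) dμ_N(x)`, with `μ_N` the uniform measure on the cube. -/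
def logPartition (f : ℝ → ℝ) (N M : ℕ) (g : Fin M → Fin N → ℝ) : ℝ :=
  Real.log (((2 : ℝ) ^ N)⁻¹ * ∑ x : Fin N → Bool, Real.exp (∑ a, f (localField (g a) x)))

/-- The expected pressure `E p_N(f)` with `M = ⌊α N⌋` independent standard Gaussian patterns. -/
def expectedPressure (f : ℝ → ℝ) (α : ℝ) (N : ℕ) : ℝ :=
  ∫ g : Fin ⌊α * N⌋₊ → Fin N → ℝ, ((N : ℝ)⁻¹ * logPartition f N ⌊α * N⌋₊ g)
    ∂(Measure.pi fun _ : Fin ⌊α * N⌋₊ => gaussVec N)

end

end P157
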