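import Mathlib

/-!
# P157, module Fekete: approximate superadditivity with square-root error implies convergence.
-/

open Filter Topology

namespace P157

private lemma fek_block (a : ℕ → ℝ) (C : ℝ) (hC : 0 ≤ C)
    (hsup : ∀ m n : ℕ, 1 ≤ m → 1 ≤ n →
      a m + a n - C * (Real.sqrt ((m + n : ℕ) : ℝ) + 1) ≤ a (m + n))
    (h0 : a 0 = 0) (n : ℕ) (hn : 1 ≤ n) (r : ℕ) (q : ℕ) :
    (q : ℝ) * a n + a r - q * (C * (Real.sqrt ((q * n + r : ℕ) : ℝ) + 1)) ≤ a (q * n + r) := by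
  induction q with
  | zero => simp
  | succ q ih =>
    have hmono : Real.sqrt ((q * n + r : ℕ) : ℝ) ≤ Real.sqrt (((q + 1) * n + r : ℕ) : ℝ) := by
      apply Real.sqrt_le_sqrt
      have : q * n + r ≤ (q + 1) * n + r := by nlinarith
      exact_mod_cast this
    have hnonneg : 0 ≤ C * (Real.sqrt (((q + 1) * n + r : ℕ) : ℝ) + 1) := by positivity
    have heq : (q + 1) * n + r = (q * n + r) + n := by ring
    have hmul : C * (Real.sqrt ((q * n + r : ℕ) : ℝ) + 1)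
        ≤ C * (Real.sqrt (((q + 1) * n + r : ℕ) : ℝ) + 1) :=
      mul_le_mul_of_nonneg_left (by linarith) hC
    have hqn : (0 : ℝ) ≤ q := Nat.cast_nonneg q
    have hmul2 := mul_le_mul_of_nonneg_left hmul hqn
    rcases Nat.eq_zero_or_pos (q * n + r) with h | h
    · have hr : r = 0 := by omega
      have hq : q = 0 := by
        have : q * n = 0 := by omega
        rcases Nat.mul_eq_zero.mp this with h' | h'
        · exact h'
        · omega
      subst hr; subst hq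
      simp only [Nat.cast_zero, zero_mul, zero_add, add_zero, one_mul, Nat.cast_one] at *
      rw [h0]
      linarith
    · have h1 := hsup (q * n + r) n h hn
      rw [← heq] at h1
      push_cast at *
      nlinarith

private lemma fek_half (N : ℕ) (hN : 2 ≤ N) :
    (5 / 4 : ℝ) * Real.sqrt (N : ℝ) ≤ Real.sqrt ((N / 2 : ℕ) : ℝ) + Real.sqrt ((N - N / 2 : ℕ) : ℝ) := by
  have hNr : (2 : ℝ) ≤ N := by exact_mod_cast hN
  have h1 : (N : ℝ) / 3 ≤ ((N / 2 : ℕ) : ℝ) := by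
    have : N ≤ 3 * (N / 2) := by omega
    have h : (N : ℝ) ≤ 3 * ((N / 2 : ℕ) : ℝ) := by exact_mod_cast this
    linarith
  have h2 : (N : ℝ) / 2 ≤ ((N - N / 2 : ℕ) : ℝ) := by
    have : N ≤ 2 * (N - N / 2) := by omega
    have h : (N : ℝ) ≤ 2 * ((N - N / 2 : ℕ) : ℝ) := by exact_mod_cast this
    linarith
  have hs := Real.sqrt_nonneg (N : ℝ)
  have hss := Real.sq_sqrt (show (0 : ℝ) ≤ N by linarith)
  have h3 : (57 / 100 : ℝ) * Real.sqrt (N : ℝ) ≤ Real.sqrt ((N / 2 : ℕ) : ℝ) := by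
    apply Real.le_sqrt_of_sq_le
    nlinarith
  have h4 : (7 / 10 : ℝ) * Real.sqrt (N : ℝ) ≤ Real.sqrt ((N - N / 2 : ℕ) : ℝ) := by
    apply Real.le_sqrt_of_sq_le
    nlinarith
  linarith

/-- Balanced superadditivity of `a - D √·`. -/
private lemma fek_balanced (a : ℕ → ℝ) (C : ℝ) (hC : 0 ≤ C)
    (hsup : ∀ m n : ℕ, 1 ≤ m → 1 ≤ n →
      a m + a n - C * (Real.sqrt ((m + n : ℕ) : ℝ) + 1) ≤ a (m + n)) (N : ℕ) (hN : 2 ≤ N) :
    (a (N / 2) - 8 * C * Real.sqrt ((N / 2 : ℕ) : ℝ))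
      + (a (N - N / 2) - 8 * C * Real.sqrt ((N - N / 2 : ℕ) : ℝ))
      ≤ a N - 8 * C * Real.sqrt (N : ℝ) := by
  have h1 : 1 ≤ N / 2 := by omega
  have h2 : 1 ≤ N - N / 2 := by omega
  have h := hsup (N / 2) (N - N / 2) h1 h2
  have heq : N / 2 + (N - N / 2) = N := by omega
  rw [heq] at h
  have hh := fek_half N hN
  have hs1 : (1 : ℝ) ≤ Real.sqrt (N : ℝ) := by
    rw [Real.one_le_sqrt]
    have : (2 : ℝ) ≤ N := by exact_mod_cast hN
    linarith
  have hm := mul_le_mul_of_nonneg_left hh (show (0 : ℝ) ≤ 8 * C by positivity)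
  have hm2 : C * 1 ≤ C * Real.sqrt (N : ℝ) := mul_le_mul_of_nonneg_left hs1 hC
  nlinarith

private lemma fek_induct (a : ℕ → ℝ) (C : ℝ) (hC : 0 ≤ C)
    (hsup : ∀ m n : ℕ, 1 ≤ m → 1 ≤ n →
      a m + a n - C * (Real.sqrt ((m + n : ℕ) : ℝ) + 1) ≤ a (m + n))
    (A : ℝ) (P : ℕ) (hP : 1 ≤ P)
    (hbase : ∀ k : ℕ, P ≤ k → k < 2 * P → A * k ≤ a k - 8 * C * Real.sqrt (k : ℝ)) :
    ∀ N : ℕ, P ≤ N → A * N ≤ a N - 8 * C * Real.sqrt (N : ℝ) := by
  intro N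
  induction N using Nat.strong_induction_on with
  | _ N ih =>
    intro hN
    by_cases hlt : N < 2 * P
    · exact hbase N hN hlt
    · have h2 : 2 ≤ N := by omega
      have hm1 : P ≤ N / 2 := by omega
      have hm2 : P ≤ N - N / 2 := by omega
      have i1 := ih (N / 2) (by omega) hm1
      have i2 := ih (N - N / 2) (by omega) hm2
      have hb := fek_balanced a C hC hsup N h2
      have hcast : ((N / 2 : ℕ) : ℝ) + ((N - N / 2 : ℕ) : ℝ) = N := by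
        have : N / 2 + (N - N / 2) = N := by omega
        exact_mod_cast this
      have : A * N = A * ((N / 2 : ℕ) : ℝ) + A * ((N - N / 2 : ℕ) : ℝ) := by
        rw [← hcast]; ring
      linarith

/-- The base estimate on `[nK, 2nK)`. -/
private lemma fek_base (a : ℕ → ℝ) (C B : ℝ) (hC : 0 ≤ C) (hB : 0 ≤ B)
    (hsup : ∀ m n : ℕ, 1 ≤ m → 1 ≤ n →
      a m + a n - C * (Real.sqrt ((m + n : ℕ) : ℝ) + 1) ≤ a (m + n))
    (hbd : ∀ n : ℕ, |a n| ≤ B * n) (h0 : a 0 = 0) (ε : ℝ) (hε : 0 < ε) (K : ℕ) (hKpos : (1 : ℝ) ≤ K)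
    (hKB : 8 * B ≤ ε * K) (n : ℕ) (hn1 : 1 ≤ n)
    (hsn2 : 4 * (8 * C) ≤ ε * Real.sqrt n)
    (hsn2' : 4 * (C * (Real.sqrt (2 * K) + 1)) ≤ ε * Real.sqrt n)
    (k : ℕ) (hk1 : n * K ≤ k) (hk2 : k < 2 * (n * K)) :
    (a n / n - ε) * k ≤ a k - 8 * C * Real.sqrt (k : ℝ) := by
  have hn1r : (1 : ℝ) ≤ n := by exact_mod_cast hn1
  have hnpos : (0 : ℝ) < n := by linarith
  have hsnn : 0 ≤ Real.sqrt (n : ℝ) := Real.sqrt_nonneg _
  have hsq : Real.sqrt (n : ℝ) * Real.sqrt (n : ℝ) = n := Real.mul_self_sqrt hnpos.le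
  have hs1 : 1 ≤ Real.sqrt (n : ℝ) := by rw [Real.one_le_sqrt]; exact hn1r
  obtain ⟨α, hα⟩ : ∃ α, α = a n / n := ⟨_, rfl⟩
  rw [← hα]
  have hαn : a n = α * n := by rw [hα]; field_simp
  have hαB : |α| ≤ B := by
    rw [hα, abs_div, Nat.abs_cast, div_le_iff₀ hnpos]
    exact hbd n
  have hαB' := abs_le.mp hαB
  have hkr1 : (n : ℝ) * K ≤ k := by exact_mod_cast hk1
  have hkr2 : (k : ℝ) ≤ 2 * ((n : ℝ) * K) := by
    have : k ≤ 2 * (n * K) := hk2.le
    exact_mod_cast this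
  have hnK : (0 : ℝ) < (n : ℝ) * K := mul_pos hnpos (by linarith)
  have hkpos : (0 : ℝ) < k := by linarith
  obtain ⟨q, hq⟩ : ∃ q, q = k / n := ⟨_, rfl⟩
  obtain ⟨r, hr⟩ : ∃ r, r = k % n := ⟨_, rfl⟩
  have hdecomp : q * n + r = k := by
    rw [hq, hr, mul_comm]; exact Nat.div_add_mod k n
  have hrlt : r < n := by rw [hr]; exact Nat.mod_lt k (by omega)
  have hrr : (r : ℝ) ≤ n := by exact_mod_cast hrlt.le
  have hrnn : (0 : ℝ) ≤ r := Nat.cast_nonneg r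
  have hqnn : (0 : ℝ) ≤ q := Nat.cast_nonneg q
  have hdecompR : (q : ℝ) * n + r = k := by exact_mod_cast hdecomp
  have hblock := fek_block a C hC hsup h0 n hn1 r q
  rw [hdecomp] at hblock
  have har : -(B * n) ≤ a r := by
    have h2 := (abs_le.mp (hbd r)).1
    have h3 : B * r ≤ B * n := mul_le_mul_of_nonneg_left hrr hB
    linarith
  have hsK : 0 ≤ Real.sqrt (2 * (K : ℝ)) := Real.sqrt_nonneg _
  have hsk : Real.sqrt (k : ℝ) + 1 ≤ (Real.sqrt (2 * K) + 1) * Real.sqrt n := by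
    have h1 : Real.sqrt (k : ℝ) ≤ Real.sqrt (2 * K) * Real.sqrt n := by
      rw [← Real.sqrt_mul (by positivity)]
      apply Real.sqrt_le_sqrt
      have : 2 * (K : ℝ) * n = 2 * ((n : ℝ) * K) := by ring
      rw [this]
      exact hkr2
    have h2 : (Real.sqrt (2 * K) + 1) * Real.sqrt n
        = Real.sqrt (2 * K) * Real.sqrt n + Real.sqrt n := by ring
    linarith
  have hCk : C * (Real.sqrt (k : ℝ) + 1) ≤ (C * (Real.sqrt (2 * K) + 1)) * Real.sqrt n := by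
    rw [mul_assoc]
    exact mul_le_mul_of_nonneg_left hsk hC
  have hCn : (C * (Real.sqrt (2 * K) + 1)) * Real.sqrt n ≤ ε * n / 4 := by
    have h1 := mul_le_mul_of_nonneg_right hsn2' hsnn
    have h2 : ε * Real.sqrt (n : ℝ) * Real.sqrt n = ε * n := by rw [mul_assoc, hsq]
    have h3 : 4 * (C * (Real.sqrt (2 * K) + 1)) * Real.sqrt (n : ℝ)
        = 4 * ((C * (Real.sqrt (2 * K) + 1)) * Real.sqrt n) := by ring
    linarith
  have hqk : (q : ℝ) * n ≤ k := by linarith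
  have hqterm : (q : ℝ) * (C * (Real.sqrt (k : ℝ) + 1)) ≤ ε * k / 4 := by
    have h1 : (q : ℝ) * (C * (Real.sqrt (k : ℝ) + 1)) ≤ q * (ε * n / 4) :=
      mul_le_mul_of_nonneg_left (hCk.trans hCn) hqnn
    have h2 : (q : ℝ) * (ε * n / 4) = ((q : ℝ) * n) * (ε / 4) := by ring
    have h3 : ((q : ℝ) * n) * (ε / 4) ≤ k * (ε / 4) :=
      mul_le_mul_of_nonneg_right hqk (by positivity)
    linarith
  have hsk1 : Real.sqrt (n : ℝ) ≤ Real.sqrt (k : ℝ) := by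
    apply Real.sqrt_le_sqrt
    have : (n : ℝ) * 1 ≤ (n : ℝ) * K := mul_le_mul_of_nonneg_left hKpos hnpos.le
    linarith
  have hsknn : 0 ≤ Real.sqrt (k : ℝ) := Real.sqrt_nonneg _
  have hkq : Real.sqrt (k : ℝ) * Real.sqrt (k : ℝ) = k := Real.mul_self_sqrt hkpos.le
  have hDk : 8 * C * Real.sqrt (k : ℝ) ≤ ε * k / 4 := by
    have h1 : 4 * (8 * C) ≤ ε * Real.sqrt (k : ℝ) :=
      hsn2.trans (mul_le_mul_of_nonneg_left hsk1 hε.le)
    have h2 := mul_le_mul_of_nonneg_right h1 hsknn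
    have h3 : ε * Real.sqrt (k : ℝ) * Real.sqrt k = ε * k := by rw [mul_assoc, hkq]
    have h4 : 4 * (8 * C) * Real.sqrt (k : ℝ) = 4 * (8 * C * Real.sqrt k) := by ring
    linarith
  have hBk : 2 * (B * n) ≤ ε * k / 4 := by
    have h1 : (8 * B) * n ≤ (ε * K) * n := mul_le_mul_of_nonneg_right hKB hnpos.le
    have h2 : ε * ((n : ℝ) * K) ≤ ε * k := mul_le_mul_of_nonneg_left hkr1 hε.le
    have h3 : (ε * (K : ℝ)) * n = ε * ((n : ℝ) * K) := by ring
    have h4 : (8 * B) * (n : ℝ) = 4 * (2 * (B * n)) := by ring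
    linarith
  have hmain : α * k ≤ (q : ℝ) * a n + B * n := by
    have h1 : α * k = (q : ℝ) * a n + α * r := by
      rw [← hdecompR, hαn]; ring
    have h2 : α * r ≤ B * r := mul_le_mul_of_nonneg_right hαB'.2 hrnn
    have h3 : B * r ≤ B * n := mul_le_mul_of_nonneg_left hrr hB
    linarith
  have h5 : (α - ε) * k = α * k - ε * k := by ring
  have h6 : 0 ≤ ε * (k : ℝ) := by positivity
  rw [h5]
  linarith

/-- The key estimate: `a N / N ≥ a n / n - ε` for all large `N`, if `n` is large. -/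
private lemma fek_key (a : ℕ → ℝ) (C B : ℝ) (hC : 0 ≤ C) (hB : 0 ≤ B)
    (hsup : ∀ m n : ℕ, 1 ≤ m → 1 ≤ n →
      a m + a n - C * (Real.sqrt ((m + n : ℕ) : ℝ) + 1) ≤ a (m + n))
    (hbd : ∀ n : ℕ, |a n| ≤ B * n) (ε : ℝ) (hε : 0 < ε) :
    ∃ N₀ : ℕ, ∀ n, N₀ ≤ n → ∃ P : ℕ, ∀ N, P ≤ N → a n / n - ε ≤ a N / N := by
  have h0 : a 0 = 0 := by
    have := hbd 0
    simp only [Nat.cast_zero, mul_zero] at this
    exact abs_nonpos_iff.mp this
  obtain ⟨K, hK⟩ := exists_nat_ge (8 * B / ε + 1)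
  have hKpos : (1 : ℝ) ≤ K := by
    have : 0 ≤ 8 * B / ε := by positivity
    linarith
  have hK1 : 1 ≤ K := by exact_mod_cast hKpos
  have hKB : 8 * B ≤ ε * K := by
    have h : 8 * B / ε ≤ K := by linarith
    rw [div_le_iff₀ hε] at h
    linarith
  obtain ⟨D, hD⟩ : ∃ D, D = 8 * C := ⟨_, rfl⟩
  obtain ⟨C', hC'⟩ : ∃ C', C' = C * (Real.sqrt (2 * K) + 1) := ⟨_, rfl⟩
  obtain ⟨N₀, hN₀⟩ := exists_nat_ge (max ((4 * D / ε) ^ 2) ((4 * C' / ε) ^ 2) + 1)
  refine ⟨N₀, fun n hn => ⟨n * K, ?_⟩⟩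
  have hnr : (N₀ : ℝ) ≤ n := by exact_mod_cast hn
  have hm0 : 0 ≤ max ((4 * D / ε) ^ 2) ((4 * C' / ε) ^ 2) := le_max_of_le_left (by positivity)
  have hn1r : (1 : ℝ) ≤ n := by linarith
  have hn1 : 1 ≤ n := by exact_mod_cast hn1r
  have hnD : (4 * D / ε) ^ 2 ≤ n := by
    have := le_max_left ((4 * D / ε) ^ 2) ((4 * C' / ε) ^ 2)
    linarith
  have hnC : (4 * C' / ε) ^ 2 ≤ n := by
    have := le_max_right ((4 * D / ε) ^ 2) ((4 * C' / ε) ^ 2)
    linarith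
  have hsn : 4 * D / ε ≤ Real.sqrt n := Real.le_sqrt_of_sq_le hnD
  have hsn' : 4 * C' / ε ≤ Real.sqrt n := Real.le_sqrt_of_sq_le hnC
  have hsn2 : 4 * D ≤ ε * Real.sqrt n := by
    rw [div_le_iff₀ hε] at hsn; linarith
  have hsn2' : 4 * C' ≤ ε * Real.sqrt n := by
    rw [div_le_iff₀ hε] at hsn'; linarith
  rw [hD] at hsn2
  rw [hC'] at hsn2'
  have hbase := fek_base a C B hC hB hsup hbd h0 ε hε K hKpos hKB n hn1 hsn2 hsn2'
  intro N hN
  have hPpos : 1 ≤ n * K := Nat.mul_pos (by omega) (by omega)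
  have hI := fek_induct a C hC hsup (a n / n - ε) (n * K) hPpos hbase N hN
  have hNpos : (0 : ℝ) < N := by
    have : 1 ≤ N := hPpos.trans hN
    exact_mod_cast this
  rw [le_div_iff₀ hNpos]
  have hsN : 0 ≤ 8 * C * Real.sqrt (N : ℝ) := by positivity
  linarith

/-- Let `a : ℕ → ℝ` with `a (m + n) ≥ a m + a n - C (√(m+n) + 1)` for `m, n ≥ 1`
and `|a n| ≤ B n`. Then `a n / n` converges. -/
theorem tendsto_of_almost_superadditive (a : ℕ → ℝ) (C B : ℝ) (hC : 0 ≤ C) (hB : 0 ≤ B)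
    (hsup : ∀ m n : ℕ, 1 ≤ m → 1 ≤ n →
      a m + a n - C * (Real.sqrt ((m + n : ℕ) : ℝ) + 1) ≤ a (m + n))
    (hbd : ∀ n : ℕ, |a n| ≤ B * n) :
    ∃ L : ℝ, Tendsto (fun n : ℕ => a n / n) atTop (𝓝 L) := by
  set b : ℕ → ℝ := fun n => a n / n with hb
  have hbb : ∀ n, |b n| ≤ B := by
    intro n
    rcases Nat.eq_zero_or_pos n with h | h
    · subst h; simp [hb, hB]
    · have hn : (0 : ℝ) < n := by exact_mod_cast h
      simp only [hb]
      rw [abs_div, Nat.abs_cast, div_le_iff₀ hn]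
      exact hbd n
  have hbu : IsBoundedUnder (· ≤ ·) atTop b :=
    isBoundedUnder_of ⟨B, fun n => (abs_le.mp (hbb n)).2⟩
  have hbl : IsBoundedUnder (· ≥ ·) atTop b :=
    isBoundedUnder_of ⟨-B, fun n => (abs_le.mp (hbb n)).1⟩
  refine ⟨limsup b atTop, ?_⟩
  rw [tendsto_order]
  constructor
  · intro x hx
    set L := limsup b atTop with hL
    have hε : 0 < (L - x) / 2 := by linarith
    obtain ⟨N₀, hN₀⟩ := fek_key a C B hC hB hsup hbd _ hε
    have hfreq : ∃ᶠ n in atTop, L - (L - x) / 2 < b n :=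
      frequently_lt_of_lt_limsup hbl.isCobounded_flip (by linarith)
    obtain ⟨n, hn2, hn1⟩ := (hfreq.and_eventually (eventually_ge_atTop N₀)).exists
    obtain ⟨P, hP⟩ := hN₀ n hn1
    filter_upwards [eventually_ge_atTop P] with N hN
    have := hP N hN
    simp only [hb] at hn2
    linarith
  · intro x hx
    exact eventually_lt_of_limsup_lt hx hbu

end P157
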