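import Vale.Agent.Lib.P157.Split
import Vale.Agent.Lib.P157.Fekete

/-!
# P157: the superadditivity scheme for an abstract potential.

Everything in `Split.lean` only uses three facts about the function `y` in `U = c (1 - y)`:
continuity, the bound `|y| ≤ m < 1`, and the one-pattern comparison inequality.
-/

open MeasureTheory ProbabilityTheory Filter Topology

namespace P157

namespace Gen

noncomputable section

/-- `s(g) = ∑_x ν(x) y(fld β g (v x))`. -/
def sAvg {N : ℕ} {X : Type*} [Fintype X] (y : ℝ → ℝ) (ν : X → ℝ) (v : X → Fin N → ℝ)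
    (β g : Fin N → ℝ) : ℝ :=
  ∑ x, ν x * y (fld β g (v x))

/-- The log-potential `f(u) = log (c (1 - y u))`. -/
def logPot (y : ℝ → ℝ) (c u : ℝ) : ℝ := Real.log (c * (1 - y u))

/-- Abstract hypotheses on the function `y`. -/
structure GoodY (y : ℝ → ℝ) (m : ℝ) : Prop where
  cont : Continuous y
  bd : ∀ u, |y u| ≤ m
  m1 : m < 1
  cmp : ∀ (N₁ N₂ : ℕ), 1 ≤ N₁ → 1 ≤ N₂ → ∀ ν : (Fin (N₁ + N₂) → Bool) → ℝ,
    (∀ x, 0 ≤ ν x) → ∑ x, ν x = 1 →
    ((N₁ : ℝ) / (N₁ + N₂ : ℕ)) *
        ∫ g, Real.log (1 - sAvg y ν spinVec (beta1 N₁ N₂) g) ∂(gaussVec (N₁ + N₂))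
      + (1 - (N₁ : ℝ) / (N₁ + N₂ : ℕ)) *
        ∫ g, Real.log (1 - sAvg y ν spinVec (beta2 N₁ N₂) g) ∂(gaussVec (N₁ + N₂))
    ≤ ∫ g, Real.log (1 - sAvg y ν spinVec (beta0 N₁ N₂) g) ∂(gaussVec (N₁ + N₂))

theorem GoodY.m0 {y : ℝ → ℝ} {m : ℝ} (hy : GoodY y m) : 0 ≤ m :=
  (abs_nonneg _).trans (hy.bd 0)

theorem continuous_sAvg {y : ℝ → ℝ} {m : ℝ} (hy : GoodY y m) {N : ℕ} {X : Type*} [Fintype X]
    (ν : X → ℝ) (v : X → Fin N → ℝ) (β : Fin N → ℝ) : Continuous (sAvg y ν v β) := by
  unfold sAvg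
  refine continuous_finsetSum _ fun x _ => ?_
  exact continuous_const.mul (hy.cont.comp (continuous_fld_g β (v x)))

theorem abs_sAvg_le {y : ℝ → ℝ} {m : ℝ} (hy : GoodY y m) {N : ℕ} {X : Type*} [Fintype X]
    (ν : X → ℝ) (hν : ∀ x, 0 ≤ ν x) (v : X → Fin N → ℝ) (β g : Fin N → ℝ) :
    |sAvg y ν v β g| ≤ (∑ x, ν x) * m := by
  unfold sAvg
  refine (Finset.abs_sum_le_sum_abs _ _).trans ?_
  rw [Finset.sum_mul]
  refine Finset.sum_le_sum fun x _ => ?_
  rw [abs_mul, abs_of_nonneg (hν x)]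
  exact mul_le_mul_of_nonneg_left (hy.bd _) (hν x)

/-- The potential weight `U(u) = c (1 - y_μ(u))`. -/
def potU (y : ℝ → ℝ) (c u : ℝ) : ℝ := c * (1 - y u)

/-- Weights of the single-block system on `Fin N → Bool`. -/
def phiOne (y : ℝ → ℝ) (c : ℝ) (N : ℕ) : Unit → (Fin N → ℝ) → (Fin N → Bool) → ℝ :=
  fun _ g x => potU y c (localField g x)

/-- `L N M = E log 2^{-N} ∑_x ∏_{a<M} U(g^a·x/√N)`, as an iterated expectation. -/
def logZ (y : ℝ → ℝ) (c : ℝ) (N M : ℕ) : ℝ :=
  H (gaussVec N) (phiOne y c N) (List.replicate M ()) (fun _ => ((2 : ℝ) ^ N)⁻¹)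

/-- The bound constant of the potential: `K = max |log (c (1-m))|, |log (c (1+m))|` with `m = μ(ℝ)`. -/
def potK (m c : ℝ) : ℝ :=
  max |Real.log (c * (1 - m))| |Real.log (c * (1 + m))|

variable {y : ℝ → ℝ} {m c : ℝ}

theorem potU_bounds (hy : GoodY y m) (hc : 0 < c) (u : ℝ) :
    Real.exp (-potK m c) ≤ potU y c u ∧ potU y c u ≤ Real.exp (potK m c) := by
  have hm0 : 0 ≤ m := hy.m0
  have hm1 : m < 1 := hy.m1
  have hy' := abs_le.1 (hy.bd u)
  have h1 : 0 < c * (1 - m) := mul_pos hc (by linarith)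
  have h2 : 0 < c * (1 + m) := mul_pos hc (by linarith)
  have hK1 : |Real.log (c * (1 - m))| ≤ potK m c := le_max_left _ _
  have hK2 : |Real.log (c * (1 + m))| ≤ potK m c := le_max_right _ _
  constructor
  · calc Real.exp (-potK m c) ≤ Real.exp (Real.log (c * (1 - m))) := by
          apply Real.exp_le_exp.2
          have := abs_le.1 hK1
          linarith [this.1]
      _ = c * (1 - m) := Real.exp_log h1
      _ ≤ potU y c u := by
          unfold potU
          exact mul_le_mul_of_nonneg_left (by linarith [hy'.2]) hc.le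
  · calc potU y c u ≤ c * (1 + m) := by
          unfold potU
          exact mul_le_mul_of_nonneg_left (by linarith [hy'.1]) hc.le
      _ = Real.exp (Real.log (c * (1 + m))) := (Real.exp_log h2).symm
      _ ≤ Real.exp (potK m c) := by
          apply Real.exp_le_exp.2
          exact (le_abs_self _).trans hK2

theorem potU_pos (hy : GoodY y m) (hc : 0 < c) (u : ℝ) : 0 < potU y c u :=
  (Real.exp_pos _).trans_le (potU_bounds hy hc u).1

theorem continuous_potU (hy : GoodY y m) (c : ℝ) : Continuous (potU y c) := by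
  unfold potU
  have := hy.cont
  fun_prop

theorem continuous_localField {N : ℕ} (x : Fin N → Bool) :
    Continuous fun g : Fin N → ℝ => localField g x := by
  unfold localField
  fun_prop

theorem measurable_localField {N : ℕ} (x : Fin N → Bool) :
    Measurable fun g : Fin N → ℝ => localField g x :=
  (continuous_localField x).measurable

/-- Admissibility of the single-block system (`N ≥ 1` is not needed). -/
theorem admissible_one (hy : GoodY y m) (hc : 0 < c) (N : ℕ) :
    Admissible (gaussVec N) (phiOne y c N) (potK m c) where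
  prob := inferInstance
  meas := fun _ x => ((continuous_potU hy c).comp (continuous_localField x)).measurable
  lo := fun _ g x => (potU_bounds hy hc _).1
  hi := fun _ g x => (potU_bounds hy hc _).2

theorem potK_nonneg (m c : ℝ) : 0 ≤ potK m c :=
  (abs_nonneg _).trans (le_max_left _ _)

instance cube_nonempty (N : ℕ) : Nonempty (Fin N → Bool) := ⟨fun _ => true⟩

theorem logZ_succ_sub (hy : GoodY y m) (hc : 0 < c) (N M : ℕ) :
    |logZ y c N (M + 1) - logZ y c N M| ≤ potK m c := by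
  unfold logZ
  rw [List.replicate_succ]
  exact H_cons_sub (admissible_one hy hc N) () _ _ (fun _ => by positivity)

theorem logZ_zero (N : ℕ) (y : ℝ → ℝ) (c : ℝ) : logZ y c N 0 = 0 := by
  unfold logZ
  simp [H]

/-- Lipschitz in `M`. -/
theorem logZ_lipschitz (hy : GoodY y m) (hc : 0 < c) (N M M' : ℕ) :
    |logZ y c N M - logZ y c N M'| ≤ potK m c * |(M : ℝ) - M'| := by
  have aux : ∀ (M d : ℕ), |logZ y c N (M + d) - logZ y c N M| ≤ potK m c * d := by
    intro M d
    induction d with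
    | zero => simp
    | succ d ih =>
      have h1 := logZ_succ_sub hy hc N (M + d)
      have h2 := abs_sub_le (logZ y c N (M + d + 1)) (logZ y c N (M + d)) (logZ y c N M)
      rw [← add_assoc]
      push_cast
      rw [mul_add, mul_one]
      linarith
  rcases le_total M M' with h | h
  · obtain ⟨d, rfl⟩ := Nat.exists_eq_add_of_le h
    rw [abs_sub_comm]
    have : |((M : ℝ) - ((M + d : ℕ) : ℝ))| = d := by
      push_cast
      rw [show (M : ℝ) - (M + d) = -(d : ℝ) by ring, abs_neg, abs_of_nonneg (Nat.cast_nonneg d)]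
    rw [this]
    exact aux M d
  · obtain ⟨d, rfl⟩ := Nat.exists_eq_add_of_le h
    have : |(((M' + d : ℕ) : ℝ) - (M' : ℝ))| = d := by
      push_cast
      rw [show (M' : ℝ) + d - M' = (d : ℝ) by ring, abs_of_nonneg (Nat.cast_nonneg d)]
    rw [this]
    exact aux M' d

/-- `|logZ N ⌊α N⌋| ≤ K α N`. -/
theorem logZ_floor_bound (hy : GoodY y m) (hc : 0 < c) (α : ℝ) (hα : 0 < α) (N : ℕ) :
    |logZ y c N ⌊α * N⌋₊| ≤ (potK m c * α) * N := by
  have h := logZ_lipschitz hy hc N ⌊α * N⌋₊ 0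
  rw [logZ_zero, sub_zero] at h
  refine h.trans ?_
  rw [mul_assoc]
  refine mul_le_mul_of_nonneg_left ?_ (potK_nonneg m c)
  simp only [Nat.cast_zero, sub_zero, Nat.abs_cast]
  exact Nat.floor_le (by positivity)

/-- The link with the definition of `expectedPressure`. -/
theorem expectedPressure_eq (hy : GoodY y m) (hc : 0 < c) (α : ℝ) (N : ℕ) :
    expectedPressure (logPot y c) α N = logZ y c N ⌊α * N⌋₊ / N := by
  unfold expectedPressure logZ
  rw [integral_const_mul, div_eq_inv_mul]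
  congr 1
  rw [H_replicate_eq_pi (admissible_one hy hc N) () _ _ (fun _ => by positivity)]
  refine integral_congr_ae (Filter.Eventually.of_forall fun g => ?_)
  unfold logPartition
  congr 1
  rw [Finset.mul_sum]
  refine Finset.sum_congr rfl fun x _ => ?_
  congr 1
  rw [Real.exp_sum]
  refine Finset.prod_congr rfl fun a _ => ?_
  unfold logPot
  exact Real.exp_log (potU_pos hy hc _)

/-- The weights of the three-type system on the cube of dimension `N₁ + N₂`. -/
def pat3 (y : ℝ → ℝ) (c : ℝ) (N₁ N₂ : ℕ) :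
    PatT → (Fin (N₁ + N₂) → ℝ) → (Fin (N₁ + N₂) → Bool) → ℝ
  | PatT.c, g, x => potU y c (localField g x)
  | PatT.a, g, x => potU y c (localField (fun j => g (Fin.castAdd N₂ j)) (fun j => x (Fin.castAdd N₂ j)))
  | PatT.b, g, x => potU y c (localField (fun j => g (Fin.natAdd N₁ j)) (fun j => x (Fin.natAdd N₁ j)))

theorem measurable_restrict_cast (N₁ N₂ : ℕ) :
    Measurable fun (g : Fin (N₁ + N₂) → ℝ) (j : Fin N₁) => g (Fin.castAdd N₂ j) :=
  measurable_pi_lambda _ fun j => measurable_pi_apply _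

theorem measurable_restrict_nat (N₁ N₂ : ℕ) :
    Measurable fun (g : Fin (N₁ + N₂) → ℝ) (j : Fin N₂) => g (Fin.natAdd N₁ j) :=
  measurable_pi_lambda _ fun j => measurable_pi_apply _

theorem admissible_three (hy : GoodY y m) (hc : 0 < c) (N₁ N₂ : ℕ) :
    Admissible (gaussVec (N₁ + N₂)) (pat3 y c N₁ N₂) (potK m c) where
  prob := inferInstance
  meas := by
    intro t x
    cases t
    · exact ((continuous_potU hy c).comp (continuous_localField x)).measurable
    · exact (((continuous_potU hy c).comp (continuous_localField _)).measurable).comp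
        (measurable_restrict_cast N₁ N₂)
    · exact (((continuous_potU hy c).comp (continuous_localField _)).measurable).comp
        (measurable_restrict_nat N₁ N₂)
  lo := by
    intro t g x
    cases t <;> exact (potU_bounds hy hc _).1
  hi := by
    intro t g x
    cases t <;> exact (potU_bounds hy hc _).2

/-- The rewriting of a one-pattern term: `∑ w U = c S (1 - s)`. -/
theorem sum_weight_eq {N : ℕ} {X : Type*} [Fintype X] (w : X → ℝ) (hS : (∑ x, w x) ≠ 0)
    (v : X → Fin N → ℝ) (β g : Fin N → ℝ) :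
    ∑ x, w x * potU y c (fld β g (v x))
      = c * (∑ x, w x) * (1 - sAvg y (fun x => w x / ∑ y, w y) v β g) := by
  unfold potU sAvg
  have h1 : (∑ y, w y) * ∑ x, (w x / ∑ y, w y) * y (fld β g (v x))
      = ∑ x, w x * y (fld β g (v x)) := by
    rw [Finset.mul_sum]
    refine Finset.sum_congr rfl fun x _ => ?_
    field_simp
  calc ∑ x, w x * (c * (1 - y (fld β g (v x))))
      = c * (∑ x, w x) - c * ∑ x, w x * y (fld β g (v x)) := by
        rw [Finset.mul_sum, Finset.mul_sum, ← Finset.sum_sub_distrib]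
        refine Finset.sum_congr rfl fun x _ => ?_
        ring
    _ = _ := by
        rw [← h1]
        ring

theorem integrable_log_one_sub (hy : GoodY y m) {N : ℕ} {X : Type*} [Fintype X]
    (ν : X → ℝ) (hν : ∀ x, 0 ≤ ν x) (hν1 : ∑ x, ν x = 1) (v : X → Fin N → ℝ) (β : Fin N → ℝ) :
    Integrable (fun g => Real.log (1 - sAvg y ν v β g)) (gaussVec N) := by
  have hm0 : 0 ≤ m := hy.m0
  have hm1 : m < 1 := hy.m1
  have hs : ∀ g, |sAvg y ν v β g| ≤ m := by
    intro g
    have := abs_sAvg_le hy ν hν v β g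
    rwa [hν1, one_mul] at this
  have hpos : ∀ g, 0 < 1 - sAvg y ν v β g := fun g => by
    have := (abs_le.1 (hs g)).2
    linarith
  have hcont : Continuous fun g => Real.log (1 - sAvg y ν v β g) :=
    Continuous.log (continuous_const.sub (continuous_sAvg hy ν v β)) fun g => (hpos g).ne'
  refine Integrable.of_bound (C := |Real.log (1 - m)| + |Real.log (1 + m)|)
    hcont.aestronglyMeasurable (Filter.Eventually.of_forall fun g => ?_)
  have h1 : 0 < 1 - m := by linarith
  have hb := abs_le.1 (hs g)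
  have hlo := Real.log_le_log h1 (show 1 - m ≤ 1 - sAvg y ν v β g by linarith [hb.2])
  have hhi := Real.log_le_log (hpos g) (show 1 - sAvg y ν v β g ≤ 1 + m by linarith [hb.1])
  rw [Real.norm_eq_abs, abs_le]
  have a1 := abs_nonneg (Real.log (1 - m))
  have a2 := abs_nonneg (Real.log (1 + m))
  have a3 := neg_abs_le (Real.log (1 - m))
  have a4 := le_abs_self (Real.log (1 + m))
  constructor <;> linarith

/-- Evaluate `H [t] w` for a pattern of the form `U (fld β g (v x))`. -/
theorem integral_log_weight (hy : GoodY y m) (hc : 0 < c) {N : ℕ} {X : Type*} [Fintype X]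
    [Nonempty X] (w : X → ℝ) (hw : ∀ x, 0 < w x) (v : X → Fin N → ℝ) (β : Fin N → ℝ) :
    ∫ g, Real.log (∑ x, w x * potU y c (fld β g (v x))) ∂(gaussVec N)
      = Real.log (c * ∑ x, w x)
        + ∫ g, Real.log (1 - sAvg y (fun x => w x / ∑ y, w y) v β g) ∂(gaussVec N) := by
  have hS := sum_pos_of_pos w hw
  have hν : ∀ x, 0 ≤ w x / ∑ y, w y := fun x => div_nonneg (hw x).le hS.le
  have hν1 : ∑ x, w x / ∑ y, w y = 1 := by
    rw [← Finset.sum_div, div_self hS.ne']
  have hpos : ∀ g, 0 < 1 - sAvg y (fun x => w x / ∑ y, w y) v β g := fun g => by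
    have h1 := abs_sAvg_le hy _ hν v β g
    rw [hν1, one_mul] at h1
    have := (abs_le.1 h1).2
    have hm1 := hy.m1
    linarith
  have hpt : ∀ g, Real.log (∑ x, w x * potU y c (fld β g (v x)))
      = Real.log (c * ∑ x, w x) + Real.log (1 - sAvg y (fun x => w x / ∑ y, w y) v β g) := by
    intro g
    rw [sum_weight_eq w hS.ne' v β g, Real.log_mul (mul_pos hc hS).ne' (hpos g).ne']
  simp_rw [hpt]
  rw [integral_add (integrable_const _) (integrable_log_one_sub hy _ hν hν1 v β)]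
  simp

theorem core_three (hy : GoodY y m) (hc : 0 < c) (N₁ N₂ : ℕ) (h₁ : 1 ≤ N₁) (h₂ : 1 ≤ N₂)
    (w : (Fin (N₁ + N₂) → Bool) → ℝ) (hw : ∀ x, 0 < w x) :
    ((N₁ : ℝ) / (N₁ + N₂ : ℕ)) * H (gaussVec (N₁ + N₂)) (pat3 y c N₁ N₂) [PatT.a] w
        + (1 - (N₁ : ℝ) / (N₁ + N₂ : ℕ)) * H (gaussVec (N₁ + N₂)) (pat3 y c N₁ N₂) [PatT.b] w
      ≤ H (gaussVec (N₁ + N₂)) (pat3 y c N₁ N₂) [PatT.c] w := by
  have hS := sum_pos_of_pos w hw
  have hν : ∀ x, 0 ≤ w x / ∑ y, w y := fun x => div_nonneg (hw x).le hS.le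
  have hν1 : ∑ x, w x / ∑ y, w y = 1 := by
    rw [← Finset.sum_div, div_self hS.ne']
  have ea : H (gaussVec (N₁ + N₂)) (pat3 y c N₁ N₂) [PatT.a] w
      = ∫ g, Real.log (∑ x, w x * potU y c (fld (beta1 N₁ N₂) g (spinVec x))) ∂(gaussVec (N₁ + N₂)) := by
    simp only [H, pat3, localField_eq_fld1]
  have eb : H (gaussVec (N₁ + N₂)) (pat3 y c N₁ N₂) [PatT.b] w
      = ∫ g, Real.log (∑ x, w x * potU y c (fld (beta2 N₁ N₂) g (spinVec x))) ∂(gaussVec (N₁ + N₂)) := by
    simp only [H, pat3, localField_eq_fld2]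
  have ec : H (gaussVec (N₁ + N₂)) (pat3 y c N₁ N₂) [PatT.c] w
      = ∫ g, Real.log (∑ x, w x * potU y c (fld (beta0 N₁ N₂) g (spinVec x))) ∂(gaussVec (N₁ + N₂)) := by
    simp only [H, pat3, localField_eq_fld0]
  rw [ea, eb, ec, integral_log_weight hy hc w hw, integral_log_weight hy hc w hw,
    integral_log_weight hy hc w hw]
  have hN₁ : (0 : ℝ) < N₁ := by exact_mod_cast h₁
  have hN₂ : (0 : ℝ) < N₂ := by exact_mod_cast h₂
  have hl0 : 0 ≤ (N₁ : ℝ) / (N₁ + N₂ : ℕ) := by positivity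
  have hl1 : (N₁ : ℝ) / (N₁ + N₂ : ℕ) ≤ 1 := by
    rw [div_le_one (by push_cast; positivity)]
    push_cast
    linarith
  have := hy.cmp N₁ N₂ h₁ h₂ _ hν hν1
  linarith

theorem H_factor (hy : GoodY y m) (hc : 0 < c) (N₁ N₂ : ℕ) (i j : ℕ)
    (w₁ : (Fin N₁ → Bool) → ℝ) (w₂ : (Fin N₂ → Bool) → ℝ) (hw₁ : ∀ x, 0 < w₁ x) (hw₂ : ∀ x, 0 < w₂ x) :
    H (gaussVec (N₁ + N₂)) (pat3 y c N₁ N₂) (List.replicate i PatT.a ++ List.replicate j PatT.b)
        (prodW w₁ w₂)
      = H (gaussVec N₁) (phiOne y c N₁) (List.replicate i ()) w₁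
        + H (gaussVec N₂) (phiOne y c N₂) (List.replicate j ()) w₂ := by
  have hφ₁ := admissible_one hy hc N₁
  have hφ₂ := admissible_one hy hc N₂
  induction i generalizing w₁ with
  | zero =>
    induction j generalizing w₂ with
    | zero =>
      simp only [List.replicate_zero, List.nil_append, H]
      rw [sum_prodW, Real.log_mul (sum_pos_of_pos w₁ hw₁).ne' (sum_pos_of_pos w₂ hw₂).ne']
    | succ j ih =>
      simp only [List.replicate_zero, List.nil_append, List.replicate_succ, H] at ih ⊢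
      have hpt : ∀ g : Fin (N₁ + N₂) → ℝ,
          H (gaussVec (N₁ + N₂)) (pat3 y c N₁ N₂) (List.replicate j PatT.b)
              (fun x => prodW w₁ w₂ x * pat3 y c N₁ N₂ PatT.b g x)
            = Real.log (∑ x, w₁ x)
              + H (gaussVec N₂) (phiOne y c N₂) (List.replicate j ())
                  (fun x => w₂ x * phiOne y c N₂ () (fun j => g (Fin.natAdd N₁ j)) x) := by
        intro g
        rw [← ih (fun x => w₂ x * phiOne y c N₂ () (fun j => g (Fin.natAdd N₁ j)) x)
          (fun x => mul_pos (hw₂ x) (hφ₂.pos _ _ x))]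
        congr 1
        funext x
        simp only [prodW, pat3, phiOne]
        ring
      simp_rw [hpt]
      have hint := H_integrable hφ₂ () (List.replicate j ()) w₂ hw₂
      have hmap := gaussVec_map_nat N₁ N₂
      have hint' : Integrable (fun g : Fin (N₁ + N₂) → ℝ =>
          H (gaussVec N₂) (phiOne y c N₂) (List.replicate j ())
            (fun x => w₂ x * phiOne y c N₂ () (fun j => g (Fin.natAdd N₁ j)) x)) (gaussVec (N₁ + N₂)) := by
        have hint2 : Integrable (fun g : Fin N₂ → ℝ =>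
            H (gaussVec N₂) (phiOne y c N₂) (List.replicate j ()) (fun x => w₂ x * phiOne y c N₂ () g x))
            ((gaussVec (N₁ + N₂)).map (fun (g : Fin (N₁ + N₂) → ℝ) (j : Fin N₂) => g (Fin.natAdd N₁ j))) := by
          rw [hmap]
          exact hint
        exact hint2.comp_measurable (measurable_restrict_nat N₁ N₂)
      rw [integral_add (integrable_const _) hint']
      simp only [integral_const, probReal_univ, smul_eq_mul, one_mul]
      congr 1
      have hsm : StronglyMeasurable fun g : Fin N₂ → ℝ =>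
          H (gaussVec N₂) (phiOne y c N₂) (List.replicate j ()) (fun x => w₂ x * phiOne y c N₂ () g x) :=
        (H_meas hφ₂ _ (fun (g : Fin N₂ → ℝ) x => w₂ x * phiOne y c N₂ () g x)
          (fun x => (hφ₂.meas _ x).const_mul _)).stronglyMeasurable
      have := integral_map (μ := gaussVec (N₁ + N₂)) (measurable_restrict_nat N₁ N₂).aemeasurable
        (f := fun g : Fin N₂ → ℝ =>
          H (gaussVec N₂) (phiOne y c N₂) (List.replicate j ()) (fun x => w₂ x * phiOne y c N₂ () g x))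
        (hsm.aestronglyMeasurable)
      rw [hmap] at this
      exact this.symm
  | succ i ih =>
    simp only [List.replicate_succ, List.cons_append, H] at ih ⊢
    have hpt : ∀ g : Fin (N₁ + N₂) → ℝ,
        H (gaussVec (N₁ + N₂)) (pat3 y c N₁ N₂) (List.replicate i PatT.a ++ List.replicate j PatT.b)
            (fun x => prodW w₁ w₂ x * pat3 y c N₁ N₂ PatT.a g x)
          = H (gaussVec N₁) (phiOne y c N₁) (List.replicate i ())
                (fun x => w₁ x * phiOne y c N₁ () (fun j => g (Fin.castAdd N₂ j)) x)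
            + H (gaussVec N₂) (phiOne y c N₂) (List.replicate j ()) w₂ := by
      intro g
      rw [← ih (fun x => w₁ x * phiOne y c N₁ () (fun j => g (Fin.castAdd N₂ j)) x)
        (fun x => mul_pos (hw₁ x) (hφ₁.pos _ _ x))]
      congr 1
      funext x
      simp only [prodW, pat3, phiOne]
      ring
    simp_rw [hpt]
    have hint := H_integrable hφ₁ () (List.replicate i ()) w₁ hw₁
    have hmap := gaussVec_map_cast N₁ N₂
    have hint' : Integrable (fun g : Fin (N₁ + N₂) → ℝ =>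
        H (gaussVec N₁) (phiOne y c N₁) (List.replicate i ())
          (fun x => w₁ x * phiOne y c N₁ () (fun j => g (Fin.castAdd N₂ j)) x)) (gaussVec (N₁ + N₂)) := by
      have hint2 : Integrable (fun g : Fin N₁ → ℝ =>
          H (gaussVec N₁) (phiOne y c N₁) (List.replicate i ()) (fun x => w₁ x * phiOne y c N₁ () g x))
          ((gaussVec (N₁ + N₂)).map (fun (g : Fin (N₁ + N₂) → ℝ) (j : Fin N₁) => g (Fin.castAdd N₂ j))) := by
        rw [hmap]
        exact hint
      exact hint2.comp_measurable (measurable_restrict_cast N₁ N₂)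
    rw [integral_add hint' (integrable_const _)]
    simp only [integral_const, probReal_univ, smul_eq_mul, one_mul]
    congr 1
    have hsm : StronglyMeasurable fun g : Fin N₁ → ℝ =>
        H (gaussVec N₁) (phiOne y c N₁) (List.replicate i ()) (fun x => w₁ x * phiOne y c N₁ () g x) :=
      (H_meas hφ₁ _ (fun (g : Fin N₁ → ℝ) x => w₁ x * phiOne y c N₁ () g x)
        (fun x => (hφ₁.meas _ x).const_mul _)).stronglyMeasurable
    have := integral_map (μ := gaussVec (N₁ + N₂)) (measurable_restrict_cast N₁ N₂).aemeasurable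
      (f := fun g : Fin N₁ → ℝ =>
        H (gaussVec N₁) (phiOne y c N₁) (List.replicate i ()) (fun x => w₁ x * phiOne y c N₁ () g x))
      (hsm.aestronglyMeasurable)
    rw [hmap] at this
    exact this.symm

theorem H_single (N₁ N₂ M : ℕ) (w : (Fin (N₁ + N₂) → Bool) → ℝ) :
    H (gaussVec (N₁ + N₂)) (pat3 y c N₁ N₂) (List.replicate M PatT.c) w
      = H (gaussVec (N₁ + N₂)) (phiOne y c (N₁ + N₂)) (List.replicate M ()) w := by
  induction M generalizing w with
  | zero => simp [H]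
  | succ M ih =>
    simp only [List.replicate_succ, H]
    refine integral_congr_ae (Filter.Eventually.of_forall fun g => ?_)
    exact ih _

/-- **Binomial superadditivity**. -/
theorem logZ_binomial (hy : GoodY y m) (hc : 0 < c) (N₁ N₂ : ℕ) (h₁ : 1 ≤ N₁) (h₂ : 1 ≤ N₂)
    (M : ℕ) :
    ∑ k ∈ Finset.range (M + 1),
        (M.choose k : ℝ) * ((N₁ : ℝ) / (N₁ + N₂ : ℕ)) ^ k * (1 - (N₁ : ℝ) / (N₁ + N₂ : ℕ)) ^ (M - k) *
          (logZ y c N₁ k + logZ y c N₂ (M - k))
      ≤ logZ y c (N₁ + N₂) M := by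
  have hN₁ : (0 : ℝ) < N₁ := by exact_mod_cast h₁
  have hN₂ : (0 : ℝ) < N₂ := by exact_mod_cast h₂
  have hl0 : 0 ≤ (N₁ : ℝ) / (N₁ + N₂ : ℕ) := by positivity
  have hl1 : (N₁ : ℝ) / (N₁ + N₂ : ℕ) ≤ 1 := by
    rw [div_le_one (by push_cast; positivity)]
    push_cast
    linarith
  have hw : ∀ x : Fin (N₁ + N₂) → Bool, 0 < prodW (fun _ : Fin N₁ → Bool => ((2 : ℝ) ^ N₁)⁻¹)
      (fun _ : Fin N₂ → Bool => ((2 : ℝ) ^ N₂)⁻¹) x := by
    intro x
    unfold prodW
    positivity
  have hconst : (fun _ : Fin (N₁ + N₂) → Bool => ((2 : ℝ) ^ (N₁ + N₂))⁻¹)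
      = prodW (fun _ : Fin N₁ → Bool => ((2 : ℝ) ^ N₁)⁻¹) (fun _ : Fin N₂ → Bool => ((2 : ℝ) ^ N₂)⁻¹) := by
    funext x
    unfold prodW
    rw [pow_add, mul_inv]
  have key := H_binomial (admissible_three hy hc N₁ N₂) PatT.c PatT.a PatT.b
    ((N₁ : ℝ) / (N₁ + N₂ : ℕ)) hl0 hl1 (core_three hy hc N₁ N₂ h₁ h₂) M _ hw
  have hR : logZ y c (N₁ + N₂) M
      = H (gaussVec (N₁ + N₂)) (pat3 y c N₁ N₂) (List.replicate M PatT.c)
          (prodW (fun _ : Fin N₁ → Bool => ((2 : ℝ) ^ N₁)⁻¹) (fun _ : Fin N₂ → Bool => ((2 : ℝ) ^ N₂)⁻¹)) := by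
    rw [H_single, ← hconst]
    rfl
  rw [hR]
  refine le_trans (le_of_eq ?_) key
  refine Finset.sum_congr rfl fun k _ => ?_
  rw [H_factor hy hc N₁ N₂ k (M - k) _ _ (fun _ => by positivity) (fun _ => by positivity)]
  rfl

/-- **Approximate superadditivity.** -/
theorem logZ_almost_superadditive (hy : GoodY y m) (hc : 0 < c) (α : ℝ) (hα : 0 < α) :
    ∃ C : ℝ, 0 ≤ C ∧ ∀ N₁ N₂ : ℕ, 1 ≤ N₁ → 1 ≤ N₂ →
      logZ y c N₁ ⌊α * N₁⌋₊ + logZ y c N₂ ⌊α * N₂⌋₊
          - C * (Real.sqrt ((N₁ + N₂ : ℕ) : ℝ) + 1)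
        ≤ logZ y c (N₁ + N₂) ⌊α * ((N₁ + N₂ : ℕ) : ℝ)⌋₊ := by
  set K := potK m c with hK
  have hK0 : 0 ≤ K := potK_nonneg m c
  refine ⟨2 * K * (Real.sqrt α + 2), by positivity, fun N₁ N₂ h₁ h₂ => ?_⟩
  have hN₁ : (0 : ℝ) < N₁ := by exact_mod_cast h₁
  have hN₂ : (0 : ℝ) < N₂ := by exact_mod_cast h₂
  set N : ℝ := ((N₁ + N₂ : ℕ) : ℝ) with hNdef
  have hN : 0 < N := by rw [hNdef]; push_cast; positivity
  have hNsum : N = N₁ + N₂ := by rw [hNdef]; push_cast; ring
  set l : ℝ := (N₁ : ℝ) / (N₁ + N₂ : ℕ) with hl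
  have hl' : l = N₁ / N := rfl
  have hl0 : 0 ≤ l := by positivity
  have hl1 : l ≤ 1 := by
    rw [hl', div_le_one hN, hNsum]
    linarith
  set M := ⌊α * N⌋₊ with hM
  set M₁ := ⌊α * N₁⌋₊ with hM₁
  set M₂ := ⌊α * N₂⌋₊ with hM₂
  have hMf : (M : ℝ) ≤ α * N := Nat.floor_le (by positivity)
  have hMf' : α * N < M + 1 := Nat.lt_floor_add_one _
  have hM₁f : (M₁ : ℝ) ≤ α * N₁ := Nat.floor_le (by positivity)
  have hM₁f' : α * N₁ < M₁ + 1 := Nat.lt_floor_add_one _
  have hM₂f : (M₂ : ℝ) ≤ α * N₂ := Nat.floor_le (by positivity)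
  have hM₂f' : α * N₂ < M₂ + 1 := Nat.lt_floor_add_one _
  -- `l M` is close to `α N₁`
  have hlM : |l * M - α * N₁| ≤ 1 := by
    have e : α * N₁ = l * (α * N) := by
      rw [hl']
      field_simp
    rw [e, ← mul_sub, abs_mul, abs_of_nonneg hl0]
    have : |(M : ℝ) - α * N| ≤ 1 := by
      rw [abs_le]
      constructor <;> linarith
    calc l * |(M : ℝ) - α * N| ≤ l * 1 := mul_le_mul_of_nonneg_left this hl0
      _ ≤ 1 := by linarith
  have hpt : ∀ k, k ≤ M → (logZ y c N₁ M₁ + logZ y c N₂ M₂ - 4 * K) + (-(2 * K)) * |(k : ℝ) - l * M|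
      ≤ logZ y c N₁ k + logZ y c N₂ (M - k) := by
    intro k hk
    have h1 := abs_le.1 (logZ_lipschitz hy hc N₁ k M₁)
    have h2 := abs_le.1 (logZ_lipschitz hy hc N₂ (M - k) M₂)
    have hd1 : |(k : ℝ) - M₁| ≤ |(k : ℝ) - l * M| + 2 := by
      have e : (k : ℝ) - M₁ = ((k : ℝ) - l * M) + (l * M - α * N₁) + (α * N₁ - M₁) := by ring
      rw [e]
      refine (abs_add_le _ _).trans ?_
      refine (add_le_add (abs_add_le _ _) le_rfl).trans ?_
      have : |α * N₁ - M₁| ≤ 1 := by
        rw [abs_le]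
        constructor <;> linarith
      linarith
    have hd2 : |((M - k : ℕ) : ℝ) - M₂| ≤ |(k : ℝ) - l * M| + 2 := by
      rw [Nat.cast_sub hk]
      have hl2 : α * N₂ = (1 - l) * (α * N) := by
        rw [hl']
        field_simp
        rw [hNsum]
        ring
      have hlM2 : |(1 - l) * M - α * N₂| ≤ 1 := by
        rw [hl2, ← mul_sub, abs_mul, abs_of_nonneg (sub_nonneg.2 hl1)]
        have : |(M : ℝ) - α * N| ≤ 1 := by
          rw [abs_le]
          constructor <;> linarith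
        calc (1 - l) * |(M : ℝ) - α * N| ≤ (1 - l) * 1 :=
              mul_le_mul_of_nonneg_left this (sub_nonneg.2 hl1)
          _ ≤ 1 := by linarith
      have e : (M : ℝ) - k - M₂ = -((k : ℝ) - l * M) + ((1 - l) * M - α * N₂) + (α * N₂ - M₂) := by ring
      rw [e]
      refine (abs_add_le _ _).trans ?_
      refine (add_le_add (abs_add_le _ _) le_rfl).trans ?_
      rw [abs_neg]
      have : |α * N₂ - M₂| ≤ 1 := by
        rw [abs_le]
        constructor <;> linarith
      linarith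
    have e1 := mul_le_mul_of_nonneg_left hd1 hK0
    have e2 := mul_le_mul_of_nonneg_left hd2 hK0
    nlinarith [h1.1, h2.1]
  have hb := logZ_binomial hy hc N₁ N₂ h₁ h₂ M
  change binAvg l M (fun k => logZ y c N₁ k + logZ y c N₂ (M - k)) ≤ _ at hb
  have hm := binAvg_mono l hl0 hl1 M hpt
  rw [binAvg_add, binAvg_const, binAvg_mul_const] at hm
  have hmom : binAvg l M (fun k => |(k : ℝ) - l * M|) ≤ Real.sqrt M := binomial_abs_moment l hl0 hl1 M
  have hsq : Real.sqrt M ≤ Real.sqrt α * Real.sqrt N := by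
    rw [← Real.sqrt_mul hα.le]
    exact Real.sqrt_le_sqrt hMf
  have hsN : 0 ≤ Real.sqrt N := Real.sqrt_nonneg _
  have hsα : 0 ≤ Real.sqrt α := Real.sqrt_nonneg _
  have final : -(2 * K) * binAvg l M (fun k => |(k : ℝ) - l * M|) ≥ -(2 * K) * (Real.sqrt α * Real.sqrt N) :=
    mul_le_mul_of_nonpos_left (hmom.trans hsq) (by linarith)
  have hfin2 : 2 * K * (Real.sqrt α + 2) * (Real.sqrt N + 1)
      ≥ 2 * K * (Real.sqrt α * Real.sqrt N) + 4 * K := by
    nlinarith [mul_nonneg hK0 hsN, mul_nonneg hK0 hsα]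
  linarith


/-- Limit theorem for an abstract `y`. -/
theorem main (hy : GoodY y m) (c : ℝ) (hc : 0 < c) (α : ℝ) (hα : 0 < α) :
    ∃ L : ℝ, Tendsto (fun N : ℕ => expectedPressure (logPot y c) α N) atTop (𝓝 L) := by
  obtain ⟨C, hC, hsup⟩ := logZ_almost_superadditive hy hc α hα
  obtain ⟨L, hL⟩ := tendsto_of_almost_superadditive (fun N => logZ y c N ⌊α * N⌋₊) C (potK m c * α) hC
    (mul_nonneg (potK_nonneg m c) hα.le) (fun m n hm hn => hsup m n hm hn)
    (fun n => logZ_floor_bound hy hc α hα n)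
  refine ⟨L, ?_⟩
  simpa only [expectedPressure_eq hy hc α] using hL

end

end Gen

end P157
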