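import Mathlib

/-!
# P157, module Layer: abstract pattern-by-pattern interpolation.

`X` finite, `(Ω, γ)` a probability space, `T` a type of pattern types,
`φ t ω x ∈ [e^{-K}, e^{K}]` the weight of a pattern of type `t` with randomness `ω` at `x`.
`H ts w` is the iterated expectation of `log ∑ w x ∏ φ`.
-/

open MeasureTheory

namespace P157

noncomputable section

universe v

variable {X : Type*} [Fintype X] {Ω : Type v} [MeasurableSpace Ω] {T : Type*}

/-- Iterated expectation: `H [] w = log ∑ w`, `H (t :: ts) w = E H ts (w * φ t ω)`. -/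
def H (γ : Measure Ω) (φ : T → Ω → X → ℝ) : List T → (X → ℝ) → ℝ
  | [], w => Real.log (∑ x, w x)
  | t :: ts, w => ∫ ω, H γ φ ts (fun x => w x * φ t ω x) ∂γ

/-- Standing hypotheses on the weights. -/
structure Admissible (γ : Measure Ω) (φ : T → Ω → X → ℝ) (K : ℝ) : Prop where
  prob : IsProbabilityMeasure γ
  meas : ∀ t x, Measurable fun ω => φ t ω x
  lo : ∀ t ω x, Real.exp (-K) ≤ φ t ω x
  hi : ∀ t ω x, φ t ω x ≤ Real.exp K

variable {γ : Measure Ω} {φ : T → Ω → X → ℝ} {K : ℝ}

theorem Admissible.pos (hφ : Admissible γ φ K) (t : T) (ω : Ω) (x : X) : 0 < φ t ω x :=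
  (Real.exp_pos _).trans_le (hφ.lo t ω x)

theorem H_meas (hφ : Admissible γ φ K) (ts : List T) {Y : Type v} [MeasurableSpace Y]
    (W : Y → X → ℝ) (hW : ∀ x, Measurable fun y => W y x) :
    Measurable fun y => H γ φ ts (W y) := by
  induction ts generalizing Y with
  | nil =>
    simp only [H]
    exact Real.measurable_log.comp (Finset.measurable_sum _ fun x _ => hW x)
  | cons t ts ih =>
    simp only [H]
    have := hφ.prob
    have hj : Measurable fun p : Y × Ω => H γ φ ts (fun x => W p.1 x * φ t p.2 x) :=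
      ih (Y := Y × Ω) (fun p x => W p.1 x * φ t p.2 x)
        (fun x => ((hW x).comp measurable_fst).mul ((hφ.meas t x).comp measurable_snd))
    exact (hj.stronglyMeasurable.integral_prod_right (ν := γ)).measurable

variable [Nonempty X]

theorem sum_pos_of_pos (w : X → ℝ) (hw : ∀ x, 0 < w x) : 0 < ∑ x, w x :=
  Finset.sum_pos (fun x _ => hw x) Finset.univ_nonempty

/-- log of the total mass moves by at most `K`. -/
theorem log_sum_mul_bounds (hφ : Admissible γ φ K) (t : T) (ω : Ω) (w : X → ℝ) (hw : ∀ x, 0 < w x) :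
    |Real.log (∑ x, w x * φ t ω x) - Real.log (∑ x, w x)| ≤ K := by
  have hS := sum_pos_of_pos w hw
  have hlo : Real.exp (-K) * ∑ x, w x ≤ ∑ x, w x * φ t ω x := by
    rw [Finset.mul_sum]
    exact Finset.sum_le_sum fun x _ => by
      rw [mul_comm]; exact mul_le_mul_of_nonneg_left (hφ.lo t ω x) (hw x).le
  have hhi : ∑ x, w x * φ t ω x ≤ Real.exp K * ∑ x, w x := by
    rw [Finset.mul_sum]
    exact Finset.sum_le_sum fun x _ => by
      rw [mul_comm (Real.exp K)]; exact mul_le_mul_of_nonneg_left (hφ.hi t ω x) (hw x).le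
  have hpos : 0 < ∑ x, w x * φ t ω x := (mul_pos (Real.exp_pos _) hS).trans_le hlo
  have h1 := Real.log_le_log (mul_pos (Real.exp_pos _) hS) hlo
  have h2 := Real.log_le_log hpos hhi
  rw [Real.log_mul (Real.exp_pos _).ne' hS.ne', Real.log_exp] at h1 h2
  rw [abs_le]
  constructor <;> linarith

theorem H_bound (hφ : Admissible γ φ K) (ts : List T) (w : X → ℝ) (hw : ∀ x, 0 < w x) :
    |H γ φ ts w - Real.log (∑ x, w x)| ≤ K * ts.length := by
  induction ts generalizing w with
  | nil => simp [H]
  | cons t ts ih =>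
    have := hφ.prob
    simp only [H, List.length_cons]
    have hpt : ∀ ω, |H γ φ ts (fun x => w x * φ t ω x) - Real.log (∑ x, w x)|
        ≤ K * ((ts.length : ℝ) + 1) := by
      intro ω
      have h1 := ih (fun x => w x * φ t ω x) (fun x => mul_pos (hw x) (hφ.pos t ω x))
      have h2 := log_sum_mul_bounds hφ t ω w hw
      have := abs_sub_le (H γ φ ts (fun x => w x * φ t ω x))
        (Real.log (∑ x, w x * φ t ω x)) (Real.log (∑ x, w x))
      rw [mul_add, mul_one]
      linarith
    have hm : Measurable fun ω => H γ φ ts (fun x => w x * φ t ω x) :=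
      H_meas hφ ts (fun ω x => w x * φ t ω x) (fun x => (hφ.meas t x).const_mul _)
    have hint : Integrable (fun ω => H γ φ ts (fun x => w x * φ t ω x) - Real.log (∑ x, w x)) γ := by
      refine Integrable.of_bound (C := K * ((ts.length : ℝ) + 1))
        (hm.sub_const _).aestronglyMeasurable (Filter.Eventually.of_forall fun ω => ?_)
      simpa using hpt ω
    have hint0 : Integrable (fun ω => H γ φ ts (fun x => w x * φ t ω x)) γ := by
      refine (hint.add (integrable_const (Real.log (∑ x, w x)))).congr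
        (Filter.Eventually.of_forall fun ω => ?_)
      simp
    have heq : (∫ ω, H γ φ ts (fun x => w x * φ t ω x) ∂γ) - Real.log (∑ x, w x)
        = ∫ ω, (H γ φ ts (fun x => w x * φ t ω x) - Real.log (∑ x, w x)) ∂γ := by
      rw [integral_sub hint0 (integrable_const _)]
      simp
    rw [heq]
    have := norm_integral_le_of_norm_le_const (μ := γ) (C := K * ((ts.length : ℝ) + 1))
      (f := fun ω => H γ φ ts (fun x => w x * φ t ω x) - Real.log (∑ x, w x))
      (Filter.Eventually.of_forall fun ω => by simpa using hpt ω)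
    simpa using this

theorem H_integrable (hφ : Admissible γ φ K) (t : T) (ts : List T) (w : X → ℝ) (hw : ∀ x, 0 < w x) :
    Integrable (fun ω => H γ φ ts (fun x => w x * φ t ω x)) γ := by
  have := hφ.prob
  have hm : Measurable fun ω => H γ φ ts (fun x => w x * φ t ω x) :=
    H_meas hφ ts (fun ω x => w x * φ t ω x) (fun x => (hφ.meas t x).const_mul _)
  refine Integrable.of_bound (C := K * ts.length + K + |Real.log (∑ x, w x)|)
    hm.aestronglyMeasurable (Filter.Eventually.of_forall fun ω => ?_)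
  have h1 := H_bound hφ ts (fun x => w x * φ t ω x) (fun x => mul_pos (hw x) (hφ.pos t ω x))
  have h2 := log_sum_mul_bounds hφ t ω w hw
  rw [Real.norm_eq_abs]
  have h3 : |H γ φ ts (fun x => w x * φ t ω x)|
      ≤ |H γ φ ts (fun x => w x * φ t ω x) - Real.log (∑ x, w x * φ t ω x)|
        + |Real.log (∑ x, w x * φ t ω x) - Real.log (∑ x, w x)| + |Real.log (∑ x, w x)| := by
    have e : H γ φ ts (fun x => w x * φ t ω x)
        = (H γ φ ts (fun x => w x * φ t ω x) - Real.log (∑ x, w x * φ t ω x))
          + (Real.log (∑ x, w x * φ t ω x) - Real.log (∑ x, w x)) + Real.log (∑ x, w x) := by ring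
    conv_lhs => rw [e]
    exact (abs_add_le _ _).trans (add_le_add (abs_add_le _ _) le_rfl)
  linarith

theorem H_scale (hφ : Admissible γ φ K) (ts : List T) (w : X → ℝ) (hw : ∀ x, 0 < w x)
    (r : ℝ) (hr : 0 < r) : H γ φ ts (fun x => r * w x) = Real.log r + H γ φ ts w := by
  induction ts generalizing w with
  | nil =>
    simp only [H]
    rw [← Finset.mul_sum, Real.log_mul hr.ne' (sum_pos_of_pos w hw).ne']
  | cons t ts ih =>
    have := hφ.prob
    simp only [H]
    have hpt : ∀ ω, H γ φ ts (fun x => r * w x * φ t ω x)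
        = Real.log r + H γ φ ts (fun x => w x * φ t ω x) := by
      intro ω
      rw [← ih (fun x => w x * φ t ω x) (fun x => mul_pos (hw x) (hφ.pos t ω x))]
      congr 1
      funext x
      ring
    simp_rw [hpt]
    rw [integral_add (integrable_const _) (H_integrable hφ t ts w hw)]
    simp

theorem H_mono (hφ : Admissible γ φ K) (ts : List T) (w w' : X → ℝ) (hw : ∀ x, 0 < w x)
    (hww' : ∀ x, w x ≤ w' x) : H γ φ ts w ≤ H γ φ ts w' := by
  induction ts generalizing w w' with
  | nil =>
    simp only [H]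
    exact Real.log_le_log (sum_pos_of_pos w hw) (Finset.sum_le_sum fun x _ => hww' x)
  | cons t ts ih =>
    simp only [H]
    have hw' : ∀ x, 0 < w' x := fun x => (hw x).trans_le (hww' x)
    refine integral_mono (H_integrable hφ t ts w hw) (H_integrable hφ t ts w' hw') fun ω => ?_
    exact ih _ _ (fun x => mul_pos (hw x) (hφ.pos t ω x))
      (fun x => mul_le_mul_of_nonneg_right (hww' x) (hφ.pos t ω x).le)

theorem H_cons_sub (hφ : Admissible γ φ K) (t : T) (ts : List T) (w : X → ℝ) (hw : ∀ x, 0 < w x) :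
    |H γ φ (t :: ts) w - H γ φ ts w| ≤ K := by
  have := hφ.prob
  simp only [H]
  have hpt : ∀ ω, |H γ φ ts (fun x => w x * φ t ω x) - H γ φ ts w| ≤ K := by
    intro ω
    have hlo : H γ φ ts (fun x => Real.exp (-K) * w x) ≤ H γ φ ts (fun x => w x * φ t ω x) :=
      H_mono hφ ts _ _ (fun x => mul_pos (Real.exp_pos _) (hw x)) fun x => by
        rw [mul_comm]; exact mul_le_mul_of_nonneg_left (hφ.lo t ω x) (hw x).le
    have hhi : H γ φ ts (fun x => w x * φ t ω x) ≤ H γ φ ts (fun x => Real.exp K * w x) :=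
      H_mono hφ ts _ _ (fun x => mul_pos (hw x) (hφ.pos t ω x)) fun x => by
        rw [mul_comm (Real.exp K)]; exact mul_le_mul_of_nonneg_left (hφ.hi t ω x) (hw x).le
    rw [H_scale hφ ts w hw _ (Real.exp_pos _), Real.log_exp] at hlo hhi
    rw [abs_le]
    constructor <;> linarith
  have hint0 := H_integrable hφ t ts w hw
  have heq : (∫ ω, H γ φ ts (fun x => w x * φ t ω x) ∂γ) - H γ φ ts w
      = ∫ ω, (H γ φ ts (fun x => w x * φ t ω x) - H γ φ ts w) ∂γ := by
    rw [integral_sub hint0 (integrable_const _)]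
    simp
  rw [heq]
  have := norm_integral_le_of_norm_le_const (μ := γ) (C := K)
    (f := fun ω => H γ φ ts (fun x => w x * φ t ω x) - H γ φ ts w)
    (Filter.Eventually.of_forall fun ω => by simpa using hpt ω)
  simpa using this

theorem H_swap (hφ : Admissible γ φ K) (t t' : T) (ts : List T) (w : X → ℝ) (hw : ∀ x, 0 < w x) :
    H γ φ (t :: t' :: ts) w = H γ φ (t' :: t :: ts) w := by
  have := hφ.prob
  simp only [H]
  have hm : Measurable fun p : Ω × Ω => H γ φ ts (fun x => w x * φ t p.1 x * φ t' p.2 x) :=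
    H_meas hφ ts (fun (p : Ω × Ω) x => w x * φ t p.1 x * φ t' p.2 x) (fun x =>
      (((hφ.meas t x).comp measurable_fst).const_mul _).mul ((hφ.meas t' x).comp measurable_snd))
  have hint : Integrable (fun p : Ω × Ω => H γ φ ts (fun x => w x * φ t p.1 x * φ t' p.2 x))
      (γ.prod γ) := by
    refine Integrable.of_bound (C := K * ts.length + K + K + |Real.log (∑ x, w x)|)
      hm.aestronglyMeasurable (Filter.Eventually.of_forall fun p => ?_)
    have hw1 : ∀ x, 0 < w x * φ t p.1 x := fun x => mul_pos (hw x) (hφ.pos t p.1 x)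
    have hw2 : ∀ x, 0 < w x * φ t p.1 x * φ t' p.2 x := fun x => mul_pos (hw1 x) (hφ.pos t' p.2 x)
    have h1 := H_bound hφ ts (fun x => w x * φ t p.1 x * φ t' p.2 x) hw2
    have h2 := log_sum_mul_bounds hφ t' p.2 (fun x => w x * φ t p.1 x) hw1
    have h3 := log_sum_mul_bounds hφ t p.1 w hw
    rw [Real.norm_eq_abs]
    rw [abs_le] at h1 h2 h3 ⊢
    have h4 := abs_le.1 (le_refl |Real.log (∑ x, w x)|)
    constructor <;> linarith [h1.1, h1.2, h2.1, h2.2, h3.1, h3.2, h4.1, h4.2]
  have hsw := integral_integral_swap (f := fun ω ω' => H γ φ ts (fun x => w x * φ t ω x * φ t' ω' x))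
    (μ := γ) (ν := γ) hint
  rw [hsw]
  refine integral_congr_ae (Filter.Eventually.of_forall fun ω' => ?_)
  refine integral_congr_ae (Filter.Eventually.of_forall fun ω => ?_)
  dsimp only
  congr 1
  funext x
  ring

theorem H_perm (hφ : Admissible γ φ K) {ts ts' : List T} (h : ts.Perm ts') (w : X → ℝ)
    (hw : ∀ x, 0 < w x) : H γ φ ts w = H γ φ ts' w := by
  induction h generalizing w with
  | nil => rfl
  | cons t _ ih =>
    simp only [H]
    refine integral_congr_ae (Filter.Eventually.of_forall fun ω => ?_)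
    exact ih _ fun x => mul_pos (hw x) (hφ.pos t ω x)
  | swap t t' ts => exact H_swap hφ t' t ts w hw
  | trans _ _ ih1 ih2 => exact (ih1 w hw).trans (ih2 w hw)

theorem H_append_comparison (hφ : Admissible γ φ K) (tc ta tb : T) (l : ℝ) (hl0 : 0 ≤ l) (hl1 : l ≤ 1)
    (hcore : ∀ w : X → ℝ, (∀ x, 0 < w x) →
      l * H γ φ [ta] w + (1 - l) * H γ φ [tb] w ≤ H γ φ [tc] w)
    (ts : List T) (w : X → ℝ) (hw : ∀ x, 0 < w x) :
    l * H γ φ (ts ++ [ta]) w + (1 - l) * H γ φ (ts ++ [tb]) w ≤ H γ φ (ts ++ [tc]) w := by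
  induction ts generalizing w with
  | nil => exact hcore w hw
  | cons t ts ih =>
    simp only [List.cons_append, H]
    rw [← integral_const_mul, ← integral_const_mul,
      ← integral_add ((H_integrable hφ t _ w hw).const_mul l)
        ((H_integrable hφ t _ w hw).const_mul (1 - l))]
    refine integral_mono (((H_integrable hφ t _ w hw).const_mul l).add
        ((H_integrable hφ t _ w hw).const_mul (1 - l))) (H_integrable hφ t _ w hw) fun ω => ?_
    exact ih _ fun x => mul_pos (hw x) (hφ.pos t ω x)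

/-- The binomial average. -/
def binAvg (l : ℝ) (m : ℕ) (f : ℕ → ℝ) : ℝ :=
  ∑ k ∈ Finset.range (m + 1), (m.choose k : ℝ) * l ^ k * (1 - l) ^ (m - k) * f k

theorem binAvg_succ (l : ℝ) (m : ℕ) (f : ℕ → ℝ) :
    binAvg l (m + 1) f = l * binAvg l m (fun k => f (k + 1)) + (1 - l) * binAvg l m f := by
  unfold binAvg
  rw [Finset.sum_range_succ' _ (m + 1)]
  have h1 : ∀ k ∈ Finset.range (m + 1),
      ((m + 1).choose (k + 1) : ℝ) * l ^ (k + 1) * (1 - l) ^ (m + 1 - (k + 1)) * f (k + 1)
      = l * ((m.choose k : ℝ) * l ^ k * (1 - l) ^ (m - k) * f (k + 1))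
        + (m.choose (k + 1) : ℝ) * l ^ (k + 1) * (1 - l) ^ (m - k) * f (k + 1) := by
    intro k _
    rw [Nat.choose_succ_succ, Nat.cast_add, Nat.add_sub_add_right]
    ring
  rw [Finset.sum_congr rfl h1, Finset.sum_add_distrib, ← Finset.mul_sum]
  rw [add_assoc]
  congr 1
  rw [Finset.mul_sum]
  rw [Finset.sum_range_succ' (fun k => (1 - l) * ((m.choose k : ℝ) * l ^ k * (1 - l) ^ (m - k) * f k)) m]
  rw [Finset.sum_range_succ (fun k => (m.choose (k + 1) : ℝ) * l ^ (k + 1) * (1 - l) ^ (m - k) * f (k + 1)) m]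
  simp only [Nat.choose_succ_self, Nat.cast_zero, zero_mul, add_zero, Nat.choose_zero_right, Nat.cast_one,
    one_mul, pow_zero, Nat.sub_zero, Nat.sub_self]
  congr 1
  · refine Finset.sum_congr rfl fun k hk => ?_
    have hk' : k < m := Finset.mem_range.1 hk
    have : m - k = (m - (k + 1)) + 1 := by omega
    rw [this]
    ring
  · rw [pow_succ]
    ring

theorem H_binomial_aux (hφ : Admissible γ φ K) (tc ta tb : T) (l : ℝ) (hl0 : 0 ≤ l) (hl1 : l ≤ 1)
    (hcore : ∀ w : X → ℝ, (∀ x, 0 < w x) →
      l * H γ φ [ta] w + (1 - l) * H γ φ [tb] w ≤ H γ φ [tc] w)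
    (w : X → ℝ) (hw : ∀ x, 0 < w x) (m : ℕ) :
    ∀ i j, binAvg l m (fun k => H γ φ (List.replicate (i + k) ta ++ List.replicate (j + (m - k)) tb) w)
      ≤ H γ φ (List.replicate m tc ++ List.replicate i ta ++ List.replicate j tb) w := by
  induction m with
  | zero =>
    intro i j
    simp [binAvg]
  | succ m ih =>
    intro i j
    -- the comparison for the last pattern
    set L := List.replicate i ta ++ List.replicate j tb with hL
    have hcmp := H_append_comparison hφ tc ta tb l hl0 hl1 hcore (List.replicate m tc ++ L) w hw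
    have hp0 : (List.replicate (m + 1) tc ++ List.replicate i ta ++ List.replicate j tb).Perm
        (List.replicate m tc ++ L ++ [tc]) := by
      rw [List.replicate_succ', hL]
      simp only [List.append_assoc]
      refine List.Perm.append_left _ (List.perm_append_comm.trans ?_)
      rw [List.append_assoc]
    have hp1 : (List.replicate m tc ++ L ++ [ta]).Perm
        (List.replicate m tc ++ List.replicate (i + 1) ta ++ List.replicate j tb) := by
      rw [hL, List.replicate_succ']
      simp only [List.append_assoc]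
      exact List.Perm.append_left _ (List.Perm.append_left _ List.perm_append_comm)
    have hp2 : (List.replicate m tc ++ L ++ [tb]).Perm
        (List.replicate m tc ++ List.replicate i ta ++ List.replicate (j + 1) tb) := by
      rw [hL, List.replicate_succ']
      simp only [List.append_assoc]
      exact List.Perm.refl _
    rw [H_perm hφ hp0 w hw]
    refine le_trans ?_ hcmp
    rw [H_perm hφ hp1 w hw, H_perm hφ hp2 w hw]
    have h1 := ih (i + 1) j
    have h2 := ih i (j + 1)
    rw [binAvg_succ]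
    refine add_le_add (mul_le_mul_of_nonneg_left ?_ hl0) (mul_le_mul_of_nonneg_left ?_ (sub_nonneg.2 hl1))
    · refine le_trans (le_of_eq ?_) h1
      unfold binAvg
      refine Finset.sum_congr rfl fun k hk => ?_
      have hk' : k ≤ m := Nat.lt_succ_iff.1 (Finset.mem_range.1 hk)
      have e1 : i + (k + 1) = i + 1 + k := by omega
      have e2 : j + (m + 1 - (k + 1)) = j + (m - k) := by omega
      dsimp only
      rw [e1, e2]
    · refine le_trans (le_of_eq ?_) h2
      unfold binAvg
      refine Finset.sum_congr rfl fun k hk => ?_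
      have hk' : k ≤ m := Nat.lt_succ_iff.1 (Finset.mem_range.1 hk)
      have e2 : j + (m + 1 - k) = j + 1 + (m - k) := by omega
      dsimp only
      rw [e2]

theorem H_binomial (hφ : Admissible γ φ K) (tc ta tb : T) (l : ℝ) (hl0 : 0 ≤ l) (hl1 : l ≤ 1)
    (hcore : ∀ w : X → ℝ, (∀ x, 0 < w x) →
      l * H γ φ [ta] w + (1 - l) * H γ φ [tb] w ≤ H γ φ [tc] w)
    (m : ℕ) (w : X → ℝ) (hw : ∀ x, 0 < w x) :
    ∑ k ∈ Finset.range (m + 1), (m.choose k : ℝ) * l ^ k * (1 - l) ^ (m - k) *
        H γ φ (List.replicate k ta ++ List.replicate (m - k) tb) w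
      ≤ H γ φ (List.replicate m tc) w := by
  have := H_binomial_aux hφ tc ta tb l hl0 hl1 hcore w hw m 0 0
  simpa [binAvg] using this

theorem log_prod_bound (hφ : Admissible γ φ K) (t : T) {M : ℕ} (ω₀ : Ω) (ω' : Fin M → Ω)
    (w : X → ℝ) (hw : ∀ x, 0 < w x) :
    |Real.log (∑ x, (w x * φ t ω₀ x) * ∏ a, φ t (ω' a) x)|
      ≤ K * (M + 1) + |Real.log (∑ x, w x)| := by
  have aux : ∀ (n : ℕ) (ω : Fin n → Ω) (u : X → ℝ), (∀ x, 0 < u x) →
      |Real.log (∑ x, u x * ∏ a, φ t (ω a) x) - Real.log (∑ x, u x)| ≤ K * n := by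
    intro n
    induction n with
    | zero =>
      intro ω u _
      simp
    | succ n ih =>
      intro ω u hu
      have e : ∑ x, u x * ∏ a, φ t (ω a) x
          = ∑ x, (u x * φ t (ω 0) x) * ∏ a : Fin n, φ t (ω (Fin.succ a)) x := by
        refine Finset.sum_congr rfl fun x _ => ?_
        rw [Fin.prod_univ_succ]
        ring
      rw [e]
      have h1 := ih (fun a => ω (Fin.succ a)) (fun x => u x * φ t (ω 0) x)
        (fun x => mul_pos (hu x) (hφ.pos t _ x))
      have h2 := log_sum_mul_bounds hφ t (ω 0) u hu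
      have := abs_sub_le (Real.log (∑ x, (u x * φ t (ω 0) x) * ∏ a : Fin n, φ t (ω (Fin.succ a)) x))
        (Real.log (∑ x, u x * φ t (ω 0) x)) (Real.log (∑ x, u x))
      push_cast
      rw [mul_add, mul_one]
      linarith
  have h1 := aux M ω' (fun x => w x * φ t ω₀ x) (fun x => mul_pos (hw x) (hφ.pos t _ x))
  have h2 := log_sum_mul_bounds hφ t ω₀ w hw
  have e : Real.log (∑ x, (w x * φ t ω₀ x) * ∏ a, φ t (ω' a) x)
      = (Real.log (∑ x, (w x * φ t ω₀ x) * ∏ a, φ t (ω' a) x) - Real.log (∑ x, w x * φ t ω₀ x))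
        + (Real.log (∑ x, w x * φ t ω₀ x) - Real.log (∑ x, w x)) + Real.log (∑ x, w x) := by ring
  rw [e]
  refine (abs_add_le _ _).trans (add_le_add ((abs_add_le _ _).trans (add_le_add h1 h2)) le_rfl) |>.trans ?_
  rw [mul_add, mul_one]

theorem H_replicate_eq_pi (hφ : Admissible γ φ K) (t : T) (M : ℕ) (w : X → ℝ)
    (hw : ∀ x, 0 < w x) :
    H γ φ (List.replicate M t) w
      = ∫ ω : Fin M → Ω, Real.log (∑ x, w x * ∏ a, φ t (ω a) x)
          ∂(Measure.pi fun _ : Fin M => γ) := by
  have := hφ.prob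
  induction M generalizing w with
  | zero =>
    simp [H]
  | succ M ih =>
    rw [List.replicate_succ]
    simp only [H]
    have hmp := measurePreserving_piFinSuccAbove (fun _ : Fin (M + 1) => γ) 0
    set e := MeasurableEquiv.piFinSuccAbove (fun _ : Fin (M + 1) => Ω) 0 with he
    set F : (Fin (M + 1) → Ω) → ℝ := fun ω => Real.log (∑ x, w x * ∏ a, φ t (ω a) x) with hF
    have hcomp := hmp.integral_comp' (g := fun p => F (e.symm p))
    simp only [MeasurableEquiv.symm_apply_apply] at hcomp
    rw [hcomp]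
    -- product integral
    have hFm : Measurable fun p : Ω × (Fin M → Ω) => F (e.symm p) := by
      have : Measurable F := by
        refine Real.measurable_log.comp (Finset.measurable_sum _ fun x _ => ?_)
        refine Measurable.const_mul (Finset.measurable_prod _ fun a _ => ?_) _
        exact (hφ.meas t x).comp (measurable_pi_apply a)
      exact this.comp e.symm.measurable
    have hpt : ∀ (ω₀ : Ω) (ω' : Fin M → Ω), F (e.symm (ω₀, ω'))
        = Real.log (∑ x, (w x * φ t ω₀ x) * ∏ a, φ t (ω' a) x) := by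
      intro ω₀ ω'
      simp only [hF, he, MeasurableEquiv.piFinSuccAbove_symm_apply, Fin.prod_univ_succ]
      congr 1
      refine Finset.sum_congr rfl fun x _ => ?_
      simp [Fin.insertNthEquiv, mul_assoc]
    -- boundedness
    have hbd : ∀ p : Ω × (Fin M → Ω), ‖F (e.symm p)‖ ≤ K * (M + 1) + |Real.log (∑ x, w x)| := by
      rintro ⟨ω₀, ω'⟩
      rw [hpt, Real.norm_eq_abs]
      exact log_prod_bound hφ t ω₀ ω' w hw
    have hint : Integrable (fun p : Ω × (Fin M → Ω) => F (e.symm p))
        (γ.prod (Measure.pi fun _ : Fin M => γ)) :=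
      Integrable.of_bound (C := K * (M + 1) + |Real.log (∑ x, w x)|) hFm.aestronglyMeasurable (Filter.Eventually.of_forall hbd)
    rw [integral_prod _ hint]
    refine integral_congr_ae (Filter.Eventually.of_forall fun ω₀ => ?_)
    dsimp only
    rw [ih _ fun x => mul_pos (hw x) (hφ.pos t ω₀ x)]
    refine integral_congr_ae (Filter.Eventually.of_forall fun ω' => ?_)
    dsimp only
    rw [hpt]

end

end P157
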