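import Vale.Agent.Lib.P157.Split
import Vale.Agent.Lib.P157.Fekete

/-!
# P157: main theorem. -/

open MeasureTheory ProbabilityTheory Filter Topology

namespace P157

noncomputable section

/-- For every finite positive measure `μ` on `ℝ` of total mass `< 1`, every `c > 0` and every `α > 0`,
the expected pressure of the Gaussian perceptron on the Ising cube with potential
`f = log (c (1 - ∫ cos(ξ ·) dμ(ξ)))` converges. -/
theorem main (μ : Measure ℝ) [IsFiniteMeasure μ] (hμ : μ.real Set.univ < 1) (c : ℝ) (hc : 0 < c)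
    (α : ℝ) (hα : 0 < α) :
    ∃ L : ℝ, Tendsto (fun N : ℕ => expectedPressure (logPot μ c) α N) atTop (𝓝 L) := by
  obtain ⟨C, hC, hsup⟩ := logZ_almost_superadditive (μ := μ) (c := c) hμ hc α hα
  obtain ⟨L, hL⟩ := tendsto_of_almost_superadditive (fun N => logZ μ c N ⌊α * N⌋₊) C (potK μ c * α) hC
    (mul_nonneg (potK_nonneg μ c) hα.le) (fun m n hm hn => hsup m n hm hn)
    (fun n => logZ_floor_bound hμ hc α hα n)
  refine ⟨L, ?_⟩
  simpa only [expectedPressure_eq hμ hc α] using hL

end

end P157
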