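import Vale.Agent.Lib.P157.GenSplit

/-!
# P157: potentials `U = c (1 - y)` with `y(u) = ∫ w(ξ) cos(ξ u + θ(ξ)) dμ(ξ)`.

For sign-indefinite weights the higher moments `E s^n` are no longer convex in the overlaps, but
their defects `D_n` are dominated by the defect `D_2` of the second moment.
-/

open MeasureTheory ProbabilityTheory

namespace P157

namespace Phase

noncomputable section

variable {N : ℕ} {X : Type*} [Fintype X]

/-- `y(u) = ∫ w(ξ) cos(ξ u + θ(ξ)) dμ(ξ)`. -/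
def yPh (μ : Measure ℝ) (w θ : ℝ → ℝ) (u : ℝ) : ℝ := ∫ ξ, w ξ * Real.cos (ξ * u + θ ξ) ∂μ

/-- Standing assumptions on the spectral data. -/
structure Spec (μ : Measure ℝ) (w θ : ℝ → ℝ) : Prop where
  mw : Measurable w
  mθ : Measurable θ
  w1 : ∀ ξ, |w ξ| ≤ 1
  sq : Integrable (fun ξ => ξ ^ 2) μ

variable {μ : Measure ℝ} {w θ : ℝ → ℝ}

theorem measurable_integrand (hs : Spec μ w θ) (u : ℝ) :
    Measurable fun ξ => w ξ * Real.cos (ξ * u + θ ξ) :=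
  hs.mw.mul (Real.measurable_cos.comp ((measurable_id.mul_const u).add hs.mθ))

theorem abs_integrand_le (hs : Spec μ w θ) (ξ u : ℝ) : |w ξ * Real.cos (ξ * u + θ ξ)| ≤ 1 := by
  rw [abs_mul]
  calc |w ξ| * |Real.cos (ξ * u + θ ξ)| ≤ 1 * 1 :=
        mul_le_mul (hs.w1 ξ) (Real.abs_cos_le_one _) (abs_nonneg _) zero_le_one
    _ = 1 := one_mul 1

variable [IsFiniteMeasure μ]

theorem abs_yPh_le (hs : Spec μ w θ) (u : ℝ) : |yPh μ w θ u| ≤ μ.real Set.univ := by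
  unfold yPh
  have := norm_integral_le_of_norm_le_const (μ := μ) (f := fun ξ => w ξ * Real.cos (ξ * u + θ ξ)) (C := 1)
    (Filter.Eventually.of_forall fun ξ => by simpa using abs_integrand_le hs ξ u)
  simpa using this

theorem continuous_yPh (hs : Spec μ w θ) : Continuous (yPh μ w θ) := by
  unfold yPh
  refine continuous_of_dominated (bound := fun _ => 1) ?_ ?_ ?_ ?_
  · intro u; exact (measurable_integrand hs u).aestronglyMeasurable
  · intro u; exact Filter.Eventually.of_forall fun ξ => by simpa using abs_integrand_le hs ξ u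
  · exact integrable_const _
  · exact Filter.Eventually.of_forall fun ξ => by fun_prop

/-- Abbreviation of the average. -/
abbrev sP (μ : Measure ℝ) (w θ : ℝ → ℝ) (ν : X → ℝ) (v : X → Fin N → ℝ) (β g : Fin N → ℝ) : ℝ :=
  Gen.sAvg (yPh μ w θ) ν v β g

theorem continuous_sP (hs : Spec μ w θ) (ν : X → ℝ) (v : X → Fin N → ℝ) (β : Fin N → ℝ) :
    Continuous (sP μ w θ ν v β) := by
  unfold sP Gen.sAvg
  refine continuous_finsetSum _ fun x _ => ?_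
  exact continuous_const.mul ((continuous_yPh hs).comp (continuous_fld_g β (v x)))

theorem abs_sP_le (hs : Spec μ w θ) (ν : X → ℝ) (hν : ∀ x, 0 ≤ ν x) (hν1 : ∑ x, ν x = 1)
    (v : X → Fin N → ℝ) (β g : Fin N → ℝ) : |sP μ w θ ν v β g| ≤ μ.real Set.univ := by
  unfold sP Gen.sAvg
  refine (Finset.abs_sum_le_sum_abs _ _).trans ?_
  calc ∑ x, |ν x * yPh μ w θ (fld β g (v x))| ≤ ∑ x, ν x * μ.real Set.univ := by
        refine Finset.sum_le_sum fun x _ => ?_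
        rw [abs_mul, abs_of_nonneg (hν x)]
        exact mul_le_mul_of_nonneg_left (abs_yPh_le hs _) (hν x)
    _ = μ.real Set.univ := by rw [← Finset.sum_mul, hν1, one_mul]

/-! ### Gaussian integrals -/

theorem integral_cexp_gauss (c : Fin N → ℝ) :
    ∫ g, Complex.exp (((∑ i, g i * c i : ℝ) : ℂ) * Complex.I) ∂(gaussVec N)
      = ((Real.exp (-(∑ i, c i ^ 2) / 2) : ℝ) : ℂ) := by
  have key : ∫ g : Fin N → ℝ, ∏ i, Complex.exp (((c i * g i : ℝ) : ℂ) * Complex.I) ∂(gaussVec N)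
      = ∏ i, Complex.exp (-(((c i) ^ 2 / 2 : ℝ) : ℂ)) := by
    unfold gaussVec
    rw [integral_fintype_prod_eq_prod (𝕜 := ℂ) (fun i x => Complex.exp (((c i * x : ℝ) : ℂ) * Complex.I))]
    refine Finset.prod_congr rfl fun i _ => ?_
    have h := charFun_gaussianReal (μ := 0) (v := 1) (c i)
    rw [charFun_apply_real] at h
    simp only [Complex.ofReal_mul]
    rw [h]
    congr 1
    push_cast
    simp
  have hprod : ∀ g : Fin N → ℝ, ∏ i, Complex.exp (((c i * g i : ℝ) : ℂ) * Complex.I)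
      = Complex.exp (((∑ i, g i * c i : ℝ) : ℂ) * Complex.I) := by
    intro g
    rw [← Complex.exp_sum, ← Finset.sum_mul]
    congr 2
    push_cast
    exact Finset.sum_congr rfl fun i _ => by ring
  simp_rw [hprod] at key
  rw [key, ← Complex.exp_sum]
  have : ∑ i, -(((c i) ^ 2 / 2 : ℝ) : ℂ) = ((-(∑ i, c i ^ 2) / 2 : ℝ) : ℂ) := by
    have h0 : (-(∑ i, c i ^ 2) / 2 : ℝ) = ∑ i, -((c i) ^ 2 / 2) := by
      rw [neg_div, Finset.sum_neg_distrib, Finset.sum_div]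
    rw [h0, Complex.ofReal_sum]
    refine Finset.sum_congr rfl fun i _ => ?_
    push_cast
    ring
  rw [this, Complex.ofReal_exp]

theorem integrable_cexp (c : Fin N → ℝ) :
    Integrable (fun g : Fin N → ℝ => Complex.exp (((∑ i, g i * c i : ℝ) : ℂ) * Complex.I))
      (gaussVec N) := by
  refine Integrable.of_bound (C := 1) ?_ ?_
  · exact (Continuous.aestronglyMeasurable (by fun_prop))
  · exact Filter.Eventually.of_forall fun g => by
      rw [Complex.norm_exp_ofReal_mul_I]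

theorem integral_sin_gauss (c : Fin N → ℝ) :
    ∫ g, Real.sin (∑ i, g i * c i) ∂(gaussVec N) = 0 := by
  have hr : ∀ g : Fin N → ℝ, Real.sin (∑ i, g i * c i)
      = (Complex.exp (((∑ i, g i * c i : ℝ) : ℂ) * Complex.I)).im := by
    intro g
    rw [Complex.exp_ofReal_mul_I_im]
  simp_rw [hr]
  have := integral_im (integrable_cexp c)
  simp only [RCLike.im_eq_complex_im] at this
  rw [this, integral_cexp_gauss, Complex.ofReal_im]

theorem integral_cos_phase_gauss (c : Fin N → ℝ) (φ : ℝ) :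
    ∫ g, Real.cos (∑ i, g i * c i + φ) ∂(gaussVec N)
      = Real.cos φ * Real.exp (-(∑ i, c i ^ 2) / 2) := by
  have hc : Continuous fun g : Fin N → ℝ => ∑ i, g i * c i := by fun_prop
  have hi1 : Integrable (fun g : Fin N → ℝ => Real.cos (∑ i, g i * c i) * Real.cos φ) (gaussVec N) := by
    refine Integrable.of_bound (C := 1) (Continuous.aestronglyMeasurable (by fun_prop)) ?_
    refine Filter.Eventually.of_forall fun g => ?_
    rw [Real.norm_eq_abs, abs_mul]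
    calc _ ≤ (1 : ℝ) * 1 := mul_le_mul (Real.abs_cos_le_one _) (Real.abs_cos_le_one _) (abs_nonneg _) zero_le_one
      _ = 1 := one_mul 1
  have hi2 : Integrable (fun g : Fin N → ℝ => Real.sin (∑ i, g i * c i) * Real.sin φ) (gaussVec N) := by
    refine Integrable.of_bound (C := 1) (Continuous.aestronglyMeasurable (by fun_prop)) ?_
    refine Filter.Eventually.of_forall fun g => ?_
    rw [Real.norm_eq_abs, abs_mul]
    calc _ ≤ (1 : ℝ) * 1 := mul_le_mul (Real.abs_sin_le_one _) (Real.abs_sin_le_one _) (abs_nonneg _) zero_le_one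
      _ = 1 := one_mul 1
  simp_rw [Real.cos_add]
  rw [integral_sub hi1 hi2, integral_mul_const, integral_mul_const, integral_sin_gauss,
    integral_cos_gauss]
  ring

/-! ### The moment functions -/

/-- `Φ β n a φ = E[cos(fld β g a + φ) s^n]`. -/
def Phi (μ : Measure ℝ) (w θ : ℝ → ℝ) (ν : X → ℝ) (v : X → Fin N → ℝ) (β : Fin N → ℝ) (n : ℕ)
    (a : Fin N → ℝ) (φ : ℝ) : ℝ :=
  ∫ g, Real.cos (fld β g a + φ) * (sP μ w θ ν v β g) ^ n ∂(gaussVec N)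

/-- The recursion operator. -/
def Top (μ : Measure ℝ) (w θ : ℝ → ℝ) (ν : X → ℝ) (v : X → Fin N → ℝ)
    (F : (Fin N → ℝ) → ℝ → ℝ) (a : Fin N → ℝ) (φ : ℝ) : ℝ :=
  ∑ x, ν x * ∫ ξ, w ξ * ((1 / 2 : ℝ) * (F (a + ξ • v x) (φ + θ ξ) + F (a - ξ • v x) (φ - θ ξ))) ∂μ

theorem Phi_zero (μ : Measure ℝ) (w θ : ℝ → ℝ) (ν : X → ℝ) (v : X → Fin N → ℝ) (β a : Fin N → ℝ)
    (φ : ℝ) :
    Phi μ w θ ν v β 0 a φ = Real.cos φ * Real.exp (-(∑ i, (β i * a i) ^ 2) / 2) := by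
  unfold Phi
  simp only [pow_zero, mul_one]
  rw [← integral_cos_phase_gauss]
  refine integral_congr_ae (Filter.Eventually.of_forall fun g => ?_)
  simp only [fld]
  congr 2
  exact Finset.sum_congr rfl fun i _ => by ring

theorem abs_cos_mul_pow_le (hs : Spec μ w θ) (ν : X → ℝ) (hν : ∀ x, 0 ≤ ν x) (hν1 : ∑ x, ν x = 1)
    (v : X → Fin N → ℝ) (β g : Fin N → ℝ) (t : ℝ) (n : ℕ) :
    ‖Real.cos t * (sP μ w θ ν v β g) ^ n‖ ≤ (μ.real Set.univ) ^ n := by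
  rw [norm_mul, norm_pow, Real.norm_eq_abs, Real.norm_eq_abs]
  calc |Real.cos t| * |sP μ w θ ν v β g| ^ n ≤ 1 * |sP μ w θ ν v β g| ^ n :=
        mul_le_mul_of_nonneg_right (Real.abs_cos_le_one t) (by positivity)
    _ = |sP μ w θ ν v β g| ^ n := one_mul _
    _ ≤ _ := pow_le_pow_left₀ (abs_nonneg _) (abs_sP_le hs ν hν hν1 v β g) n

/-- Joint continuity. -/
theorem continuous_Phi (hs : Spec μ w θ) (ν : X → ℝ) (hν : ∀ x, 0 ≤ ν x) (hν1 : ∑ x, ν x = 1)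
    (v : X → Fin N → ℝ) (β : Fin N → ℝ) (n : ℕ) :
    Continuous fun p : (Fin N → ℝ) × ℝ => Phi μ w θ ν v β n p.1 p.2 := by
  unfold Phi
  refine continuous_of_dominated (bound := fun _ => (μ.real Set.univ) ^ n) ?_ ?_ ?_ ?_
  · intro p
    exact ((Real.continuous_cos.comp ((continuous_fld_g β p.1).add continuous_const)).mul
      ((continuous_sP hs ν v β).pow n)).aestronglyMeasurable
  · intro p
    exact Filter.Eventually.of_forall fun g => abs_cos_mul_pow_le hs ν hν hν1 v β g _ n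
  · exact integrable_const _
  · refine Filter.Eventually.of_forall fun g => ?_
    have h1 : Continuous fun p : (Fin N → ℝ) × ℝ => fld β g p.1 :=
      (continuous_fld_a β g).comp continuous_fst
    exact (Real.continuous_cos.comp (h1.add continuous_snd)).mul continuous_const

theorem abs_Phi_le (hs : Spec μ w θ) (ν : X → ℝ) (hν : ∀ x, 0 ≤ ν x) (hν1 : ∑ x, ν x = 1)
    (v : X → Fin N → ℝ) (β : Fin N → ℝ) (n : ℕ) (a : Fin N → ℝ) (φ : ℝ) :
    |Phi μ w θ ν v β n a φ| ≤ (μ.real Set.univ) ^ n := by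
  unfold Phi
  have := norm_integral_le_of_norm_le_const (μ := gaussVec N)
    (f := fun g => Real.cos (fld β g a + φ) * (sP μ w θ ν v β g) ^ n)
    (C := (μ.real Set.univ) ^ n)
    (Filter.Eventually.of_forall fun g => abs_cos_mul_pow_le hs ν hν hν1 v β g _ n)
  simpa using this

/-- Integrability of the integrand of `Top`. -/
theorem integrable_Top (hs : Spec μ w θ) {F : (Fin N → ℝ) → ℝ → ℝ}
    (hF : Continuous fun p : (Fin N → ℝ) × ℝ => F p.1 p.2) {C : ℝ} (hC : ∀ a φ, |F a φ| ≤ C)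
    (a w' : Fin N → ℝ) (φ : ℝ) :
    Integrable (fun ξ : ℝ => w ξ * ((1 / 2 : ℝ) * (F (a + ξ • w') (φ + θ ξ) + F (a - ξ • w') (φ - θ ξ)))) μ := by
  have hm1 : Measurable fun ξ : ℝ => F (a + ξ • w') (φ + θ ξ) := by
    have : Measurable fun ξ : ℝ => ((a + ξ • w', φ + θ ξ) : (Fin N → ℝ) × ℝ) :=
      (Continuous.measurable (by fun_prop)).prodMk (measurable_const.add hs.mθ)
    exact hF.measurable.comp this
  have hm2 : Measurable fun ξ : ℝ => F (a - ξ • w') (φ - θ ξ) := by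
    have : Measurable fun ξ : ℝ => ((a - ξ • w', φ - θ ξ) : (Fin N → ℝ) × ℝ) :=
      (Continuous.measurable (by fun_prop)).prodMk (measurable_const.sub hs.mθ)
    exact hF.measurable.comp this
  refine Integrable.of_bound (C := C) (hs.mw.mul (measurable_const.mul (hm1.add hm2))).aestronglyMeasurable
    (Filter.Eventually.of_forall fun ξ => ?_)
  have h1 := hC (a + ξ • w') (φ + θ ξ)
  have h2 := hC (a - ξ • w') (φ - θ ξ)
  have h3 := abs_add_le (F (a + ξ • w') (φ + θ ξ)) (F (a - ξ • w') (φ - θ ξ))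
  rw [Real.norm_eq_abs, abs_mul, abs_mul, abs_of_pos (by norm_num : (0 : ℝ) < 1 / 2)]
  have h0 : 0 ≤ (1 / 2 : ℝ) * |F (a + ξ • w') (φ + θ ξ) + F (a - ξ • w') (φ - θ ξ)| := by positivity
  calc |w ξ| * ((1 / 2 : ℝ) * |F (a + ξ • w') (φ + θ ξ) + F (a - ξ • w') (φ - θ ξ)|)
      ≤ 1 * ((1 / 2 : ℝ) * |F (a + ξ • w') (φ + θ ξ) + F (a - ξ • w') (φ - θ ξ)|) :=
        mul_le_mul_of_nonneg_right (hs.w1 ξ) h0
    _ ≤ C := by linarith

theorem Phi_succ (hs : Spec μ w θ) (ν : X → ℝ) (hν : ∀ x, 0 ≤ ν x) (hν1 : ∑ x, ν x = 1)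
    (v : X → Fin N → ℝ) (β : Fin N → ℝ) (n : ℕ) (a : Fin N → ℝ) (φ : ℝ) :
    Phi μ w θ ν v β (n + 1) a φ = Top μ w θ ν v (Phi μ w θ ν v β n) a φ := by
  unfold Top
  set S := sP μ w θ ν v β with hSdef
  have hSc : Continuous S := continuous_sP hs ν v β
  -- the integrand for fixed x
  let J : X → (Fin N → ℝ) × ℝ → ℝ := fun x p => w p.2 * ((1 / 2 : ℝ) *
    (Real.cos (fld β p.1 (a + p.2 • v x) + (φ + θ p.2)) * S p.1 ^ n
      + Real.cos (fld β p.1 (a - p.2 • v x) + (φ - θ p.2)) * S p.1 ^ n))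
  have hJm : ∀ x, Measurable (J x) := by
    intro x
    have h1 : Continuous fun p : (Fin N → ℝ) × ℝ => fld β p.1 (a + p.2 • v x) := by
      unfold fld; fun_prop
    have h2 : Continuous fun p : (Fin N → ℝ) × ℝ => fld β p.1 (a - p.2 • v x) := by
      unfold fld; fun_prop
    have hθ : Measurable fun p : (Fin N → ℝ) × ℝ => θ p.2 := hs.mθ.comp measurable_snd
    have hw : Measurable fun p : (Fin N → ℝ) × ℝ => w p.2 := hs.mw.comp measurable_snd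
    have hS : Measurable fun p : (Fin N → ℝ) × ℝ => S p.1 ^ n :=
      (hSc.comp continuous_fst).measurable.pow_const n
    refine hw.mul (measurable_const.mul (Measurable.add ?_ ?_))
    · exact (Real.measurable_cos.comp (h1.measurable.add (measurable_const.add hθ))).mul hS
    · exact (Real.measurable_cos.comp (h2.measurable.add (measurable_const.sub hθ))).mul hS
  have hJb : ∀ x p, ‖J x p‖ ≤ (μ.real Set.univ) ^ n := by
    intro x p
    have h1 := abs_cos_mul_pow_le hs ν hν hν1 v β p.1 (fld β p.1 (a + p.2 • v x) + (φ + θ p.2)) n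
    have h2 := abs_cos_mul_pow_le hs ν hν hν1 v β p.1 (fld β p.1 (a - p.2 • v x) + (φ - θ p.2)) n
    rw [Real.norm_eq_abs] at h1 h2 ⊢
    have h3 := abs_add_le (Real.cos (fld β p.1 (a + p.2 • v x) + (φ + θ p.2)) * S p.1 ^ n)
      (Real.cos (fld β p.1 (a - p.2 • v x) + (φ - θ p.2)) * S p.1 ^ n)
    simp only [J]
    rw [abs_mul, abs_mul, abs_of_pos (by norm_num : (0 : ℝ) < 1 / 2)]
    have h0 : 0 ≤ (1 / 2 : ℝ) * |Real.cos (fld β p.1 (a + p.2 • v x) + (φ + θ p.2)) * S p.1 ^ n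
        + Real.cos (fld β p.1 (a - p.2 • v x) + (φ - θ p.2)) * S p.1 ^ n| := by positivity
    refine (mul_le_mul_of_nonneg_right (hs.w1 p.2) h0).trans ?_
    rw [one_mul]
    linarith
  have hJi : ∀ x, Integrable (J x) ((gaussVec N).prod μ) := fun x =>
    Integrable.of_bound (C := (μ.real Set.univ) ^ n) (hJm x).aestronglyMeasurable
      (Filter.Eventually.of_forall (hJb x))
  have hpt : ∀ g : Fin N → ℝ, Real.cos (fld β g a + φ) * S g ^ (n + 1)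
      = ∑ x, ν x * ∫ ξ, J x (g, ξ) ∂μ := by
    intro g
    have hone : ∀ x, ∫ ξ, J x (g, ξ) ∂μ
        = Real.cos (fld β g a + φ) * S g ^ n * yPh μ w θ (fld β g (v x)) := by
      intro x
      unfold yPh
      rw [← integral_const_mul]
      refine integral_congr_ae (Filter.Eventually.of_forall fun ξ => ?_)
      simp only [J, fld_add_smul, fld_sub_smul]
      have e1 : fld β g a + ξ * fld β g (v x) + (φ + θ ξ)
          = (fld β g a + φ) + (ξ * fld β g (v x) + θ ξ) := by ring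
      have e2 : fld β g a - ξ * fld β g (v x) + (φ - θ ξ)
          = (fld β g a + φ) - (ξ * fld β g (v x) + θ ξ) := by ring
      rw [e1, e2, Real.cos_add, Real.cos_sub]
      ring
    simp_rw [hone]
    have hS : S g = ∑ x, ν x * yPh μ w θ (fld β g (v x)) := rfl
    calc Real.cos (fld β g a + φ) * S g ^ (n + 1)
        = (Real.cos (fld β g a + φ) * S g ^ n) * S g := by ring
      _ = (Real.cos (fld β g a + φ) * S g ^ n) * ∑ x, ν x * yPh μ w θ (fld β g (v x)) := by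
          rw [← hS]
      _ = _ := by
          rw [Finset.mul_sum]
          refine Finset.sum_congr rfl fun x _ => ?_
          ring
  have hL : Phi μ w θ ν v β (n + 1) a φ = ∫ g, ∑ x, ν x * ∫ ξ, J x (g, ξ) ∂μ ∂(gaussVec N) := by
    unfold Phi
    exact integral_congr_ae (Filter.Eventually.of_forall hpt)
  rw [hL, integral_finsetSum]
  · refine Finset.sum_congr rfl fun x _ => ?_
    rw [integral_const_mul]
    congr 1
    rw [integral_integral_swap (f := fun g ξ => J x (g, ξ)) (hJi x)]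
    refine integral_congr_ae (Filter.Eventually.of_forall fun ξ => ?_)
    dsimp only [J]
    rw [integral_const_mul, integral_const_mul, integral_add]
    · rfl
    · refine Integrable.of_bound (C := (μ.real Set.univ) ^ n)
        (((Real.continuous_cos.comp ((continuous_fld_g β _).add continuous_const)).mul
          (hSc.pow n)).aestronglyMeasurable)
        (Filter.Eventually.of_forall fun g => abs_cos_mul_pow_le hs ν hν hν1 v β g _ n)
    · refine Integrable.of_bound (C := (μ.real Set.univ) ^ n)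
        (((Real.continuous_cos.comp ((continuous_fld_g β _).add continuous_const)).mul
          (hSc.pow n)).aestronglyMeasurable)
        (Filter.Eventually.of_forall fun g => abs_cos_mul_pow_le hs ν hν hν1 v β g _ n)
  · intro x _
    refine Integrable.const_mul ?_ _
    exact (hJi x).integral_prod_left

/-! ### Jensen gaps -/

omit [IsFiniteMeasure μ] in
theorem jensen_gap_of_deriv2 {S : Set ℝ} (hS : Convex ℝ S) {f f' f'' : ℝ → ℝ} {C : ℝ}
    (hf : ∀ x, HasDerivAt f (f' x) x) (hf' : ∀ x, HasDerivAt f' (f'' x) x)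
    (hC : ∀ x ∈ S, -C ≤ f'' x) {q₁ q₂ l : ℝ} (hq₁ : q₁ ∈ S) (hq₂ : q₂ ∈ S) (hl0 : 0 ≤ l) (hl1 : l ≤ 1) :
    -(C / 2) * (l * (1 - l) * (q₁ - q₂) ^ 2)
      ≤ l * f q₁ + (1 - l) * f q₂ - f (l * q₁ + (1 - l) * q₂) := by
  have hg : ConvexOn ℝ S (fun x => f x + C / 2 * x ^ 2) := by
    have hd1 : ∀ x, HasDerivAt (fun x => f x + C / 2 * x ^ 2) (f' x + C * x) x := by
      intro x
      have h := (hasDerivAt_pow 2 x).const_mul (C / 2)
      refine ((hf x).fun_add h).congr_deriv ?_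
      norm_num
      ring
    have hd2 : ∀ x, HasDerivAt (fun x => f' x + C * x) (f'' x + C) x := by
      intro x
      have h := (hasDerivAt_id x).const_mul C
      refine ((hf' x).fun_add h).congr_deriv ?_
      simp
    refine convexOn_of_hasDerivWithinAt2_nonneg hS (f' := fun x => f' x + C * x)
      (f'' := fun x => f'' x + C) ?_ ?_ ?_ ?_
    · exact fun x _ => (hd1 x).continuousAt.continuousWithinAt
    · exact fun x _ => (hd1 x).hasDerivWithinAt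
    · exact fun x _ => (hd2 x).hasDerivWithinAt
    · intro x hx
      have := hC x (interior_subset hx)
      linarith
  have h := hg.2 hq₁ hq₂ hl0 (sub_nonneg.2 hl1) (by ring)
  simp only [smul_eq_mul] at h
  nlinarith [h]

omit [IsFiniteMeasure μ] in
theorem exp_gap {X₁ X₂ l : ℝ} (hX₁ : 0 ≤ X₁) (hX₂ : 0 ≤ X₂) (hl0 : 0 ≤ l) (hl1 : l ≤ 1) :
    |l * Real.exp (-X₁) + (1 - l) * Real.exp (-X₂) - Real.exp (-(l * X₁ + (1 - l) * X₂))|
      ≤ l * (1 - l) / 2 * (X₁ - X₂) ^ 2 := by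
  have hlo := convexOn_exp.2 (Set.mem_univ (-X₁)) (Set.mem_univ (-X₂)) hl0 (sub_nonneg.2 hl1) (by ring)
  simp only [smul_eq_mul] at hlo
  have e : l * -X₁ + (1 - l) * -X₂ = -(l * X₁ + (1 - l) * X₂) := by ring
  rw [e] at hlo
  have hup := jensen_gap_of_deriv2 (S := Set.Ici 0) (convex_Ici 0) (f := fun t => -Real.exp (-t))
    (f' := fun t => Real.exp (-t)) (f'' := fun t => -Real.exp (-t)) (C := 1)
    (fun x => by
      have h := (hasDerivAt_neg x).exp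
      refine h.fun_neg.congr_deriv ?_
      ring)
    (fun x => by
      have h := (hasDerivAt_neg x).exp
      refine h.congr_deriv ?_
      ring)
    (fun x hx => by
      have hx' : (0 : ℝ) ≤ x := hx
      have : Real.exp (-x) ≤ 1 := Real.exp_le_one_iff.2 (by linarith)
      linarith)
    (q₁ := X₁) (q₂ := X₂) (l := l) hX₁ hX₂ hl0 hl1
  rw [abs_le]
  constructor
  · have : 0 ≤ l * (1 - l) / 2 * (X₁ - X₂) ^ 2 := by
      have := sub_nonneg.2 hl1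
      positivity
    linarith
  · nlinarith [hup]

/-! ### Quadratic forms -/

/-- `B(a) = ½ ∑ κ_i a_i²`. -/
def Bq (κ a : Fin N → ℝ) : ℝ := (∑ i, κ i * a i ^ 2) / 2

/-- The polar form. -/
def bq (κ a a' : Fin N → ℝ) : ℝ := ∑ i, κ i * a i * a' i

/-- `W₁(a) = ∑_x ν(x) b(a, v_x)²`. -/
def W1 (ν : X → ℝ) (v : X → Fin N → ℝ) (κ a : Fin N → ℝ) : ℝ := ∑ x, ν x * (bq κ a (v x)) ^ 2

/-- `Ψ(x) = ∑_{x'} ν(x') b(v_x, v_x')²`. -/
def Psi (ν : X → ℝ) (v : X → Fin N → ℝ) (κ : Fin N → ℝ) (x : X) : ℝ :=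
  ∑ x', ν x' * (bq κ (v x) (v x')) ^ 2

/-- `W₀ = ∑_{x,x'} ν(x) ν(x') b(v_x, v_x')²`: the mean squared overlap difference. -/
def W0 (ν : X → ℝ) (v : X → Fin N → ℝ) (κ : Fin N → ℝ) : ℝ := ∑ x, ν x * Psi ν v κ x

omit [IsFiniteMeasure μ] in
theorem Bq_add (κ a u : Fin N → ℝ) (ξ : ℝ) :
    Bq κ (a + ξ • u) = Bq κ a + ξ * bq κ a u + ξ ^ 2 * Bq κ u := by
  unfold Bq bq
  simp only [Pi.add_apply, Pi.smul_apply, smul_eq_mul]
  have : ∀ i, κ i * (a i + ξ * u i) ^ 2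
      = κ i * a i ^ 2 + (2 * ξ) * (κ i * a i * u i) + ξ ^ 2 * (κ i * u i ^ 2) := fun i => by ring
  simp_rw [this]
  rw [Finset.sum_add_distrib, Finset.sum_add_distrib, ← Finset.mul_sum, ← Finset.mul_sum]
  ring

omit [IsFiniteMeasure μ] in
theorem Bq_sub (κ a u : Fin N → ℝ) (ξ : ℝ) :
    Bq κ (a - ξ • u) = Bq κ a - ξ * bq κ a u + ξ ^ 2 * Bq κ u := by
  unfold Bq bq
  simp only [Pi.sub_apply, Pi.smul_apply, smul_eq_mul]
  have : ∀ i, κ i * (a i - ξ * u i) ^ 2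
      = κ i * a i ^ 2 - (2 * ξ) * (κ i * a i * u i) + ξ ^ 2 * (κ i * u i ^ 2) := fun i => by ring
  simp_rw [this]
  rw [Finset.sum_add_distrib, Finset.sum_sub_distrib, ← Finset.mul_sum, ← Finset.mul_sum]
  ring

omit [IsFiniteMeasure μ] in
theorem bq_add_left (κ a u u' : Fin N → ℝ) (ξ : ℝ) :
    bq κ (a + ξ • u) u' = bq κ a u' + ξ * bq κ u u' := by
  unfold bq
  simp only [Pi.add_apply, Pi.smul_apply, smul_eq_mul]
  rw [Finset.mul_sum, ← Finset.sum_add_distrib]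
  exact Finset.sum_congr rfl fun i _ => by ring

omit [IsFiniteMeasure μ] in
theorem bq_sub_left (κ a u u' : Fin N → ℝ) (ξ : ℝ) :
    bq κ (a - ξ • u) u' = bq κ a u' - ξ * bq κ u u' := by
  unfold bq
  simp only [Pi.sub_apply, Pi.smul_apply, smul_eq_mul]
  rw [Finset.mul_sum, ← Finset.sum_sub_distrib]
  exact Finset.sum_congr rfl fun i _ => by ring

omit [IsFiniteMeasure μ] [Fintype X] in
theorem W1_avg [Fintype X] (ν : X → ℝ) (v : X → Fin N → ℝ) (κ a : Fin N → ℝ) (x : X) (ξ : ℝ) :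
    (1 / 2 : ℝ) * (W1 ν v κ (a + ξ • v x) + W1 ν v κ (a - ξ • v x))
      = W1 ν v κ a + ξ ^ 2 * Psi ν v κ x := by
  unfold W1 Psi
  rw [← Finset.sum_add_distrib, Finset.mul_sum, Finset.mul_sum, ← Finset.sum_add_distrib]
  refine Finset.sum_congr rfl fun x' _ => ?_
  rw [bq_add_left, bq_sub_left]
  ring

/-- Coefficient sequences. -/
def fC (m : ℝ) : ℕ → ℝ
  | 0 => 0
  | n + 1 => m * fC m n + m ^ n

/-- Coefficient sequences. -/
def gC (m : ℝ) : ℕ → ℝ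
  | 0 => 0
  | n + 1 => m * gC m n + fC m n

omit [IsFiniteMeasure μ] in
theorem fC_succ (m : ℝ) (n : ℕ) : fC m (n + 1) = ((n : ℝ) + 1) * m ^ n := by
  induction n with
  | zero => simp [fC]
  | succ n ih =>
    rw [fC, ih]
    push_cast
    ring

omit [IsFiniteMeasure μ] in
theorem gC_succ_succ (m : ℝ) (n : ℕ) :
    gC m (n + 2) = (((n : ℝ) + 2) * ((n : ℝ) + 1) / 2) * m ^ n := by
  induction n with
  | zero => simp [gC, fC]
  | succ n ih =>
    rw [gC, ih, fC_succ]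
    push_cast
    ring

/-- The defect of the `n`-th moment functions. -/
def Gd (μ : Measure ℝ) (w θ : ℝ → ℝ) (ν : X → ℝ) (v : X → Fin N → ℝ) (β β₁ β₂ : Fin N → ℝ) (l : ℝ)
    (n : ℕ) (a : Fin N → ℝ) (φ : ℝ) : ℝ :=
  l * Phi μ w θ ν v β₁ n a φ + (1 - l) * Phi μ w θ ν v β₂ n a φ - Phi μ w θ ν v β n a φ

theorem Top_comb (hs : Spec μ w θ) (ν : X → ℝ) (v : X → Fin N → ℝ)
    {F₁ F₂ F₃ : (Fin N → ℝ) → ℝ → ℝ}
    (hF₁ : Continuous fun p : (Fin N → ℝ) × ℝ => F₁ p.1 p.2)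
    (hF₂ : Continuous fun p : (Fin N → ℝ) × ℝ => F₂ p.1 p.2)
    (hF₃ : Continuous fun p : (Fin N → ℝ) × ℝ => F₃ p.1 p.2)
    {C : ℝ} (hb₁ : ∀ a φ, |F₁ a φ| ≤ C) (hb₂ : ∀ a φ, |F₂ a φ| ≤ C) (hb₃ : ∀ a φ, |F₃ a φ| ≤ C)
    (l l' : ℝ) (a : Fin N → ℝ) (φ : ℝ) :
    l * Top μ w θ ν v F₁ a φ + l' * Top μ w θ ν v F₂ a φ - Top μ w θ ν v F₃ a φ
      = Top μ w θ ν v (fun b ψ => l * F₁ b ψ + l' * F₂ b ψ - F₃ b ψ) a φ := by
  unfold Top
  rw [Finset.mul_sum, Finset.mul_sum, ← Finset.sum_add_distrib, ← Finset.sum_sub_distrib]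
  refine Finset.sum_congr rfl fun x _ => ?_
  have i1 := integrable_Top hs hF₁ hb₁ a (v x) φ
  have i2 := integrable_Top hs hF₂ hb₂ a (v x) φ
  have i3 := integrable_Top hs hF₃ hb₃ a (v x) φ
  have : ∫ ξ, w ξ * ((1 / 2 : ℝ) * ((l * F₁ (a + ξ • v x) (φ + θ ξ) + l' * F₂ (a + ξ • v x) (φ + θ ξ)
        - F₃ (a + ξ • v x) (φ + θ ξ)) + (l * F₁ (a - ξ • v x) (φ - θ ξ) + l' * F₂ (a - ξ • v x) (φ - θ ξ)
        - F₃ (a - ξ • v x) (φ - θ ξ)))) ∂μ
      = l * ∫ ξ, w ξ * ((1 / 2 : ℝ) * (F₁ (a + ξ • v x) (φ + θ ξ) + F₁ (a - ξ • v x) (φ - θ ξ))) ∂μ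
        + l' * ∫ ξ, w ξ * ((1 / 2 : ℝ) * (F₂ (a + ξ • v x) (φ + θ ξ) + F₂ (a - ξ • v x) (φ - θ ξ))) ∂μ
        - ∫ ξ, w ξ * ((1 / 2 : ℝ) * (F₃ (a + ξ • v x) (φ + θ ξ) + F₃ (a - ξ • v x) (φ - θ ξ))) ∂μ := by
    have i12 : Integrable (fun ξ => l * (w ξ * ((1 / 2 : ℝ) * (F₁ (a + ξ • v x) (φ + θ ξ) + F₁ (a - ξ • v x) (φ - θ ξ))))
        + l' * (w ξ * ((1 / 2 : ℝ) * (F₂ (a + ξ • v x) (φ + θ ξ) + F₂ (a - ξ • v x) (φ - θ ξ))))) μ :=
      (i1.const_mul l).add (i2.const_mul l')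
    rw [← integral_const_mul, ← integral_const_mul,
      ← integral_add (i1.const_mul l) (i2.const_mul l'), ← integral_sub i12 i3]
    refine integral_congr_ae (Filter.Eventually.of_forall fun ξ => ?_)
    dsimp only
    ring
  rw [this]
  ring

theorem Gd_succ (hs : Spec μ w θ) (ν : X → ℝ) (hν : ∀ x, 0 ≤ ν x) (hν1 : ∑ x, ν x = 1)
    (v : X → Fin N → ℝ) (β β₁ β₂ : Fin N → ℝ) (l : ℝ) (n : ℕ) (a : Fin N → ℝ) (φ : ℝ) :
    Gd μ w θ ν v β β₁ β₂ l (n + 1) a φ = Top μ w θ ν v (Gd μ w θ ν v β β₁ β₂ l n) a φ := by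
  unfold Gd
  rw [Phi_succ hs ν hν hν1, Phi_succ hs ν hν hν1, Phi_succ hs ν hν hν1]
  exact Top_comb hs ν v (continuous_Phi hs ν hν hν1 v β₁ n) (continuous_Phi hs ν hν hν1 v β₂ n)
    (continuous_Phi hs ν hν hν1 v β n) (abs_Phi_le hs ν hν hν1 v β₁ n)
    (abs_Phi_le hs ν hν hν1 v β₂ n) (abs_Phi_le hs ν hν hν1 v β n) l (1 - l) a φ

theorem continuous_Gd (hs : Spec μ w θ) (ν : X → ℝ) (hν : ∀ x, 0 ≤ ν x) (hν1 : ∑ x, ν x = 1)
    (v : X → Fin N → ℝ) (β β₁ β₂ : Fin N → ℝ) (l : ℝ) (n : ℕ) :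
    Continuous fun p : (Fin N → ℝ) × ℝ => Gd μ w θ ν v β β₁ β₂ l n p.1 p.2 := by
  unfold Gd
  have h1 := continuous_Phi hs ν hν hν1 v β₁ n
  have h2 := continuous_Phi hs ν hν hν1 v β₂ n
  have h3 := continuous_Phi hs ν hν hν1 v β n
  fun_prop

theorem abs_Gd_le (hs : Spec μ w θ) (ν : X → ℝ) (hν : ∀ x, 0 ≤ ν x) (hν1 : ∑ x, ν x = 1)
    (v : X → Fin N → ℝ) (β β₁ β₂ : Fin N → ℝ) (l : ℝ) (hl0 : 0 ≤ l) (hl1 : l ≤ 1) (n : ℕ)
    (a : Fin N → ℝ) (φ : ℝ) :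
    |Gd μ w θ ν v β β₁ β₂ l n a φ| ≤ 2 * (μ.real Set.univ) ^ n := by
  unfold Gd
  have h1 := abs_Phi_le hs ν hν hν1 v β₁ n a φ
  have h2 := abs_Phi_le hs ν hν hν1 v β₂ n a φ
  have h3 := abs_Phi_le hs ν hν hν1 v β n a φ
  have hl' := sub_nonneg.2 hl1
  have e1 := mul_le_mul_of_nonneg_left h1 hl0
  have e2 := mul_le_mul_of_nonneg_left h2 hl'
  rw [abs_le] at h1 h2 h3 ⊢
  have e1' := mul_le_mul_of_nonneg_left h1.1 hl0
  have e2' := mul_le_mul_of_nonneg_left h2.1 hl'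
  have e1'' := mul_le_mul_of_nonneg_left h1.2 hl0
  have e2'' := mul_le_mul_of_nonneg_left h2.2 hl'
  constructor <;> nlinarith

/-- Defect bound for all `n`. -/
theorem Gd_bound (hs : Spec μ w θ) (ν : X → ℝ) (hν : ∀ x, 0 ≤ ν x) (hν1 : ∑ x, ν x = 1)
    (v : X → Fin N → ℝ) (β β₁ β₂ : Fin N → ℝ) (l : ℝ) (hl0 : 0 ≤ l) (hl1 : l ≤ 1)
    (hβ : ∀ i, β i ^ 2 = l * β₁ i ^ 2 + (1 - l) * β₂ i ^ 2)
    (κ : Fin N → ℝ) (hκ : ∀ i, κ i = β₁ i ^ 2 - β₂ i ^ 2) (hB0 : ∀ x, Bq κ (v x) = 0) (n : ℕ) :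
    ∀ (a : Fin N → ℝ) (φ : ℝ), |Gd μ w θ ν v β β₁ β₂ l n a φ|
      ≤ l * (1 - l) / 2 * ((μ.real Set.univ) ^ n * (Bq κ a) ^ 2
          + fC (μ.real Set.univ) n * (∫ ξ, ξ ^ 2 ∂μ) * W1 ν v κ a
          + gC (μ.real Set.univ) n * (∫ ξ, ξ ^ 2 ∂μ) ^ 2 * W0 ν v κ) := by
  set m := μ.real Set.univ with hm
  set s₂ := ∫ ξ, ξ ^ 2 ∂μ with hs₂
  have hk0 : 0 ≤ l * (1 - l) / 2 := by
    have := sub_nonneg.2 hl1
    positivity
  induction n with
  | zero =>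
    intro a φ
    simp only [pow_zero, fC, gC, zero_mul, add_zero, one_mul]
    unfold Gd
    simp only [Phi_zero]
    set X₁ := (∑ i, (β₁ i * a i) ^ 2) / 2 with hX₁
    set X₂ := (∑ i, (β₂ i * a i) ^ 2) / 2 with hX₂
    have hX : (∑ i, (β i * a i) ^ 2) / 2 = l * X₁ + (1 - l) * X₂ := by
      rw [hX₁, hX₂, ← mul_div_assoc, ← mul_div_assoc, ← add_div, Finset.mul_sum, Finset.mul_sum,
        ← Finset.sum_add_distrib]
      congr 1
      refine Finset.sum_congr rfl fun i _ => ?_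
      rw [mul_pow, hβ i, mul_pow, mul_pow]
      ring
    have hB : Bq κ a = X₁ - X₂ := by
      unfold Bq
      rw [hX₁, hX₂, ← sub_div, ← Finset.sum_sub_distrib]
      congr 1
      refine Finset.sum_congr rfl fun i _ => ?_
      rw [hκ i, mul_pow, mul_pow]
      ring
    have hn1 : 0 ≤ X₁ := by positivity
    have hn2 : 0 ≤ X₂ := by positivity
    have e : l * (Real.cos φ * Real.exp (-(∑ i, (β₁ i * a i) ^ 2) / 2))
        + (1 - l) * (Real.cos φ * Real.exp (-(∑ i, (β₂ i * a i) ^ 2) / 2))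
        - Real.cos φ * Real.exp (-(∑ i, (β i * a i) ^ 2) / 2)
        = Real.cos φ * (l * Real.exp (-X₁) + (1 - l) * Real.exp (-X₂)
            - Real.exp (-(l * X₁ + (1 - l) * X₂))) := by
      rw [← hX, hX₁, hX₂, neg_div, neg_div, neg_div]
      ring
    rw [e, abs_mul, hB]
    refine (mul_le_of_le_one_left (abs_nonneg _) (Real.abs_cos_le_one φ)).trans ?_
    exact exp_gap hn1 hn2 hl0 hl1
  | succ n ih =>
    intro a φ
    rw [Gd_succ hs ν hν hν1]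
    unfold Top
    have hcG := continuous_Gd hs ν hν hν1 v β β₁ β₂ l n
    have hbG := abs_Gd_le hs ν hν hν1 v β β₁ β₂ l hl0 hl1 n
    set G := Gd μ w θ ν v β β₁ β₂ l n with hG
    set A := l * (1 - l) / 2 * (m ^ n * (Bq κ a) ^ 2 + fC m n * s₂ * W1 ν v κ a
        + gC m n * s₂ ^ 2 * W0 ν v κ) with hA
    set Cx : X → ℝ := fun x => l * (1 - l) / 2 * (m ^ n * (bq κ a (v x)) ^ 2
        + fC m n * s₂ * Psi ν v κ x) with hCx
    have hone : ∀ x, |∫ ξ, w ξ * ((1 / 2 : ℝ) * (G (a + ξ • v x) (φ + θ ξ) + G (a - ξ • v x) (φ - θ ξ))) ∂μ|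
        ≤ A * m + Cx x * s₂ := by
      intro x
      have hRi : Integrable (fun ξ : ℝ => A + ξ ^ 2 * Cx x) μ :=
        (integrable_const A).add (hs.sq.mul_const _)
      have hI : ∫ ξ, (A + ξ ^ 2 * Cx x) ∂μ = A * m + Cx x * s₂ := by
        have h1 : ∫ ξ, (ξ ^ 2 * Cx x) ∂μ = s₂ * Cx x := integral_mul_const _ _
        have h2 : ∫ _ξ : ℝ, A ∂μ = m * A := by
          rw [integral_const, smul_eq_mul]
        rw [integral_add (integrable_const A) (hs.sq.mul_const _), h1, h2]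
        ring
      rw [← hI]
      have := norm_integral_le_of_norm_le (μ := μ)
        (f := fun ξ => w ξ * ((1 / 2 : ℝ) * (G (a + ξ • v x) (φ + θ ξ) + G (a - ξ • v x) (φ - θ ξ))))
        hRi (Filter.Eventually.of_forall fun ξ => ?_)
      · simpa using this
      · have h1 := ih (a + ξ • v x) (φ + θ ξ)
        have h2 := ih (a - ξ • v x) (φ - θ ξ)
        have h3 := abs_add_le (G (a + ξ • v x) (φ + θ ξ)) (G (a - ξ • v x) (φ - θ ξ))
        have hW := W1_avg ν v κ a x ξ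
        have hbq1 : Bq κ (a + ξ • v x) = Bq κ a + ξ * bq κ a (v x) := by
          rw [Bq_add, hB0]; ring
        have hbq2 : Bq κ (a - ξ • v x) = Bq κ a - ξ * bq κ a (v x) := by
          rw [Bq_sub, hB0]; ring
        have hR : A + ξ ^ 2 * Cx x
            = (1 / 2 : ℝ) * (l * (1 - l) / 2 * (m ^ n * (Bq κ (a + ξ • v x)) ^ 2
                + fC m n * s₂ * W1 ν v κ (a + ξ • v x) + gC m n * s₂ ^ 2 * W0 ν v κ)
              + l * (1 - l) / 2 * (m ^ n * (Bq κ (a - ξ • v x)) ^ 2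
                + fC m n * s₂ * W1 ν v κ (a - ξ • v x) + gC m n * s₂ ^ 2 * W0 ν v κ)) := by
          rw [hbq1, hbq2, hA, hCx]
          have : fC m n * s₂ * W1 ν v κ (a + ξ • v x) + fC m n * s₂ * W1 ν v κ (a - ξ • v x)
              = 2 * (fC m n * s₂) * (W1 ν v κ a + ξ ^ 2 * Psi ν v κ x) := by
            rw [← hW]; ring
          linear_combination (-(l * (1 - l) / 2) / 2) * this
        rw [hR, Real.norm_eq_abs, abs_mul, abs_mul, abs_of_pos (by norm_num : (0 : ℝ) < 1 / 2)]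
        have h0 : 0 ≤ (1 / 2 : ℝ) * |G (a + ξ • v x) (φ + θ ξ) + G (a - ξ • v x) (φ - θ ξ)| := by positivity
        refine (mul_le_mul_of_nonneg_right (hs.w1 ξ) h0).trans ?_
        rw [one_mul]
        linarith
    have hsum : ∑ x, ν x * (A * m + Cx x * s₂)
        = l * (1 - l) / 2 * (m ^ (n + 1) * (Bq κ a) ^ 2 + fC m (n + 1) * s₂ * W1 ν v κ a
          + gC m (n + 1) * s₂ ^ 2 * W0 ν v κ) := by
      have e1 : ∑ x, ν x * (A * m) = A * m := by rw [← Finset.sum_mul, hν1, one_mul]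
      have e2 : ∑ x, ν x * (Cx x * s₂)
          = l * (1 - l) / 2 * (m ^ n * W1 ν v κ a + fC m n * s₂ * W0 ν v κ) * s₂ := by
        unfold W1 W0
        rw [Finset.mul_sum, Finset.mul_sum, ← Finset.sum_add_distrib, Finset.mul_sum, Finset.sum_mul]
        refine Finset.sum_congr rfl fun x _ => ?_
        simp only [hCx]
        ring
      simp_rw [mul_add]
      rw [Finset.sum_add_distrib, e1, e2, hA]
      simp only [fC, gC]
      ring
    rw [← hsum]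
    refine (Finset.abs_sum_le_sum_abs _ _).trans (Finset.sum_le_sum fun x _ => ?_)
    rw [abs_mul, abs_of_nonneg (hν x)]
    exact mul_le_mul_of_nonneg_left (hone x) (hν x)

/-! ### The second moment: kernels -/

/-- Even weight `w cos θ`. -/
def wc (w θ : ℝ → ℝ) (ξ : ℝ) : ℝ := w ξ * Real.cos (θ ξ)

/-- Odd weight `w sin θ`. -/
def ws (w θ : ℝ → ℝ) (ξ : ℝ) : ℝ := w ξ * Real.sin (θ ξ)

omit [IsFiniteMeasure μ] in
theorem measurable_wc (hs : Spec μ w θ) : Measurable (wc w θ) :=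
  hs.mw.mul (Real.measurable_cos.comp hs.mθ)

omit [IsFiniteMeasure μ] in
theorem measurable_ws (hs : Spec μ w θ) : Measurable (ws w θ) :=
  hs.mw.mul (Real.measurable_sin.comp hs.mθ)

omit [IsFiniteMeasure μ] in
theorem abs_wc_le (hs : Spec μ w θ) (ξ : ℝ) : |wc w θ ξ| ≤ 1 := by
  unfold wc
  rw [abs_mul]
  calc _ ≤ (1 : ℝ) * 1 := mul_le_mul (hs.w1 ξ) (Real.abs_cos_le_one _) (abs_nonneg _) zero_le_one
    _ = 1 := one_mul 1

omit [IsFiniteMeasure μ] in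
theorem abs_ws_le (hs : Spec μ w θ) (ξ : ℝ) : |ws w θ ξ| ≤ 1 := by
  unfold ws
  rw [abs_mul]
  calc _ ≤ (1 : ℝ) * 1 := mul_le_mul (hs.w1 ξ) (Real.abs_sin_le_one _) (abs_nonneg _) zero_le_one
    _ = 1 := one_mul 1

/-- The even part of the two-point kernel. -/
def Fe (μ : Measure ℝ) (w θ : ℝ → ℝ) (q : ℝ) : ℝ :=
  ∫ p : ℝ × ℝ, wc w θ p.1 * wc w θ p.2 *
    (Real.exp (-(p.1 ^ 2 + p.2 ^ 2) / 2) * Real.cosh (p.1 * p.2 * q)) ∂(μ.prod μ)

/-- The odd part of the two-point kernel. -/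
def Fo (μ : Measure ℝ) (w θ : ℝ → ℝ) (q : ℝ) : ℝ :=
  ∫ p : ℝ × ℝ, ws w θ p.1 * ws w θ p.2 *
    (Real.exp (-(p.1 ^ 2 + p.2 ^ 2) / 2) * Real.sinh (p.1 * p.2 * q)) ∂(μ.prod μ)

omit [IsFiniteMeasure μ] in
theorem abs_mul_q_le (ξ ξ' q : ℝ) (hq : |q| ≤ 1) : |ξ * ξ' * q| ≤ (ξ ^ 2 + ξ' ^ 2) / 2 := by
  rw [abs_mul, abs_mul]
  have h1 : |ξ| * |ξ'| * |q| ≤ |ξ| * |ξ'| * 1 :=
    mul_le_mul_of_nonneg_left hq (by positivity)
  have h2 : 0 ≤ (|ξ| - |ξ'|) ^ 2 := sq_nonneg _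
  have h3 : (|ξ| - |ξ'|) ^ 2 = ξ ^ 2 + ξ' ^ 2 - 2 * (|ξ| * |ξ'|) := by
    rw [sub_sq, sq_abs, sq_abs]
    ring
  linarith

omit [IsFiniteMeasure μ] in
theorem exp_cosh_le (ξ ξ' q : ℝ) (hq : |q| ≤ 1) :
    Real.exp (-(ξ ^ 2 + ξ' ^ 2) / 2) * Real.cosh (ξ * ξ' * q) ≤ 1 := by
  have h := abs_mul_q_le ξ ξ' q hq
  have h1 : Real.cosh (ξ * ξ' * q) ≤ Real.exp |ξ * ξ' * q| := by
    rw [← Real.cosh_abs, Real.cosh_eq]
    have : Real.exp (-|ξ * ξ' * q|) ≤ Real.exp |ξ * ξ' * q| :=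
      Real.exp_le_exp.2 (by have := abs_nonneg (ξ * ξ' * q); linarith)
    linarith
  calc _ ≤ Real.exp (-(ξ ^ 2 + ξ' ^ 2) / 2) * Real.exp |ξ * ξ' * q| :=
        mul_le_mul_of_nonneg_left h1 (Real.exp_pos _).le
    _ = Real.exp (-(ξ ^ 2 + ξ' ^ 2) / 2 + |ξ * ξ' * q|) := (Real.exp_add _ _).symm
    _ ≤ 1 := Real.exp_le_one_iff.2 (by linarith)

omit [IsFiniteMeasure μ] in
theorem exp_sinh_le (ξ ξ' q : ℝ) (hq : |q| ≤ 1) :
    Real.exp (-(ξ ^ 2 + ξ' ^ 2) / 2) * |Real.sinh (ξ * ξ' * q)| ≤ 1 / 2 := by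
  have h := abs_mul_q_le ξ ξ' q hq
  have h1 : |Real.sinh (ξ * ξ' * q)| ≤ Real.exp |ξ * ξ' * q| / 2 := by
    rw [Real.abs_sinh, Real.sinh_eq]
    have := Real.exp_pos (-|ξ * ξ' * q|)
    linarith
  have h2 : Real.exp (-(ξ ^ 2 + ξ' ^ 2) / 2) * Real.exp |ξ * ξ' * q| ≤ 1 := by
    rw [← Real.exp_add]
    exact Real.exp_le_one_iff.2 (by linarith)
  calc _ ≤ Real.exp (-(ξ ^ 2 + ξ' ^ 2) / 2) * (Real.exp |ξ * ξ' * q| / 2) :=
        mul_le_mul_of_nonneg_left h1 (Real.exp_pos _).le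
    _ = (Real.exp (-(ξ ^ 2 + ξ' ^ 2) / 2) * Real.exp |ξ * ξ' * q|) / 2 := by ring
    _ ≤ 1 / 2 := by linarith

/-- Integrability of the even kernel. -/
theorem integrable_Fe (hs : Spec μ w θ) {q : ℝ} (hq : |q| ≤ 1) :
    Integrable (fun p : ℝ × ℝ => wc w θ p.1 * wc w θ p.2 *
      (Real.exp (-(p.1 ^ 2 + p.2 ^ 2) / 2) * Real.cosh (p.1 * p.2 * q))) (μ.prod μ) := by
  have hm : Measurable fun p : ℝ × ℝ => wc w θ p.1 * wc w θ p.2 *
      (Real.exp (-(p.1 ^ 2 + p.2 ^ 2) / 2) * Real.cosh (p.1 * p.2 * q)) :=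
    (((measurable_wc hs).comp measurable_fst).mul ((measurable_wc hs).comp measurable_snd)).mul
      (Continuous.measurable (by fun_prop))
  refine Integrable.of_bound (C := 1) hm.aestronglyMeasurable (Filter.Eventually.of_forall fun p => ?_)
  rw [Real.norm_eq_abs, abs_mul, abs_mul, abs_of_nonneg
    (mul_nonneg (Real.exp_pos _).le (Real.cosh_pos _).le)]
  have h1 := abs_wc_le hs p.1
  have h2 := abs_wc_le hs p.2
  have h3 := exp_cosh_le p.1 p.2 q hq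
  have h4 : 0 ≤ Real.exp (-(p.1 ^ 2 + p.2 ^ 2) / 2) * Real.cosh (p.1 * p.2 * q) :=
    mul_nonneg (Real.exp_pos _).le (Real.cosh_pos _).le
  calc _ ≤ (1 * 1) * 1 := mul_le_mul (mul_le_mul h1 h2 (abs_nonneg _) zero_le_one) h3 h4 (by norm_num)
    _ = 1 := by norm_num

/-- Integrability of the odd kernel. -/
theorem integrable_Fo (hs : Spec μ w θ) {q : ℝ} (hq : |q| ≤ 1) :
    Integrable (fun p : ℝ × ℝ => ws w θ p.1 * ws w θ p.2 *
      (Real.exp (-(p.1 ^ 2 + p.2 ^ 2) / 2) * Real.sinh (p.1 * p.2 * q))) (μ.prod μ) := by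
  have hm : Measurable fun p : ℝ × ℝ => ws w θ p.1 * ws w θ p.2 *
      (Real.exp (-(p.1 ^ 2 + p.2 ^ 2) / 2) * Real.sinh (p.1 * p.2 * q)) :=
    (((measurable_ws hs).comp measurable_fst).mul ((measurable_ws hs).comp measurable_snd)).mul
      (Continuous.measurable (by fun_prop))
  refine Integrable.of_bound (C := 1) hm.aestronglyMeasurable (Filter.Eventually.of_forall fun p => ?_)
  rw [Real.norm_eq_abs, abs_mul, abs_mul, abs_mul, abs_of_pos (Real.exp_pos _)]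
  have h1 := abs_ws_le hs p.1
  have h2 := abs_ws_le hs p.2
  have h3 := exp_sinh_le p.1 p.2 q hq
  have h4 : 0 ≤ Real.exp (-(p.1 ^ 2 + p.2 ^ 2) / 2) * |Real.sinh (p.1 * p.2 * q)| :=
    mul_nonneg (Real.exp_pos _).le (abs_nonneg _)
  calc _ ≤ (1 * 1) * 1 := mul_le_mul (mul_le_mul h1 h2 (abs_nonneg _) zero_le_one)
        (h3.trans (by norm_num)) h4 (by norm_num)
    _ = 1 := by norm_num

/-- Hermite-type coefficients. -/
def cK (μ : Measure ℝ) (w θ : ℝ → ℝ) (k : ℕ) : ℝ :=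
  ∫ ξ, wc w θ ξ * (ξ ^ (2 * k) * Real.exp (-ξ ^ 2 / 2)) ∂μ

theorem Fe_hasSum (hs : Spec μ w θ) {q : ℝ} (hq : |q| ≤ 1) :
    HasSum (fun k : ℕ => (cK μ w θ k) ^ 2 * (q ^ (2 * k) / ((2 * k).factorial : ℝ))) (Fe μ w θ q) := by
  -- the terms
  let Fk : ℕ → ℝ × ℝ → ℝ := fun k p =>
    (wc w θ p.1 * (p.1 ^ (2 * k) * Real.exp (-p.1 ^ 2 / 2))) *
      (wc w θ p.2 * (p.2 ^ (2 * k) * Real.exp (-p.2 ^ 2 / 2))) * (q ^ (2 * k) / ((2 * k).factorial : ℝ))
  let bound : ℕ → ℝ × ℝ → ℝ := fun k p =>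
    Real.exp (-(p.1 ^ 2 + p.2 ^ 2) / 2) * ((p.1 * p.2 * q) ^ (2 * k) / ((2 * k).factorial : ℝ))
  have hexp : ∀ p : ℝ × ℝ, Real.exp (-(p.1 ^ 2 + p.2 ^ 2) / 2)
      = Real.exp (-p.1 ^ 2 / 2) * Real.exp (-p.2 ^ 2 / 2) := by
    intro p
    rw [← Real.exp_add]
    congr 1
    ring
  have hFk : ∀ k p, Fk k p = wc w θ p.1 * wc w θ p.2 * bound k p := by
    intro k p
    simp only [Fk, bound]
    rw [hexp p, mul_pow, mul_pow]
    field_simp
  have hb0 : ∀ k p, 0 ≤ bound k p := by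
    intro k p
    refine mul_nonneg (Real.exp_pos _).le (div_nonneg ?_ (by positivity))
    rw [pow_mul]
    positivity
  have hsum : ∀ p : ℝ × ℝ, HasSum (fun k => bound k p)
      (Real.exp (-(p.1 ^ 2 + p.2 ^ 2) / 2) * Real.cosh (p.1 * p.2 * q)) := fun p =>
    (Real.hasSum_cosh (p.1 * p.2 * q)).mul_left _
  have key := hasSum_integral_of_dominated_convergence (μ := μ.prod μ) (F := Fk)
    (f := fun p => wc w θ p.1 * wc w θ p.2 *
      (Real.exp (-(p.1 ^ 2 + p.2 ^ 2) / 2) * Real.cosh (p.1 * p.2 * q))) bound ?_ ?_ ?_ ?_ ?_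
  · have he : ∀ k, ∫ p, Fk k p ∂(μ.prod μ)
        = (cK μ w θ k) ^ 2 * (q ^ (2 * k) / ((2 * k).factorial : ℝ)) := by
      intro k
      simp only [Fk]
      rw [integral_mul_const]
      have := integral_prod_mul (μ := μ) (ν := μ)
        (fun ξ => wc w θ ξ * (ξ ^ (2 * k) * Real.exp (-ξ ^ 2 / 2)))
        (fun ξ => wc w θ ξ * (ξ ^ (2 * k) * Real.exp (-ξ ^ 2 / 2)))
      rw [this]
      unfold cK
      ring
    simp_rw [he] at key
    exact key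
  · intro k
    refine Measurable.aestronglyMeasurable ?_
    refine Measurable.mul (Measurable.mul ?_ ?_) measurable_const
    · exact ((measurable_wc hs).comp measurable_fst).mul (Continuous.measurable (by fun_prop))
    · exact ((measurable_wc hs).comp measurable_snd).mul (Continuous.measurable (by fun_prop))
  · intro k
    refine Filter.Eventually.of_forall fun p => ?_
    rw [hFk, Real.norm_eq_abs, abs_mul, abs_mul, abs_of_nonneg (hb0 k p)]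
    have h1 := abs_wc_le hs p.1
    have h2 := abs_wc_le hs p.2
    calc |wc w θ p.1| * |wc w θ p.2| * bound k p ≤ (1 * 1) * bound k p :=
          mul_le_mul_of_nonneg_right (mul_le_mul h1 h2 (abs_nonneg _) zero_le_one) (hb0 k p)
      _ = bound k p := by ring
  · exact Filter.Eventually.of_forall fun p => (hsum p).summable
  · have : (fun p => ∑' k, bound k p)
        = fun p : ℝ × ℝ => Real.exp (-(p.1 ^ 2 + p.2 ^ 2) / 2) * Real.cosh (p.1 * p.2 * q) := by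
      funext p
      exact (hsum p).tsum_eq
    rw [this]
    refine Integrable.of_bound (C := 1) (Continuous.aestronglyMeasurable (by fun_prop))
      (Filter.Eventually.of_forall fun p => ?_)
    rw [Real.norm_eq_abs, abs_of_nonneg (mul_nonneg (Real.exp_pos _).le (Real.cosh_pos _).le)]
    exact exp_cosh_le p.1 p.2 q hq
  · refine Filter.Eventually.of_forall fun p => ?_
    have := (hsum p).mul_left (wc w θ p.1 * wc w θ p.2)
    simpa only [hFk] using this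

omit [IsFiniteMeasure μ] in
theorem Icc_of_abs {q : ℝ} (hq : |q| ≤ 1) : q ∈ Set.Icc (-1 : ℝ) 1 := abs_le.1 hq

omit [IsFiniteMeasure μ] in
theorem abs_comb_le {q₁ q₂ l : ℝ} (hq₁ : |q₁| ≤ 1) (hq₂ : |q₂| ≤ 1) (hl0 : 0 ≤ l) (hl1 : l ≤ 1) :
    |l * q₁ + (1 - l) * q₂| ≤ 1 := by
  have h := sub_nonneg.2 hl1
  refine (abs_add_le _ _).trans ?_
  rw [abs_mul, abs_mul, abs_of_nonneg hl0, abs_of_nonneg h]
  nlinarith

/-- Strong convexity of the even part: only the `q²` term is kept. -/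
theorem Fe_gap (hs : Spec μ w θ) {q₁ q₂ l : ℝ} (hq₁ : |q₁| ≤ 1) (hq₂ : |q₂| ≤ 1)
    (hl0 : 0 ≤ l) (hl1 : l ≤ 1) :
    (cK μ w θ 1) ^ 2 / 2 * (l * (1 - l) * (q₁ - q₂) ^ 2)
      ≤ l * Fe μ w θ q₁ + (1 - l) * Fe μ w θ q₂ - Fe μ w θ (l * q₁ + (1 - l) * q₂) := by
  have h1 := Fe_hasSum hs hq₁
  have h2 := Fe_hasSum hs hq₂
  have h3 := Fe_hasSum (μ := μ) hs (abs_comb_le hq₁ hq₂ hl0 hl1)
  have H := ((h1.mul_left l).add (h2.mul_left (1 - l))).sub h3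
  have hconv : ∀ k : ℕ, 0 ≤ l * (cK μ w θ k ^ 2 * (q₁ ^ (2 * k) / ((2 * k).factorial : ℝ)))
      + (1 - l) * (cK μ w θ k ^ 2 * (q₂ ^ (2 * k) / ((2 * k).factorial : ℝ)))
      - cK μ w θ k ^ 2 * ((l * q₁ + (1 - l) * q₂) ^ (2 * k) / ((2 * k).factorial : ℝ)) := by
    intro k
    have hc := (even_two_mul k).convexOn_pow.2 (Set.mem_univ q₁) (Set.mem_univ q₂) hl0 (sub_nonneg.2 hl1)
      (by ring)
    simp only [smul_eq_mul] at hc
    have e : l * (cK μ w θ k ^ 2 * (q₁ ^ (2 * k) / ((2 * k).factorial : ℝ)))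
      + (1 - l) * (cK μ w θ k ^ 2 * (q₂ ^ (2 * k) / ((2 * k).factorial : ℝ)))
      - cK μ w θ k ^ 2 * ((l * q₁ + (1 - l) * q₂) ^ (2 * k) / ((2 * k).factorial : ℝ))
      = (cK μ w θ k ^ 2 / ((2 * k).factorial : ℝ)) *
        (l * q₁ ^ (2 * k) + (1 - l) * q₂ ^ (2 * k) - (l * q₁ + (1 - l) * q₂) ^ (2 * k)) := by
      ring
    rw [e]
    exact mul_nonneg (by positivity) (sub_nonneg.2 hc)
  have := le_hasSum H 1 (fun j _ => hconv j)
  refine le_trans (le_of_eq ?_) this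
  norm_num [Nat.factorial]
  ring

/-- Weak convexity of the odd part. -/
theorem Fo_gap (hs : Spec μ w θ) {q₁ q₂ l : ℝ} (hq₁ : |q₁| ≤ 1) (hq₂ : |q₂| ≤ 1)
    (hl0 : 0 ≤ l) (hl1 : l ≤ 1) :
    -((∫ ξ, |ws w θ ξ| * ξ ^ 2 ∂μ) ^ 2 / 4 * (l * (1 - l) * (q₁ - q₂) ^ 2))
      ≤ l * Fo μ w θ q₁ + (1 - l) * Fo μ w θ q₂ - Fo μ w θ (l * q₁ + (1 - l) * q₂) := by
  set D := l * (1 - l) * (q₁ - q₂) ^ 2 with hD
  have hs1 : Integrable (fun ξ => |ws w θ ξ| * ξ ^ 2) μ := by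
    refine hs.sq.bdd_mul (c := 1) (measurable_ws hs).abs.aestronglyMeasurable ?_
    refine Filter.Eventually.of_forall fun ξ => ?_
    simpa using abs_ws_le hs ξ
  have hi := hs1.mul_prod hs1
  have hcomb := abs_comb_le (l := l) hq₁ hq₂ hl0 hl1
  have i1 := integrable_Fo (μ := μ) hs hq₁
  have i2 := integrable_Fo (μ := μ) hs hq₂
  have i3 := integrable_Fo (μ := μ) hs hcomb
  have hL : ∫ p : ℝ × ℝ, -((|ws w θ p.1| * p.1 ^ 2) * (|ws w θ p.2| * p.2 ^ 2) / 4 * D) ∂(μ.prod μ)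
      = -((∫ ξ, |ws w θ ξ| * ξ ^ 2 ∂μ) ^ 2 / 4 * D) := by
    have e : ∀ p : ℝ × ℝ, -((|ws w θ p.1| * p.1 ^ 2) * (|ws w θ p.2| * p.2 ^ 2) / 4 * D)
        = (|ws w θ p.1| * p.1 ^ 2) * (|ws w θ p.2| * p.2 ^ 2) * (-(D / 4)) := fun p => by ring
    simp_rw [e]
    rw [integral_mul_const]
    have := integral_prod_mul (μ := μ) (ν := μ) (fun ξ => |ws w θ ξ| * ξ ^ 2) (fun ξ => |ws w θ ξ| * ξ ^ 2)
    rw [this]
    ring
  have hR : l * Fo μ w θ q₁ + (1 - l) * Fo μ w θ q₂ - Fo μ w θ (l * q₁ + (1 - l) * q₂)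
      = ∫ p : ℝ × ℝ, (l * (ws w θ p.1 * ws w θ p.2 *
            (Real.exp (-(p.1 ^ 2 + p.2 ^ 2) / 2) * Real.sinh (p.1 * p.2 * q₁)))
          + (1 - l) * (ws w θ p.1 * ws w θ p.2 *
            (Real.exp (-(p.1 ^ 2 + p.2 ^ 2) / 2) * Real.sinh (p.1 * p.2 * q₂)))
          - ws w θ p.1 * ws w θ p.2 *
            (Real.exp (-(p.1 ^ 2 + p.2 ^ 2) / 2) * Real.sinh (p.1 * p.2 * (l * q₁ + (1 - l) * q₂)))) ∂(μ.prod μ) := by
    have i12 : Integrable (fun p : ℝ × ℝ => l * (ws w θ p.1 * ws w θ p.2 *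
            (Real.exp (-(p.1 ^ 2 + p.2 ^ 2) / 2) * Real.sinh (p.1 * p.2 * q₁)))
          + (1 - l) * (ws w θ p.1 * ws w θ p.2 *
            (Real.exp (-(p.1 ^ 2 + p.2 ^ 2) / 2) * Real.sinh (p.1 * p.2 * q₂)))) (μ.prod μ) :=
      (i1.const_mul l).add (i2.const_mul (1 - l))
    rw [integral_sub i12 i3, integral_add (i1.const_mul l) (i2.const_mul (1 - l)),
      integral_const_mul, integral_const_mul]
    rfl
  rw [← hL, hR]
  refine integral_mono ((hi.const_mul (1 / 4 * D)).neg.congr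
    (Filter.Eventually.of_forall fun p => ?_)) ?_ fun p => ?_
  · simp only [Pi.neg_apply]
    ring
  · exact ((i1.const_mul l).add (i2.const_mul (1 - l))).sub i3
  · -- pointwise
    dsimp only
    set A := ws w θ p.1 * ws w θ p.2 * Real.exp (-(p.1 ^ 2 + p.2 ^ 2) / 2) with hA
    set t := p.1 * p.2 with ht
    have hgap := jensen_gap_of_deriv2 (S := Set.Icc (-1 : ℝ) 1) (convex_Icc _ _)
      (f := fun r => A * Real.sinh (t * r)) (f' := fun r => A * (Real.cosh (t * r) * t))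
      (f'' := fun r => A * (Real.sinh (t * r) * t * t))
      (C := |ws w θ p.1| * |ws w θ p.2| * t ^ 2 / 2)
      (fun x => by
        have h := ((hasDerivAt_id x).const_mul t).sinh.const_mul A
        refine h.congr_deriv ?_
        simp)
      (fun x => by
        have h := (((hasDerivAt_id x).const_mul t).cosh.mul_const t).const_mul A
        refine h.congr_deriv ?_
        simp)
      (fun x hx => by
        have hx' : |x| ≤ 1 := abs_le.2 hx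
        have h := exp_sinh_le p.1 p.2 x hx'
        have habs : |A * (Real.sinh (t * x) * t * t)|
            ≤ |ws w θ p.1| * |ws w θ p.2| * t ^ 2 / 2 := by
          have e1 : |A * (Real.sinh (t * x) * t * t)|
              = |ws w θ p.1| * |ws w θ p.2| * t ^ 2 *
                (Real.exp (-(p.1 ^ 2 + p.2 ^ 2) / 2) * |Real.sinh (t * x)|) := by
            rw [hA, abs_mul, abs_mul, abs_mul, abs_mul, abs_mul, abs_of_pos (Real.exp_pos _)]
            have : |t| * |t| = t ^ 2 := by rw [← abs_mul, ← sq, abs_of_nonneg (sq_nonneg t)]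
            calc _ = |ws w θ p.1| * |ws w θ p.2| * (|t| * |t|) *
                  (Real.exp (-(p.1 ^ 2 + p.2 ^ 2) / 2) * |Real.sinh (t * x)|) := by ring
              _ = _ := by rw [this]
          rw [e1]
          have h0 : 0 ≤ |ws w θ p.1| * |ws w θ p.2| * t ^ 2 := by positivity
          calc _ ≤ |ws w θ p.1| * |ws w θ p.2| * t ^ 2 * (1 / 2) := mul_le_mul_of_nonneg_left h h0
            _ = _ := by ring
        have := (abs_le.1 habs).1
        linarith)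
      (q₁ := q₁) (q₂ := q₂) (l := l) (Icc_of_abs hq₁) (Icc_of_abs hq₂) hl0 hl1
    have e2 : (|ws w θ p.1| * p.1 ^ 2) * (|ws w θ p.2| * p.2 ^ 2) / 4 * D
        = (|ws w θ p.1| * |ws w θ p.2| * t ^ 2 / 2) / 2 * (l * (1 - l) * (q₁ - q₂) ^ 2) := by
      rw [hD, ht]
      ring
    rw [e2]
    have e3 : l * (ws w θ p.1 * ws w θ p.2 * (Real.exp (-(p.1 ^ 2 + p.2 ^ 2) / 2) * Real.sinh (t * q₁)))
        + (1 - l) * (ws w θ p.1 * ws w θ p.2 * (Real.exp (-(p.1 ^ 2 + p.2 ^ 2) / 2) * Real.sinh (t * q₂)))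
        - ws w θ p.1 * ws w θ p.2 * (Real.exp (-(p.1 ^ 2 + p.2 ^ 2) / 2) * Real.sinh (t * (l * q₁ + (1 - l) * q₂)))
        = l * (A * Real.sinh (t * q₁)) + (1 - l) * (A * Real.sinh (t * q₂))
          - A * Real.sinh (t * (l * q₁ + (1 - l) * q₂)) := by
      rw [hA]
      ring
    rw [e3]
    linarith

/-! ### The second moment: formula -/

/-- The overlap attached to `β`. -/
def qb (β : Fin N → ℝ) (v : X → Fin N → ℝ) (x x' : X) : ℝ := ∑ i, β i ^ 2 * (v x i * v x' i)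

omit [Fintype X] in
theorem abs_qb_le (β : Fin N → ℝ) (v : X → Fin N → ℝ) (hv : ∀ x i, v x i ^ 2 = 1)
    (hβ1 : ∑ i, β i ^ 2 = 1) (x x' : X) : |qb β v x x'| ≤ 1 := by
  unfold qb
  refine (Finset.abs_sum_le_sum_abs _ _).trans ?_
  rw [← hβ1]
  refine Finset.sum_le_sum fun i _ => ?_
  have h1 : |v x i| = 1 := by
    have := hv x i
    rw [← sq_abs] at this
    exact (pow_eq_one_iff_of_nonneg (abs_nonneg _) (by norm_num)).1 this
  have h2 : |v x' i| = 1 := by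
    have := hv x' i
    rw [← sq_abs] at this
    exact (pow_eq_one_iff_of_nonneg (abs_nonneg _) (by norm_num)).1 this
  rw [abs_mul, abs_mul, h1, h2, abs_of_nonneg (sq_nonneg _)]
  simp

omit [Fintype X] in
theorem Q_eq (β : Fin N → ℝ) (v : X → Fin N → ℝ) (hv : ∀ x i, v x i ^ 2 = 1)
    (hβ1 : ∑ i, β i ^ 2 = 1) (x x' : X) (s s' : ℝ) (a : Fin N → ℝ)
    (ha : ∀ i, a i = s * v x i + s' * v x' i) :
    ∑ i, (β i * a i) ^ 2 = s ^ 2 + s' ^ 2 + 2 * s * s' * qb β v x x' := by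
  unfold qb
  have : ∀ i, (β i * a i) ^ 2
      = s ^ 2 * β i ^ 2 + s' ^ 2 * β i ^ 2 + 2 * s * s' * (β i ^ 2 * (v x i * v x' i)) := by
    intro i
    rw [ha i, mul_pow, add_sq, mul_pow, mul_pow, hv x i, hv x' i]
    ring
  simp_rw [this]
  rw [Finset.sum_add_distrib, Finset.sum_add_distrib, ← Finset.mul_sum, ← Finset.mul_sum,
    ← Finset.mul_sum, hβ1]
  ring

/-- The two-point kernel. -/
def EK (θ : ℝ → ℝ) (ξ ξ' q : ℝ) : ℝ :=
  Real.exp (-(ξ ^ 2 + ξ' ^ 2) / 2) * (Real.cos (θ ξ) * Real.cos (θ ξ') * Real.cosh (ξ * ξ' * q)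
    + Real.sin (θ ξ) * Real.sin (θ ξ') * Real.sinh (ξ * ξ' * q))

theorem Phi_two (hs : Spec μ w θ) (ν : X → ℝ) (hν : ∀ x, 0 ≤ ν x) (hν1 : ∑ x, ν x = 1)
    (v : X → Fin N → ℝ) (hv : ∀ x i, v x i ^ 2 = 1) (β : Fin N → ℝ) (hβ1 : ∑ i, β i ^ 2 = 1) :
    Phi μ w θ ν v β 2 0 0
      = ∑ x, ∑ x', ν x * ν x' * (Fe μ w θ (qb β v x x') + Fo μ w θ (qb β v x x')) := by
  set P0 := Phi μ w θ ν v β 0 with hP0
  set P1 := Phi μ w θ ν v β 1 with hP1
  have hcP0 := continuous_Phi hs ν hν hν1 v β 0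
  have hbP0 := abs_Phi_le hs ν hν hν1 v β 0
  have hP1eq : ∀ a φ, P1 a φ = Top μ w θ ν v P0 a φ := fun a φ =>
    Phi_succ hs ν hν hν1 v β 0 a φ
  -- the pointwise identity
  have hpt : ∀ (x x' : X) (ξ ξ' : ℝ),
      (1 / 2 : ℝ) * ((1 / 2 : ℝ) * (P0 ((0 + ξ • v x) + ξ' • v x') ((0 + θ ξ) + θ ξ')
          + P0 ((0 + ξ • v x) - ξ' • v x') ((0 + θ ξ) - θ ξ'))
        + (1 / 2 : ℝ) * (P0 ((0 - ξ • v x) + ξ' • v x') ((0 - θ ξ) + θ ξ')
          + P0 ((0 - ξ • v x) - ξ' • v x') ((0 - θ ξ) - θ ξ')))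
      = EK θ ξ ξ' (qb β v x x') := by
    intro x x' ξ ξ'
    set q := qb β v x x' with hq
    have h1 := Q_eq β v hv hβ1 x x' ξ ξ' ((0 + ξ • v x) + ξ' • v x') (fun i => by simp)
    have h2 := Q_eq β v hv hβ1 x x' ξ (-ξ') ((0 + ξ • v x) - ξ' • v x') (fun i => by simp; ring)
    have h3 := Q_eq β v hv hβ1 x x' (-ξ) ξ' ((0 - ξ • v x) + ξ' • v x') (fun i => by simp)
    have h4 := Q_eq β v hv hβ1 x x' (-ξ) (-ξ') ((0 - ξ • v x) - ξ' • v x') (fun i => by simp; ring)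
    simp only [hP0, Phi_zero]
    rw [h1, h2, h3, h4, ← hq]
    set R := Real.exp (-(ξ ^ 2 + ξ' ^ 2) / 2) with hR
    set t := ξ * ξ' * q with ht
    have e1 : Real.exp (-(ξ ^ 2 + ξ' ^ 2 + 2 * ξ * ξ' * q) / 2) = R * Real.exp (-t) := by
      rw [hR, ← Real.exp_add, ht]; congr 1; ring
    have e2 : Real.exp (-(ξ ^ 2 + (-ξ') ^ 2 + 2 * ξ * -ξ' * q) / 2) = R * Real.exp t := by
      rw [hR, ← Real.exp_add, ht]; congr 1; ring
    have e3 : Real.exp (-((-ξ) ^ 2 + ξ' ^ 2 + 2 * -ξ * ξ' * q) / 2) = R * Real.exp t := by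
      rw [hR, ← Real.exp_add, ht]; congr 1; ring
    have e4 : Real.exp (-((-ξ) ^ 2 + (-ξ') ^ 2 + 2 * -ξ * -ξ' * q) / 2) = R * Real.exp (-t) := by
      rw [hR, ← Real.exp_add, ht]; congr 1; ring
    rw [e1, e2, e3, e4]
    unfold EK
    rw [← hR, ← ht, Real.cosh_eq, Real.sinh_eq]
    simp only [zero_add, zero_sub]
    rw [show -θ ξ + θ ξ' = -(θ ξ - θ ξ') by ring, show -θ ξ - θ ξ' = -(θ ξ + θ ξ') by ring,
      Real.cos_neg, Real.cos_neg, Real.cos_add, Real.cos_sub]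
    ring
  -- first layer
  have hinner : ∀ (x : X) (ξ : ℝ),
      (1 / 2 : ℝ) * (P1 (0 + ξ • v x) (0 + θ ξ) + P1 (0 - ξ • v x) (0 - θ ξ))
        = ∑ x', ν x' * ∫ ξ', w ξ' * EK θ ξ ξ' (qb β v x x') ∂μ := by
    intro x ξ
    rw [hP1eq, hP1eq]
    unfold Top
    rw [← Finset.sum_add_distrib, Finset.mul_sum]
    refine Finset.sum_congr rfl fun x' _ => ?_
    have i1 := integrable_Top hs hcP0 hbP0 (0 + ξ • v x) (v x') (0 + θ ξ)
    have i2 := integrable_Top hs hcP0 hbP0 (0 - ξ • v x) (v x') (0 - θ ξ)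
    rw [← mul_add, ← integral_add i1 i2, mul_left_comm, ← integral_const_mul]
    congr 1
    refine integral_congr_ae (Filter.Eventually.of_forall fun ξ' => ?_)
    dsimp only
    rw [← hpt x x' ξ ξ']
    ring
  -- the kernel
  have hK : ∀ (q : ℝ), |q| ≤ 1 →
      Integrable (fun p : ℝ × ℝ => w p.1 * (w p.2 * EK θ p.1 p.2 q)) (μ.prod μ) ∧
      ∫ p : ℝ × ℝ, w p.1 * (w p.2 * EK θ p.1 p.2 q) ∂(μ.prod μ) = Fe μ w θ q + Fo μ w θ q := by
    intro q hq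
    have ie := integrable_Fe (μ := μ) hs hq
    have io := integrable_Fo (μ := μ) hs hq
    have e : ∀ p : ℝ × ℝ, w p.1 * (w p.2 * EK θ p.1 p.2 q)
        = wc w θ p.1 * wc w θ p.2 * (Real.exp (-(p.1 ^ 2 + p.2 ^ 2) / 2) * Real.cosh (p.1 * p.2 * q))
          + ws w θ p.1 * ws w θ p.2 * (Real.exp (-(p.1 ^ 2 + p.2 ^ 2) / 2) * Real.sinh (p.1 * p.2 * q)) := by
      intro p
      unfold EK wc ws
      ring
    simp_rw [e]
    refine ⟨ie.add io, ?_⟩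
    rw [integral_add ie io]
    rfl
  rw [show (2 : ℕ) = 1 + 1 from rfl, Phi_succ hs ν hν hν1]
  unfold Top
  simp only [zero_add]
  refine Finset.sum_congr rfl fun x _ => ?_
  -- now the integral
  have hstep : ∫ ξ, w ξ * ((1 / 2 : ℝ) * (P1 ((0 : Fin N → ℝ) + ξ • v x) (0 + θ ξ)
        + P1 ((0 : Fin N → ℝ) - ξ • v x) (0 - θ ξ))) ∂μ
      = ∑ x', ν x' * (Fe μ w θ (qb β v x x') + Fo μ w θ (qb β v x x')) := by
    have hpt2 : ∀ ξ, w ξ * ((1 / 2 : ℝ) * (P1 ((0 : Fin N → ℝ) + ξ • v x) (0 + θ ξ)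
        + P1 ((0 : Fin N → ℝ) - ξ • v x) (0 - θ ξ)))
        = ∑ x', ν x' * ∫ ξ', w ξ * (w ξ' * EK θ ξ ξ' (qb β v x x')) ∂μ := by
      intro ξ
      rw [hinner, Finset.mul_sum]
      refine Finset.sum_congr rfl fun x' _ => ?_
      rw [integral_const_mul]
      ring
    simp_rw [hpt2]
    rw [integral_finsetSum]
    · refine Finset.sum_congr rfl fun x' _ => ?_
      rw [integral_const_mul]
      congr 1
      obtain ⟨hi, hv'⟩ := hK (qb β v x x') (abs_qb_le β v hv hβ1 x x')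
      rw [← hv', integral_prod _ hi]
    · intro x' _
      obtain ⟨hi, _⟩ := hK (qb β v x x') (abs_qb_le β v hv hβ1 x x')
      exact hi.integral_prod_left.const_mul _
  have hrhs : ∑ x', ν x * ν x' * (Fe μ w θ (qb β v x x') + Fo μ w θ (qb β v x x'))
      = ν x * ∑ x', ν x' * (Fe μ w θ (qb β v x x') + Fo μ w θ (qb β v x x')) := by
    rw [Finset.mul_sum]
    refine Finset.sum_congr rfl fun x' _ => ?_
    ring
  rw [hrhs, ← hstep]
  simp only [zero_add, hP1]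

/-! ### The defect of the second moment -/

/-- Second Hermite coefficient of the even part: `∫ w cos θ ξ² e^{-ξ²/2} dμ`. -/
def a2 (μ : Measure ℝ) (w θ : ℝ → ℝ) : ℝ :=
  ∫ ξ, w ξ * Real.cos (θ ξ) * ξ ^ 2 * Real.exp (-ξ ^ 2 / 2) ∂μ

/-- Size of the odd part: `∫ |w sin θ| ξ² dμ`. -/
def sg (μ : Measure ℝ) (w θ : ℝ → ℝ) : ℝ := ∫ ξ, |w ξ * Real.sin (θ ξ)| * ξ ^ 2 ∂μ

omit [IsFiniteMeasure μ] in
theorem cK_one (μ : Measure ℝ) (w θ : ℝ → ℝ) : cK μ w θ 1 = a2 μ w θ := by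
  unfold cK a2 wc
  refine integral_congr_ae (Filter.Eventually.of_forall fun ξ => ?_)
  simp only [mul_one]
  ring

theorem W0_nonneg (ν : X → ℝ) (hν : ∀ x, 0 ≤ ν x) (v : X → Fin N → ℝ) (κ : Fin N → ℝ) :
    0 ≤ W0 ν v κ := by
  unfold W0 Psi
  refine Finset.sum_nonneg fun x _ => mul_nonneg (hν x) (Finset.sum_nonneg fun x' _ => ?_)
  exact mul_nonneg (hν x') (sq_nonneg _)

theorem Gd_two_lower (hs : Spec μ w θ) (ν : X → ℝ) (hν : ∀ x, 0 ≤ ν x) (hν1 : ∑ x, ν x = 1)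
    (v : X → Fin N → ℝ) (hv : ∀ x i, v x i ^ 2 = 1) (β β₁ β₂ : Fin N → ℝ) (l : ℝ)
    (hl0 : 0 ≤ l) (hl1 : l ≤ 1) (hβ : ∀ i, β i ^ 2 = l * β₁ i ^ 2 + (1 - l) * β₂ i ^ 2)
    (hβ₁ : ∑ i, β₁ i ^ 2 = 1) (hβ₂ : ∑ i, β₂ i ^ 2 = 1)
    (κ : Fin N → ℝ) (hκ : ∀ i, κ i = β₁ i ^ 2 - β₂ i ^ 2) :
    ((a2 μ w θ) ^ 2 - (sg μ w θ) ^ 2 / 2) / 2 * (l * (1 - l) * W0 ν v κ)
      ≤ Gd μ w θ ν v β β₁ β₂ l 2 0 0 := by
  have hβ0 : ∑ i, β i ^ 2 = 1 := by
    simp_rw [hβ]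
    rw [Finset.sum_add_distrib, ← Finset.mul_sum, ← Finset.mul_sum, hβ₁, hβ₂]
    ring
  unfold Gd
  rw [Phi_two hs ν hν hν1 v hv β hβ0, Phi_two hs ν hν hν1 v hv β₁ hβ₁, Phi_two hs ν hν hν1 v hv β₂ hβ₂]
  have hL : ((a2 μ w θ) ^ 2 - (sg μ w θ) ^ 2 / 2) / 2 * (l * (1 - l) * W0 ν v κ)
      = ∑ x, ∑ x', ν x * ν x' * (((a2 μ w θ) ^ 2 - (sg μ w θ) ^ 2 / 2) / 2 *
          (l * (1 - l) * (bq κ (v x) (v x')) ^ 2)) := by
    unfold W0 Psi
    rw [Finset.mul_sum, Finset.mul_sum]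
    refine Finset.sum_congr rfl fun x _ => ?_
    rw [Finset.mul_sum, Finset.mul_sum, Finset.mul_sum]
    refine Finset.sum_congr rfl fun x' _ => ?_
    ring
  rw [hL, Finset.mul_sum, Finset.mul_sum, ← Finset.sum_add_distrib, ← Finset.sum_sub_distrib]
  refine Finset.sum_le_sum fun x _ => ?_
  rw [Finset.mul_sum, Finset.mul_sum, ← Finset.sum_add_distrib, ← Finset.sum_sub_distrib]
  refine Finset.sum_le_sum fun x' _ => ?_
  set q₁ := qb β₁ v x x' with hq₁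
  set q₂ := qb β₂ v x x' with hq₂
  have hq : qb β v x x' = l * q₁ + (1 - l) * q₂ := by
    rw [hq₁, hq₂]
    unfold qb
    rw [Finset.mul_sum, Finset.mul_sum, ← Finset.sum_add_distrib]
    refine Finset.sum_congr rfl fun i _ => ?_
    rw [hβ i]
    ring
  have hb : bq κ (v x) (v x') = q₁ - q₂ := by
    rw [hq₁, hq₂]
    unfold bq qb
    rw [← Finset.sum_sub_distrib]
    refine Finset.sum_congr rfl fun i _ => ?_
    rw [hκ i]
    ring
  have hq₁a := abs_qb_le β₁ v hv hβ₁ x x'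
  have hq₂a := abs_qb_le β₂ v hv hβ₂ x x'
  have g1 := Fe_gap (μ := μ) hs hq₁a hq₂a hl0 hl1
  have g2 := Fo_gap (μ := μ) hs hq₁a hq₂a hl0 hl1
  rw [cK_one] at g1
  have e : ∫ ξ, |ws w θ ξ| * ξ ^ 2 ∂μ = sg μ w θ := rfl
  rw [e] at g2
  rw [← hq₁, ← hq₂] at g1 g2
  rw [hq, hb]
  have h0 : 0 ≤ ν x * ν x' := mul_nonneg (hν x) (hν x')
  have key : ((a2 μ w θ) ^ 2 - (sg μ w θ) ^ 2 / 2) / 2 * (l * (1 - l) * (q₁ - q₂) ^ 2)
      ≤ l * (Fe μ w θ q₁ + Fo μ w θ q₁) + (1 - l) * (Fe μ w θ q₂ + Fo μ w θ q₂)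
        - (Fe μ w θ (l * q₁ + (1 - l) * q₂) + Fo μ w θ (l * q₁ + (1 - l) * q₂)) := by
    nlinarith [g1, g2]
  have := mul_le_mul_of_nonneg_left key h0
  nlinarith [this]

/-! ### Comparison of the logarithms -/

omit [IsFiniteMeasure μ] in
theorem fld_zero (β g : Fin N → ℝ) : fld β g 0 = 0 := by
  simp [fld]

theorem Phi_at_zero (μ : Measure ℝ) (w θ : ℝ → ℝ) (ν : X → ℝ) (v : X → Fin N → ℝ) (β : Fin N → ℝ)
    (n : ℕ) : Phi μ w θ ν v β n 0 0 = ∫ g, (sP μ w θ ν v β g) ^ n ∂(gaussVec N) := by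
  unfold Phi
  refine integral_congr_ae (Filter.Eventually.of_forall fun g => ?_)
  simp [fld_zero]

theorem hasSum_log (hs : Spec μ w θ) (hμ : μ.real Set.univ < 1)
    (ν : X → ℝ) (hν : ∀ x, 0 ≤ ν x) (hν1 : ∑ x, ν x = 1) (v : X → Fin N → ℝ) (β : Fin N → ℝ) :
    HasSum (fun n : ℕ => (∫ g, (sP μ w θ ν v β g) ^ (n + 1) ∂(gaussVec N)) / ((n : ℝ) + 1))
      (-(∫ g, Real.log (1 - sP μ w θ ν v β g) ∂(gaussVec N))) := by
  have hm0 : 0 ≤ μ.real Set.univ := measureReal_nonneg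
  have hs' : ∀ g, |sP μ w θ ν v β g| ≤ μ.real Set.univ := abs_sP_le hs ν hν hν1 v β
  have hc := continuous_sP hs ν v β
  have hmeas : ∀ n : ℕ, Continuous fun g => (sP μ w θ ν v β g) ^ (n + 1) / ((n : ℝ) + 1) := by
    intro n; exact (hc.pow _).div_const _
  have hbd : ∀ (n : ℕ) g, ‖(sP μ w θ ν v β g) ^ (n + 1) / ((n : ℝ) + 1)‖ ≤ (μ.real Set.univ) ^ (n + 1) := by
    intro n g
    rw [norm_div, norm_pow, Real.norm_eq_abs, Real.norm_eq_abs,
      abs_of_pos (by positivity : (0 : ℝ) < (n : ℝ) + 1)]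
    refine (div_le_self (by positivity) ?_).trans (pow_le_pow_left₀ (abs_nonneg _) (hs' g) _)
    have : (0 : ℝ) ≤ n := Nat.cast_nonneg n
    linarith
  have hint : ∀ n : ℕ, Integrable (fun g => (sP μ w θ ν v β g) ^ (n + 1) / ((n : ℝ) + 1)) (gaussVec N) :=
    fun n => Integrable.of_bound (C := (μ.real Set.univ) ^ (n + 1)) (hmeas n).aestronglyMeasurable
      (Filter.Eventually.of_forall (hbd n))
  have hsumm : Summable fun n : ℕ => ∫ g, ‖(sP μ w θ ν v β g) ^ (n + 1) / ((n : ℝ) + 1)‖ ∂(gaussVec N) := by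
    refine Summable.of_nonneg_of_le (fun n => integral_nonneg fun g => norm_nonneg _) ?_
      ((summable_geometric_of_lt_one hm0 hμ).comp_injective (add_left_injective 1))
    intro n
    have := integral_mono (μ := gaussVec N) ((hint n).norm) (integrable_const ((μ.real Set.univ) ^ (n + 1)))
      (fun g => hbd n g)
    simpa using this
  have key := hasSum_integral_of_summable_integral_norm hint hsumm
  have heq : ∀ g, ∑' n : ℕ, (sP μ w θ ν v β g) ^ (n + 1) / ((n : ℝ) + 1) = -Real.log (1 - sP μ w θ ν v β g) := by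
    intro g
    exact (Real.hasSum_pow_div_log_of_abs_lt_one ((hs' g).trans_lt hμ)).tsum_eq
  simp_rw [heq, integral_div] at key
  rwa [integral_neg] at key

theorem Gd_bound_zero (hs : Spec μ w θ) (ν : X → ℝ) (hν : ∀ x, 0 ≤ ν x) (hν1 : ∑ x, ν x = 1)
    (v : X → Fin N → ℝ) (β β₁ β₂ : Fin N → ℝ) (l : ℝ) (hl0 : 0 ≤ l) (hl1 : l ≤ 1)
    (hβ : ∀ i, β i ^ 2 = l * β₁ i ^ 2 + (1 - l) * β₂ i ^ 2)
    (κ : Fin N → ℝ) (hκ : ∀ i, κ i = β₁ i ^ 2 - β₂ i ^ 2) (hB0 : ∀ x, Bq κ (v x) = 0) (n : ℕ) :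
    |Gd μ w θ ν v β β₁ β₂ l n 0 0|
      ≤ l * (1 - l) / 2 * (gC (μ.real Set.univ) n * (∫ ξ, ξ ^ 2 ∂μ) ^ 2 * W0 ν v κ) := by
  have h := Gd_bound hs ν hν hν1 v β β₁ β₂ l hl0 hl1 hβ κ hκ hB0 n 0 0
  have e1 : Bq κ (0 : Fin N → ℝ) = 0 := by simp [Bq]
  have e2 : W1 ν v κ (0 : Fin N → ℝ) = 0 := by simp [W1, bq]
  rw [e1, e2] at h
  simpa using h

/-- **The comparison inequality** under the domination hypothesis. -/
theorem log_comparison_phase (hs : Spec μ w θ) (hμ : μ.real Set.univ < 1)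
    (hcond : (∫ ξ, ξ ^ 2 ∂μ) ^ 2 * (1 / (1 - μ.real Set.univ) ^ 2 - 1)
      ≤ (a2 μ w θ) ^ 2 - (sg μ w θ) ^ 2 / 2)
    (ν : X → ℝ) (hν : ∀ x, 0 ≤ ν x) (hν1 : ∑ x, ν x = 1)
    (v : X → Fin N → ℝ) (hv : ∀ x i, v x i ^ 2 = 1) (β β₁ β₂ : Fin N → ℝ) (l : ℝ)
    (hl0 : 0 ≤ l) (hl1 : l ≤ 1) (hβ : ∀ i, β i ^ 2 = l * β₁ i ^ 2 + (1 - l) * β₂ i ^ 2)
    (hβ₁ : ∑ i, β₁ i ^ 2 = 1) (hβ₂ : ∑ i, β₂ i ^ 2 = 1) :
    l * ∫ g, Real.log (1 - sP μ w θ ν v β₁ g) ∂(gaussVec N)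
        + (1 - l) * ∫ g, Real.log (1 - sP μ w θ ν v β₂ g) ∂(gaussVec N)
      ≤ ∫ g, Real.log (1 - sP μ w θ ν v β g) ∂(gaussVec N) := by
  set m := μ.real Set.univ with hm
  have hm0 : 0 ≤ m := measureReal_nonneg
  set s₂ := ∫ ξ, ξ ^ 2 ∂μ with hs₂
  set κ : Fin N → ℝ := fun i => β₁ i ^ 2 - β₂ i ^ 2 with hκdef
  have hκ : ∀ i, κ i = β₁ i ^ 2 - β₂ i ^ 2 := fun i => rfl
  have hB0 : ∀ x, Bq κ (v x) = 0 := by
    intro x
    unfold Bq
    simp_rw [hv x, mul_one, hκ]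
    rw [Finset.sum_sub_distrib, hβ₁, hβ₂]
    norm_num
  set W := W0 ν v κ with hW
  have hW0 : 0 ≤ W := W0_nonneg ν hν v κ
  set A : ℕ → ℝ := fun n => Gd μ w θ ν v β β₁ β₂ l n 0 0 with hA
  have hAeq : ∀ n, A n = l * (∫ g, (sP μ w θ ν v β₁ g) ^ n ∂(gaussVec N))
      + (1 - l) * (∫ g, (sP μ w θ ν v β₂ g) ^ n ∂(gaussVec N))
      - ∫ g, (sP μ w θ ν v β g) ^ n ∂(gaussVec N) := by
    intro n
    simp only [hA, Gd, Phi_at_zero]
  have h0 := hasSum_log hs hμ ν hν hν1 v β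
  have h1 := hasSum_log hs hμ ν hν hν1 v β₁
  have h2 := hasSum_log hs hμ ν hν hν1 v β₂
  have H := ((h1.mul_left l).add (h2.mul_left (1 - l))).sub h0
  set L := ∫ g, Real.log (1 - sP μ w θ ν v β g) ∂(gaussVec N) with hL
  set L₁ := ∫ g, Real.log (1 - sP μ w θ ν v β₁ g) ∂(gaussVec N) with hL₁
  set L₂ := ∫ g, Real.log (1 - sP μ w θ ν v β₂ g) ∂(gaussVec N) with hL₂
  set f : ℕ → ℝ := fun n => A (n + 1) / ((n : ℝ) + 1) with hf
  have hfeq : (fun n : ℕ => l * ((∫ g, (sP μ w θ ν v β₁ g) ^ (n + 1) ∂(gaussVec N)) / ((n : ℝ) + 1))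
      + (1 - l) * ((∫ g, (sP μ w θ ν v β₂ g) ^ (n + 1) ∂(gaussVec N)) / ((n : ℝ) + 1))
      - (∫ g, (sP μ w θ ν v β g) ^ (n + 1) ∂(gaussVec N)) / ((n : ℝ) + 1)) = f := by
    funext n
    simp only [hf, hAeq]
    ring
  rw [hfeq] at H
  have H2 := (hasSum_nat_add_iff' 2).2 H
  -- the comparison series
  have hP : HasSum (fun n : ℕ => ((n : ℝ) + 1) * m ^ n) (1 / (1 - m) ^ 2) := by
    have := hasSum_choose_mul_geometric_of_norm_lt_one (𝕜 := ℝ) 1 (r := m)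
      (by rw [Real.norm_eq_abs, abs_of_nonneg hm0]; exact hμ)
    simp only [Nat.choose_one_right] at this
    have e : (fun n : ℕ => ((n : ℝ) + 1) * m ^ n) = fun n : ℕ => ((n + 1 : ℕ) : ℝ) * m ^ n := by
      funext n
      push_cast
      ring
    rw [e]
    exact this
  have hP1 := (hasSum_nat_add_iff' 1).2 hP
  simp only [Finset.sum_range_one, Nat.cast_zero, zero_add, pow_zero, mul_one] at hP1
  set c0 := l * (1 - l) / 2 * s₂ ^ 2 * W / 2 with hc0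
  have hlow := hP1.mul_left (-c0)
  have hl' := sub_nonneg.2 hl1
  have hpt : ∀ n : ℕ, -c0 * (((n + 1 : ℕ) + 1 : ℝ) * m ^ (n + 1)) ≤ f (n + 2) := by
    intro n
    have hb := Gd_bound_zero hs ν hν hν1 v β β₁ β₂ l hl0 hl1 hβ κ hκ hB0 (n + 1 + 2)
    rw [gC_succ_succ] at hb
    have hlo := (abs_le.1 hb).1
    simp only [hf]
    have hpos : (0 : ℝ) < ((n + 2 : ℕ) : ℝ) + 1 := by positivity
    rw [le_div_iff₀ hpos]
    have e : A (n + 2 + 1) = Gd μ w θ ν v β β₁ β₂ l (n + 1 + 2) 0 0 := rfl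
    rw [e]
    refine le_trans (le_of_eq ?_) hlo
    rw [hc0]
    push_cast
    ring
  have hcmp := hasSum_le hpt hlow H2
  simp only [Finset.sum_range_succ, Finset.sum_range_zero, zero_add] at hcmp
  -- `f 0 = 0`
  have hf0 : f 0 = 0 := by
    have hb := Gd_bound_zero hs ν hν hν1 v β β₁ β₂ l hl0 hl1 hβ κ hκ hB0 1
    have e : gC m 1 = 0 := by simp [gC, fC]
    rw [e] at hb
    simp only [zero_mul, mul_zero] at hb
    have : A 1 = 0 := abs_nonpos_iff.1 hb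
    simp [hf, this]
  -- `f 1` is large
  have hf1 : (((a2 μ w θ) ^ 2 - (sg μ w θ) ^ 2 / 2) / 2 * (l * (1 - l) * W)) / 2 ≤ f 1 := by
    have := Gd_two_lower hs ν hν hν1 v hv β β₁ β₂ l hl0 hl1 hβ hβ₁ hβ₂ κ hκ
    simp only [hf]
    norm_num
    have e : A 2 = Gd μ w θ ν v β β₁ β₂ l 2 0 0 := rfl
    rw [e]
    linarith
  rw [hf0] at hcmp
  -- conclusion
  have hD : 0 ≤ l * (1 - l) * W / 4 := by positivity
  have hfin := mul_le_mul_of_nonneg_left hcond hD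
  have htot : 0 ≤ l * -L₁ + (1 - l) * -L₂ - -L := by
    have e1 : -c0 * (1 / (1 - m) ^ 2 - 1)
        = -(l * (1 - l) * W / 4 * (s₂ ^ 2 * (1 / (1 - m) ^ 2 - 1))) := by
      rw [hc0]
      ring
    have e2 : (((a2 μ w θ) ^ 2 - (sg μ w θ) ^ 2 / 2) / 2 * (l * (1 - l) * W)) / 2
        = l * (1 - l) * W / 4 * ((a2 μ w θ) ^ 2 - (sg μ w θ) ^ 2 / 2) := by ring
    linarith
  linarith

/-! ### The limit theorem -/

omit [IsFiniteMeasure μ] [Fintype X] in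
theorem spinVec_sq {M : ℕ} (x : Fin M → Bool) (i : Fin M) : spinVec x i ^ 2 = 1 := by
  unfold spinVec spin
  split_ifs <;> norm_num

omit [IsFiniteMeasure μ] [Fintype X] in
theorem beta1_sum (N₁ N₂ : ℕ) (h₁ : 1 ≤ N₁) : ∑ i, beta1 N₁ N₂ i ^ 2 = 1 := by
  have hN : (0 : ℝ) < N₁ := by exact_mod_cast h₁
  rw [Fin.sum_univ_add]
  simp only [beta1, Fin.addCases_left, Fin.addCases_right]
  rw [div_pow, Real.sq_sqrt hN.le]
  simp only [one_pow, Finset.sum_const, Finset.card_univ, Fintype.card_fin, nsmul_eq_mul]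
  field_simp
  simp

omit [IsFiniteMeasure μ] [Fintype X] in
theorem beta2_sum (N₁ N₂ : ℕ) (h₂ : 1 ≤ N₂) : ∑ i, beta2 N₁ N₂ i ^ 2 = 1 := by
  have hN : (0 : ℝ) < N₂ := by exact_mod_cast h₂
  rw [Fin.sum_univ_add]
  simp only [beta2, Fin.addCases_left, Fin.addCases_right]
  rw [div_pow, Real.sq_sqrt hN.le]
  simp only [one_pow, Finset.sum_const, Finset.card_univ, Fintype.card_fin, nsmul_eq_mul]
  field_simp
  simp

theorem goodY (hs : Spec μ w θ) (hμ : μ.real Set.univ < 1)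
    (hcond : (∫ ξ, ξ ^ 2 ∂μ) ^ 2 * (1 / (1 - μ.real Set.univ) ^ 2 - 1)
      ≤ (a2 μ w θ) ^ 2 - (sg μ w θ) ^ 2 / 2) :
    Gen.GoodY (yPh μ w θ) (μ.real Set.univ) where
  cont := continuous_yPh hs
  bd := abs_yPh_le hs
  m1 := hμ
  cmp := fun N₁ N₂ h₁ h₂ ν hν hν1 => by
    have hN₁ : (0 : ℝ) < N₁ := by exact_mod_cast h₁
    have hN₂ : (0 : ℝ) < N₂ := by exact_mod_cast h₂
    have hl0 : 0 ≤ (N₁ : ℝ) / (N₁ + N₂ : ℕ) := by positivity
    have hl1 : (N₁ : ℝ) / (N₁ + N₂ : ℕ) ≤ 1 := by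
      rw [div_le_one (by push_cast; positivity)]
      push_cast
      linarith
    exact log_comparison_phase hs hμ hcond ν hν hν1 spinVec (fun x i => spinVec_sq x i)
      (beta0 N₁ N₂) (beta1 N₁ N₂) (beta2 N₁ N₂) _ hl0 hl1 (beta_identity h₁ h₂)
      (beta1_sum N₁ N₂ h₁) (beta2_sum N₁ N₂ h₂)

open Filter Topology in
/-- **Limit theorem under the explicit criterion.** -/
theorem limit_criterion (hs : Spec μ w θ) (hμ : μ.real Set.univ < 1)
    (hcond : (∫ ξ, ξ ^ 2 ∂μ) ^ 2 * (1 / (1 - μ.real Set.univ) ^ 2 - 1)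
      ≤ (a2 μ w θ) ^ 2 - (sg μ w θ) ^ 2 / 2)
    (c : ℝ) (hc : 0 < c) (α : ℝ) (hα : 0 < α) :
    ∃ L : ℝ, Tendsto (fun N : ℕ =>
      expectedPressure (fun u => Real.log (c * (1 - yPh μ w θ u))) α N) atTop (𝓝 L) :=
  Gen.main (goodY hs hμ hcond) c hc α hα

/-! ### Small amplitudes -/

/-- Sign of `ε`. -/
def sgnε (ε : ℝ) : ℝ := if 0 ≤ ε then 1 else -1

omit [IsFiniteMeasure μ] in
theorem abs_mul_sgn (ε : ℝ) : |ε| * sgnε ε = ε := by
  unfold sgnε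
  split_ifs with h
  · rw [abs_of_nonneg h, mul_one]
  · rw [abs_of_neg (not_le.1 h)]; ring

omit [IsFiniteMeasure μ] in
theorem abs_sgn (ε : ℝ) : |sgnε ε| = 1 := by
  unfold sgnε
  split_ifs <;> simp

/-- Scaled measure. -/
def scM (μ : Measure ℝ) (ε : ℝ) : Measure ℝ := ENNReal.ofReal |ε| • μ

instance (ε : ℝ) : IsFiniteMeasure (scM μ ε) := by
  unfold scM
  exact Measure.smul_finite μ ENNReal.ofReal_ne_top

omit [IsFiniteMeasure μ] in
theorem integral_scM (ε : ℝ) (f : ℝ → ℝ) : ∫ ξ, f ξ ∂(scM μ ε) = |ε| * ∫ ξ, f ξ ∂μ := by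
  unfold scM
  rw [integral_smul_measure, ENNReal.toReal_ofReal (abs_nonneg ε), smul_eq_mul]

omit [IsFiniteMeasure μ] in
theorem real_scM (ε : ℝ) : (scM μ ε).real Set.univ = |ε| * μ.real Set.univ := by
  unfold scM
  simp [Measure.real, ENNReal.toReal_ofReal (abs_nonneg ε)]

omit [IsFiniteMeasure μ] in
theorem spec_scM (hs : Spec μ w θ) (ε : ℝ) : Spec (scM μ ε) (fun ξ => sgnε ε * w ξ) θ where
  mw := measurable_const.mul hs.mw
  mθ := hs.mθ
  w1 := fun ξ => by rw [abs_mul, abs_sgn, one_mul]; exact hs.w1 ξ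
  sq := hs.sq.smul_measure ENNReal.ofReal_ne_top

omit [IsFiniteMeasure μ] in
theorem yPh_scM (ε u : ℝ) : yPh (scM μ ε) (fun ξ => sgnε ε * w ξ) θ u = ε * yPh μ w θ u := by
  unfold yPh
  rw [integral_scM]
  simp_rw [mul_assoc]
  rw [integral_const_mul, ← mul_assoc, abs_mul_sgn]

omit [IsFiniteMeasure μ] in
theorem a2_scM (ε : ℝ) : a2 (scM μ ε) (fun ξ => sgnε ε * w ξ) θ = ε * a2 μ w θ := by
  unfold a2
  rw [integral_scM]
  simp_rw [mul_assoc]
  rw [integral_const_mul, ← mul_assoc, abs_mul_sgn]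

omit [IsFiniteMeasure μ] in
theorem sg_scM (ε : ℝ) : sg (scM μ ε) (fun ξ => sgnε ε * w ξ) θ = |ε| * sg μ w θ := by
  unfold sg
  rw [integral_scM]
  congr 1
  refine integral_congr_ae (Filter.Eventually.of_forall fun ξ => ?_)
  dsimp only
  rw [mul_assoc (sgnε ε), abs_mul, abs_sgn, one_mul]

open Filter Topology in
/-- **Small amplitudes**: if the even part has a non-zero second Hermite coefficient dominating the
odd part, then the limit exists for all small amplitudes of either sign. -/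
theorem limit_small (hs : Spec μ w θ) (hd : (sg μ w θ) ^ 2 / 2 < (a2 μ w θ) ^ 2) :
    ∃ ε₀ > 0, ∀ ε : ℝ, |ε| < ε₀ → ∀ c : ℝ, 0 < c → ∀ α : ℝ, 0 < α →
      ∃ L : ℝ, Tendsto (fun N : ℕ =>
        expectedPressure (fun u => Real.log (c * (1 - ε * yPh μ w θ u))) α N) atTop (𝓝 L) := by
  set m := μ.real Set.univ with hm
  set s₂ := ∫ ξ, ξ ^ 2 ∂μ with hs₂
  set d := (a2 μ w θ) ^ 2 - (sg μ w θ) ^ 2 / 2 with hddef
  have hd0 : 0 < d := by rw [hddef]; linarith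
  have hc1 : ContinuousAt (fun e : ℝ => |e| * m) 0 := by fun_prop
  have hψ : ContinuousAt (fun e : ℝ => s₂ ^ 2 * (1 / (1 - |e| * m) ^ 2 - 1)) 0 := by
    refine ContinuousAt.mul continuousAt_const (ContinuousAt.sub (ContinuousAt.div continuousAt_const
      (by fun_prop) (by simp)) continuousAt_const)
  have he1 : ∀ᶠ e in 𝓝 (0 : ℝ), |e| * m < 1 := hc1.eventually (gt_mem_nhds (by simp))
  have he2 : ∀ᶠ e in 𝓝 (0 : ℝ), s₂ ^ 2 * (1 / (1 - |e| * m) ^ 2 - 1) < d :=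
    hψ.eventually (gt_mem_nhds (by simpa using hd0))
  obtain ⟨ε₀, hε₀, h⟩ := Metric.eventually_nhds_iff.1 (he1.and he2)
  refine ⟨ε₀, hε₀, fun ε hε c hc α hα => ?_⟩
  obtain ⟨h1, h2⟩ := @h ε (by simpa [Real.dist_eq] using hε)
  have hr := real_scM (μ := μ) ε
  have hsq : ∫ ξ, ξ ^ 2 ∂(scM μ ε) = |ε| * s₂ := integral_scM ε _
  have hcond : (∫ ξ, ξ ^ 2 ∂(scM μ ε)) ^ 2 * (1 / (1 - (scM μ ε).real Set.univ) ^ 2 - 1)
      ≤ (a2 (scM μ ε) (fun ξ => sgnε ε * w ξ) θ) ^ 2 - (sg (scM μ ε) (fun ξ => sgnε ε * w ξ) θ) ^ 2 / 2 := by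
    rw [hsq, hr, a2_scM, sg_scM, mul_pow, mul_pow, mul_pow, sq_abs]
    have := mul_le_mul_of_nonneg_left h2.le (sq_nonneg ε)
    rw [hddef] at this
    nlinarith [this]
  have key := limit_criterion (spec_scM hs ε) (by rw [hr]; exact h1) hcond c hc α hα
  simpa only [yPh_scM] using key

end

end Phase

end P157
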