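import Vale.Agent.Lib.P157.Layer
import Vale.Agent.Lib.P157.Analytic

open MeasureTheory ProbabilityTheory

namespace P157

noncomputable section

/-- The potential weight `U(u) = c (1 - y_μ(u))`. -/
def potU (μ : Measure ℝ) (c u : ℝ) : ℝ := c * (1 - yFun μ u)

/-- Weights of the single-block system on `Fin N → Bool`. -/
def phiOne (μ : Measure ℝ) (c : ℝ) (N : ℕ) : Unit → (Fin N → ℝ) → (Fin N → Bool) → ℝ :=
  fun _ g x => potU μ c (localField g x)

/-- `L N M = E log 2^{-N} ∑_x ∏_{a<M} U(g^a·x/√N)`, as an iterated expectation. -/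
def logZ (μ : Measure ℝ) (c : ℝ) (N M : ℕ) : ℝ :=
  H (gaussVec N) (phiOne μ c N) (List.replicate M ()) (fun _ => ((2 : ℝ) ^ N)⁻¹)

/-- The bound constant of the potential: `K = max |log (c (1-m))|, |log (c (1+m))|` with `m = μ(ℝ)`. -/
def potK (μ : Measure ℝ) (c : ℝ) : ℝ :=
  max |Real.log (c * (1 - μ.real Set.univ))| |Real.log (c * (1 + μ.real Set.univ))|

variable {μ : Measure ℝ} [IsFiniteMeasure μ] {c : ℝ}

theorem potU_bounds (hμ : μ.real Set.univ < 1) (hc : 0 < c) (u : ℝ) :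
    Real.exp (-potK μ c) ≤ potU μ c u ∧ potU μ c u ≤ Real.exp (potK μ c) := by
  have hm0 : 0 ≤ μ.real Set.univ := measureReal_nonneg
  have hy := abs_le.1 (abs_yFun_le μ u)
  have h1 : 0 < c * (1 - μ.real Set.univ) := mul_pos hc (by linarith)
  have h2 : 0 < c * (1 + μ.real Set.univ) := mul_pos hc (by linarith)
  have hK1 : |Real.log (c * (1 - μ.real Set.univ))| ≤ potK μ c := le_max_left _ _
  have hK2 : |Real.log (c * (1 + μ.real Set.univ))| ≤ potK μ c := le_max_right _ _
  constructor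
  · calc Real.exp (-potK μ c) ≤ Real.exp (Real.log (c * (1 - μ.real Set.univ))) := by
          apply Real.exp_le_exp.2
          have := abs_le.1 hK1
          linarith [this.1]
      _ = c * (1 - μ.real Set.univ) := Real.exp_log h1
      _ ≤ potU μ c u := by
          unfold potU
          exact mul_le_mul_of_nonneg_left (by linarith [hy.2]) hc.le
  · calc potU μ c u ≤ c * (1 + μ.real Set.univ) := by
          unfold potU
          exact mul_le_mul_of_nonneg_left (by linarith [hy.1]) hc.le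
      _ = Real.exp (Real.log (c * (1 + μ.real Set.univ))) := (Real.exp_log h2).symm
      _ ≤ Real.exp (potK μ c) := by
          apply Real.exp_le_exp.2
          exact (le_abs_self _).trans hK2

theorem potU_pos (hμ : μ.real Set.univ < 1) (hc : 0 < c) (u : ℝ) : 0 < potU μ c u :=
  (Real.exp_pos _).trans_le (potU_bounds hμ hc u).1

theorem continuous_potU (μ : Measure ℝ) [IsFiniteMeasure μ] (c : ℝ) : Continuous (potU μ c) := by
  unfold potU
  have := continuous_yFun μ
  fun_prop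

theorem continuous_localField {N : ℕ} (x : Fin N → Bool) :
    Continuous fun g : Fin N → ℝ => localField g x := by
  unfold localField
  fun_prop

theorem measurable_localField {N : ℕ} (x : Fin N → Bool) :
    Measurable fun g : Fin N → ℝ => localField g x :=
  (continuous_localField x).measurable

/-- Admissibility of the single-block system (`N ≥ 1` is not needed). -/
theorem admissible_one (hμ : μ.real Set.univ < 1) (hc : 0 < c) (N : ℕ) :
    Admissible (gaussVec N) (phiOne μ c N) (potK μ c) where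
  prob := inferInstance
  meas := fun _ x => ((continuous_potU μ c).comp (continuous_localField x)).measurable
  lo := fun _ g x => (potU_bounds hμ hc _).1
  hi := fun _ g x => (potU_bounds hμ hc _).2

theorem potK_nonneg (μ : Measure ℝ) (c : ℝ) : 0 ≤ potK μ c :=
  (abs_nonneg _).trans (le_max_left _ _)

instance cube_nonempty (N : ℕ) : Nonempty (Fin N → Bool) := ⟨fun _ => true⟩

theorem logZ_succ_sub (hμ : μ.real Set.univ < 1) (hc : 0 < c) (N M : ℕ) :
    |logZ μ c N (M + 1) - logZ μ c N M| ≤ potK μ c := by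
  unfold logZ
  rw [List.replicate_succ]
  exact H_cons_sub (admissible_one hμ hc N) () _ _ (fun _ => by positivity)

theorem logZ_zero (N : ℕ) (μ : Measure ℝ) (c : ℝ) : logZ μ c N 0 = 0 := by
  unfold logZ
  simp [H]

/-- Lipschitz in `M`. -/
theorem logZ_lipschitz (hμ : μ.real Set.univ < 1) (hc : 0 < c) (N M M' : ℕ) :
    |logZ μ c N M - logZ μ c N M'| ≤ potK μ c * |(M : ℝ) - M'| := by
  have aux : ∀ (M d : ℕ), |logZ μ c N (M + d) - logZ μ c N M| ≤ potK μ c * d := by
    intro M d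
    induction d with
    | zero => simp
    | succ d ih =>
      have h1 := logZ_succ_sub hμ hc N (M + d)
      have h2 := abs_sub_le (logZ μ c N (M + d + 1)) (logZ μ c N (M + d)) (logZ μ c N M)
      rw [← add_assoc]
      push_cast
      rw [mul_add, mul_one]
      linarith
  rcases le_total M M' with h | h
  · obtain ⟨d, rfl⟩ := Nat.exists_eq_add_of_le h
    rw [abs_sub_comm]
    have : |((M : ℝ) - ((M + d : ℕ) : ℝ))| = d := by
      push_cast
      rw [show (M : ℝ) - (M + d) = -(d : ℝ) by ring, abs_neg, abs_of_nonneg (Nat.cast_nonneg d)]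
    rw [this]
    exact aux M d
  · obtain ⟨d, rfl⟩ := Nat.exists_eq_add_of_le h
    have : |(((M' + d : ℕ) : ℝ) - (M' : ℝ))| = d := by
      push_cast
      rw [show (M' : ℝ) + d - M' = (d : ℝ) by ring, abs_of_nonneg (Nat.cast_nonneg d)]
    rw [this]
    exact aux M' d

/-- `|logZ N ⌊α N⌋| ≤ K α N`. -/
theorem logZ_floor_bound (hμ : μ.real Set.univ < 1) (hc : 0 < c) (α : ℝ) (hα : 0 < α) (N : ℕ) :
    |logZ μ c N ⌊α * N⌋₊| ≤ (potK μ c * α) * N := by
  have h := logZ_lipschitz hμ hc N ⌊α * N⌋₊ 0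
  rw [logZ_zero, sub_zero] at h
  refine h.trans ?_
  rw [mul_assoc]
  refine mul_le_mul_of_nonneg_left ?_ (potK_nonneg μ c)
  simp only [Nat.cast_zero, sub_zero, Nat.abs_cast]
  exact Nat.floor_le (by positivity)

/-- The link with the definition of `expectedPressure`. -/
theorem expectedPressure_eq (hμ : μ.real Set.univ < 1) (hc : 0 < c) (α : ℝ) (N : ℕ) :
    expectedPressure (logPot μ c) α N = logZ μ c N ⌊α * N⌋₊ / N := by
  unfold expectedPressure logZ
  rw [integral_const_mul, div_eq_inv_mul]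
  congr 1
  rw [H_replicate_eq_pi (admissible_one hμ hc N) () _ _ (fun _ => by positivity)]
  refine integral_congr_ae (Filter.Eventually.of_forall fun g => ?_)
  unfold logPartition
  congr 1
  rw [Finset.mul_sum]
  refine Finset.sum_congr rfl fun x _ => ?_
  congr 1
  rw [Real.exp_sum]
  refine Finset.prod_congr rfl fun a _ => ?_
  unfold logPot
  exact Real.exp_log (potU_pos hμ hc _)

/-- Binomial second moment. -/
theorem binAvg_add (l : ℝ) (m : ℕ) (f g : ℕ → ℝ) :
    binAvg l m (fun k => f k + g k) = binAvg l m f + binAvg l m g := by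
  unfold binAvg
  rw [← Finset.sum_add_distrib]
  exact Finset.sum_congr rfl fun k _ => by ring

theorem binAvg_mul_const (l : ℝ) (m : ℕ) (f : ℕ → ℝ) (r : ℝ) :
    binAvg l m (fun k => r * f k) = r * binAvg l m f := by
  unfold binAvg
  rw [Finset.mul_sum]
  exact Finset.sum_congr rfl fun k _ => by ring

theorem binAvg_one (l : ℝ) (m : ℕ) : binAvg l m (fun _ => 1) = 1 := by
  induction m with
  | zero => simp [binAvg]
  | succ m ih =>
    rw [binAvg_succ, ih]
    ring

theorem binAvg_const (l : ℝ) (m : ℕ) (r : ℝ) : binAvg l m (fun _ => r) = r := by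
  have := binAvg_mul_const l m (fun _ => 1) r
  simpa [binAvg_one] using this

theorem binAvg_mono (l : ℝ) (hl0 : 0 ≤ l) (hl1 : l ≤ 1) (m : ℕ) {f g : ℕ → ℝ}
    (h : ∀ k, k ≤ m → f k ≤ g k) : binAvg l m f ≤ binAvg l m g := by
  unfold binAvg
  refine Finset.sum_le_sum fun k hk => ?_
  refine mul_le_mul_of_nonneg_left (h k (Nat.lt_succ_iff.1 (Finset.mem_range.1 hk))) ?_
  have : 0 ≤ 1 - l := sub_nonneg.2 hl1
  positivity

theorem binAvg_variance (l : ℝ) (m : ℕ) :
    binAvg l m (fun k => ((k : ℝ) - l * m) ^ 2) = m * (l * (1 - l)) := by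
  induction m with
  | zero => simp [binAvg]
  | succ m ih =>
    rw [binAvg_succ]
    have e1 : (fun k : ℕ => (((k + 1 : ℕ) : ℝ) - l * ((m + 1 : ℕ) : ℝ)) ^ 2)
        = fun k : ℕ => (((k : ℝ) - l * m) ^ 2 + 2 * (1 - l) * ((k : ℝ) - l * m)) + (1 - l) ^ 2 := by
      funext k
      push_cast
      ring
    have e2 : (fun k : ℕ => ((k : ℝ) - l * ((m + 1 : ℕ) : ℝ)) ^ 2)
        = fun k : ℕ => (((k : ℝ) - l * m) ^ 2 + (-(2 * l)) * ((k : ℝ) - l * m)) + l ^ 2 := by
      funext k
      push_cast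
      ring
    rw [e1, e2, binAvg_add, binAvg_add, binAvg_add, binAvg_add, binAvg_const, binAvg_const,
      binAvg_mul_const, binAvg_mul_const, ih]
    push_cast
    ring

/-- Binomial concentration in the form needed. -/
theorem binomial_abs_moment (l : ℝ) (hl0 : 0 ≤ l) (hl1 : l ≤ 1) (M : ℕ) :
    ∑ k ∈ Finset.range (M + 1), (M.choose k : ℝ) * l ^ k * (1 - l) ^ (M - k) * |(k : ℝ) - l * M|
      ≤ Real.sqrt M := by
  change binAvg l M (fun k => |(k : ℝ) - l * M|) ≤ _
  rcases Nat.eq_zero_or_pos M with rfl | hM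
  · simp [binAvg]
  have hMr : (0 : ℝ) < M := by exact_mod_cast hM
  set s := Real.sqrt M with hs
  have hs0 : 0 < s := Real.sqrt_pos.2 hMr
  have hss : s * s = M := Real.mul_self_sqrt hMr.le
  have hpt : ∀ k : ℕ, k ≤ M → |(k : ℝ) - l * M|
      ≤ ((1 / (2 * s)) * ((k : ℝ) - l * M) ^ 2) + s / 2 := by
    intro k _
    have h := sq_nonneg (|(k : ℝ) - l * M| - s)
    rw [sub_sq, sq_abs] at h
    have h2 : |(k : ℝ) - l * M| = (2 * |(k : ℝ) - l * M| * s) / (2 * s) := by
      field_simp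
    rw [h2]
    have h3 : s / 2 = s ^ 2 / (2 * s) := by field_simp
    rw [h3, one_div, inv_mul_eq_div, ← add_div]
    exact div_le_div_of_nonneg_right (by nlinarith) (by positivity)
  refine (binAvg_mono l hl0 hl1 M hpt).trans ?_
  rw [binAvg_add, binAvg_mul_const, binAvg_const, binAvg_variance]
  have hv : l * (1 - l) ≤ 1 := by nlinarith
  have hv0 : 0 ≤ l * (1 - l) := mul_nonneg hl0 (sub_nonneg.2 hl1)
  have : (1 / (2 * s)) * ((M : ℝ) * (l * (1 - l))) ≤ s / 2 := by
    rw [div_mul_eq_mul_div, one_mul, div_le_div_iff₀ (by positivity) (by norm_num)]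
    nlinarith [mul_nonneg hMr.le hv0, mul_pos hs0 hs0]
  linarith

/-! ### The three-type system -/

/-- The three pattern types. -/
inductive PatT | c | a | b

/-- The weights of the three-type system on the cube of dimension `N₁ + N₂`. -/
def pat3 (μ : Measure ℝ) (c : ℝ) (N₁ N₂ : ℕ) :
    PatT → (Fin (N₁ + N₂) → ℝ) → (Fin (N₁ + N₂) → Bool) → ℝ
  | PatT.c, g, x => potU μ c (localField g x)
  | PatT.a, g, x => potU μ c (localField (fun j => g (Fin.castAdd N₂ j)) (fun j => x (Fin.castAdd N₂ j)))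
  | PatT.b, g, x => potU μ c (localField (fun j => g (Fin.natAdd N₁ j)) (fun j => x (Fin.natAdd N₁ j)))

theorem measurable_restrict_cast (N₁ N₂ : ℕ) :
    Measurable fun (g : Fin (N₁ + N₂) → ℝ) (j : Fin N₁) => g (Fin.castAdd N₂ j) :=
  measurable_pi_lambda _ fun j => measurable_pi_apply _

theorem measurable_restrict_nat (N₁ N₂ : ℕ) :
    Measurable fun (g : Fin (N₁ + N₂) → ℝ) (j : Fin N₂) => g (Fin.natAdd N₁ j) :=
  measurable_pi_lambda _ fun j => measurable_pi_apply _

theorem admissible_three (hμ : μ.real Set.univ < 1) (hc : 0 < c) (N₁ N₂ : ℕ) :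
    Admissible (gaussVec (N₁ + N₂)) (pat3 μ c N₁ N₂) (potK μ c) where
  prob := inferInstance
  meas := by
    intro t x
    cases t
    · exact ((continuous_potU μ c).comp (continuous_localField x)).measurable
    · exact (((continuous_potU μ c).comp (continuous_localField _)).measurable).comp
        (measurable_restrict_cast N₁ N₂)
    · exact (((continuous_potU μ c).comp (continuous_localField _)).measurable).comp
        (measurable_restrict_nat N₁ N₂)
  lo := by
    intro t g x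
    cases t <;> exact (potU_bounds hμ hc _).1
  hi := by
    intro t g x
    cases t <;> exact (potU_bounds hμ hc _).2

/-- Spin vector of a configuration. -/
def spinVec {N : ℕ} (x : Fin N → Bool) : Fin N → ℝ := fun i => spin (x i)

def beta0 (N₁ N₂ : ℕ) : Fin (N₁ + N₂) → ℝ := fun _ => 1 / Real.sqrt ((N₁ + N₂ : ℕ) : ℝ)

def beta1 (N₁ N₂ : ℕ) : Fin (N₁ + N₂) → ℝ :=
  Fin.addCases (fun _ => 1 / Real.sqrt (N₁ : ℝ)) (fun _ => 0)

def beta2 (N₁ N₂ : ℕ) : Fin (N₁ + N₂) → ℝ :=
  Fin.addCases (fun _ => 0) (fun _ => 1 / Real.sqrt (N₂ : ℝ))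

theorem localField_eq_fld0 {N₁ N₂ : ℕ} (g : Fin (N₁ + N₂) → ℝ) (x : Fin (N₁ + N₂) → Bool) :
    localField g x = fld (beta0 N₁ N₂) g (spinVec x) := by
  unfold localField fld beta0 spinVec
  rw [Finset.sum_div]
  refine Finset.sum_congr rfl fun i _ => ?_
  ring

theorem localField_eq_fld1 {N₁ N₂ : ℕ} (g : Fin (N₁ + N₂) → ℝ) (x : Fin (N₁ + N₂) → Bool) :
    localField (fun j => g (Fin.castAdd N₂ j)) (fun j => x (Fin.castAdd N₂ j))
      = fld (beta1 N₁ N₂) g (spinVec x) := by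
  unfold localField fld beta1 spinVec
  rw [Fin.sum_univ_add, Finset.sum_div]
  simp only [Fin.addCases_left, Fin.addCases_right, mul_zero, zero_mul, Finset.sum_const_zero, add_zero]
  refine Finset.sum_congr rfl fun i _ => ?_
  ring

theorem localField_eq_fld2 {N₁ N₂ : ℕ} (g : Fin (N₁ + N₂) → ℝ) (x : Fin (N₁ + N₂) → Bool) :
    localField (fun j => g (Fin.natAdd N₁ j)) (fun j => x (Fin.natAdd N₁ j))
      = fld (beta2 N₁ N₂) g (spinVec x) := by
  unfold localField fld beta2 spinVec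
  rw [Fin.sum_univ_add, Finset.sum_div]
  simp only [Fin.addCases_left, Fin.addCases_right, mul_zero, zero_mul, Finset.sum_const_zero, zero_add]
  refine Finset.sum_congr rfl fun i _ => ?_
  ring

theorem beta_identity {N₁ N₂ : ℕ} (h₁ : 1 ≤ N₁) (h₂ : 1 ≤ N₂) (i : Fin (N₁ + N₂)) :
    beta0 N₁ N₂ i ^ 2 = ((N₁ : ℝ) / (N₁ + N₂ : ℕ)) * beta1 N₁ N₂ i ^ 2
      + (1 - (N₁ : ℝ) / (N₁ + N₂ : ℕ)) * beta2 N₁ N₂ i ^ 2 := by
  have hN₁ : (0 : ℝ) < N₁ := by exact_mod_cast h₁
  have hN₂ : (0 : ℝ) < N₂ := by exact_mod_cast h₂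
  have hN : (0 : ℝ) < ((N₁ + N₂ : ℕ) : ℝ) := by push_cast; positivity
  have h0 : beta0 N₁ N₂ i ^ 2 = 1 / ((N₁ + N₂ : ℕ) : ℝ) := by
    unfold beta0
    rw [div_pow, Real.sq_sqrt hN.le, one_pow]
  rw [h0]
  refine Fin.addCases (fun j => ?_) (fun j => ?_) i
  · simp only [beta1, beta2, Fin.addCases_left]
    rw [div_pow, Real.sq_sqrt hN₁.le]
    push_cast
    field_simp
    ring
  · simp only [beta1, beta2, Fin.addCases_right]
    rw [div_pow, Real.sq_sqrt hN₂.le]
    push_cast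
    field_simp
    ring

/-- The rewriting of a one-pattern term: `∑ w U = c S (1 - s)`. -/
theorem sum_weight_eq {N : ℕ} {X : Type*} [Fintype X] (w : X → ℝ) (hS : (∑ x, w x) ≠ 0)
    (v : X → Fin N → ℝ) (β g : Fin N → ℝ) :
    ∑ x, w x * potU μ c (fld β g (v x))
      = c * (∑ x, w x) * (1 - sAvg μ (fun x => w x / ∑ y, w y) v β g) := by
  unfold potU sAvg
  have h1 : (∑ y, w y) * ∑ x, (w x / ∑ y, w y) * yFun μ (fld β g (v x))
      = ∑ x, w x * yFun μ (fld β g (v x)) := by
    rw [Finset.mul_sum]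
    refine Finset.sum_congr rfl fun x _ => ?_
    field_simp
  calc ∑ x, w x * (c * (1 - yFun μ (fld β g (v x))))
      = c * (∑ x, w x) - c * ∑ x, w x * yFun μ (fld β g (v x)) := by
        rw [Finset.mul_sum, Finset.mul_sum, ← Finset.sum_sub_distrib]
        refine Finset.sum_congr rfl fun x _ => ?_
        ring
    _ = _ := by
        rw [← h1]
        ring

theorem integrable_log_one_sub (hμ : μ.real Set.univ < 1) {N : ℕ} {X : Type*} [Fintype X]
    (ν : X → ℝ) (hν : ∀ x, 0 ≤ ν x) (hν1 : ∑ x, ν x = 1) (v : X → Fin N → ℝ) (β : Fin N → ℝ) :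
    Integrable (fun g => Real.log (1 - sAvg μ ν v β g)) (gaussVec N) := by
  have hm0 : 0 ≤ μ.real Set.univ := measureReal_nonneg
  have hs : ∀ g, |sAvg μ ν v β g| ≤ μ.real Set.univ := by
    intro g
    have := abs_sAvg_le μ ν hν v β g
    rwa [hν1, one_mul] at this
  have hpos : ∀ g, 0 < 1 - sAvg μ ν v β g := fun g => by
    have := (abs_le.1 (hs g)).2
    linarith
  have hcont : Continuous fun g => Real.log (1 - sAvg μ ν v β g) :=
    Continuous.log (continuous_const.sub (continuous_sAvg μ ν v β)) fun g => (hpos g).ne'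
  refine Integrable.of_bound (C := |Real.log (1 - μ.real Set.univ)| + |Real.log (1 + μ.real Set.univ)|)
    hcont.aestronglyMeasurable (Filter.Eventually.of_forall fun g => ?_)
  have h1 : 0 < 1 - μ.real Set.univ := by linarith
  have hb := abs_le.1 (hs g)
  have hlo := Real.log_le_log h1 (show 1 - μ.real Set.univ ≤ 1 - sAvg μ ν v β g by linarith [hb.2])
  have hhi := Real.log_le_log (hpos g) (show 1 - sAvg μ ν v β g ≤ 1 + μ.real Set.univ by linarith [hb.1])
  rw [Real.norm_eq_abs, abs_le]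
  have a1 := abs_nonneg (Real.log (1 - μ.real Set.univ))
  have a2 := abs_nonneg (Real.log (1 + μ.real Set.univ))
  have a3 := neg_abs_le (Real.log (1 - μ.real Set.univ))
  have a4 := le_abs_self (Real.log (1 + μ.real Set.univ))
  constructor <;> linarith

/-- Evaluate `H [t] w` for a pattern of the form `U (fld β g (v x))`. -/
theorem integral_log_weight (hμ : μ.real Set.univ < 1) (hc : 0 < c) {N : ℕ} {X : Type*} [Fintype X]
    [Nonempty X] (w : X → ℝ) (hw : ∀ x, 0 < w x) (v : X → Fin N → ℝ) (β : Fin N → ℝ) :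
    ∫ g, Real.log (∑ x, w x * potU μ c (fld β g (v x))) ∂(gaussVec N)
      = Real.log (c * ∑ x, w x)
        + ∫ g, Real.log (1 - sAvg μ (fun x => w x / ∑ y, w y) v β g) ∂(gaussVec N) := by
  have hS := sum_pos_of_pos w hw
  have hν : ∀ x, 0 ≤ w x / ∑ y, w y := fun x => div_nonneg (hw x).le hS.le
  have hν1 : ∑ x, w x / ∑ y, w y = 1 := by
    rw [← Finset.sum_div, div_self hS.ne']
  have hpos : ∀ g, 0 < 1 - sAvg μ (fun x => w x / ∑ y, w y) v β g := fun g => by
    have h1 := abs_sAvg_le μ _ hν v β g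
    rw [hν1, one_mul] at h1
    have := (abs_le.1 h1).2
    linarith
  have hpt : ∀ g, Real.log (∑ x, w x * potU μ c (fld β g (v x)))
      = Real.log (c * ∑ x, w x) + Real.log (1 - sAvg μ (fun x => w x / ∑ y, w y) v β g) := by
    intro g
    rw [sum_weight_eq w hS.ne' v β g, Real.log_mul (mul_pos hc hS).ne' (hpos g).ne']
  simp_rw [hpt]
  rw [integral_add (integrable_const _) (integrable_log_one_sub hμ _ hν hν1 v β)]
  simp

theorem core_three (hμ : μ.real Set.univ < 1) (hc : 0 < c) (N₁ N₂ : ℕ) (h₁ : 1 ≤ N₁) (h₂ : 1 ≤ N₂)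
    (w : (Fin (N₁ + N₂) → Bool) → ℝ) (hw : ∀ x, 0 < w x) :
    ((N₁ : ℝ) / (N₁ + N₂ : ℕ)) * H (gaussVec (N₁ + N₂)) (pat3 μ c N₁ N₂) [PatT.a] w
        + (1 - (N₁ : ℝ) / (N₁ + N₂ : ℕ)) * H (gaussVec (N₁ + N₂)) (pat3 μ c N₁ N₂) [PatT.b] w
      ≤ H (gaussVec (N₁ + N₂)) (pat3 μ c N₁ N₂) [PatT.c] w := by
  have hS := sum_pos_of_pos w hw
  have hν : ∀ x, 0 ≤ w x / ∑ y, w y := fun x => div_nonneg (hw x).le hS.le
  have hν1 : ∑ x, w x / ∑ y, w y = 1 := by
    rw [← Finset.sum_div, div_self hS.ne']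
  have ea : H (gaussVec (N₁ + N₂)) (pat3 μ c N₁ N₂) [PatT.a] w
      = ∫ g, Real.log (∑ x, w x * potU μ c (fld (beta1 N₁ N₂) g (spinVec x))) ∂(gaussVec (N₁ + N₂)) := by
    simp only [H, pat3, localField_eq_fld1]
  have eb : H (gaussVec (N₁ + N₂)) (pat3 μ c N₁ N₂) [PatT.b] w
      = ∫ g, Real.log (∑ x, w x * potU μ c (fld (beta2 N₁ N₂) g (spinVec x))) ∂(gaussVec (N₁ + N₂)) := by
    simp only [H, pat3, localField_eq_fld2]
  have ec : H (gaussVec (N₁ + N₂)) (pat3 μ c N₁ N₂) [PatT.c] w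
      = ∫ g, Real.log (∑ x, w x * potU μ c (fld (beta0 N₁ N₂) g (spinVec x))) ∂(gaussVec (N₁ + N₂)) := by
    simp only [H, pat3, localField_eq_fld0]
  rw [ea, eb, ec, integral_log_weight hμ hc w hw, integral_log_weight hμ hc w hw,
    integral_log_weight hμ hc w hw]
  have hN₁ : (0 : ℝ) < N₁ := by exact_mod_cast h₁
  have hN₂ : (0 : ℝ) < N₂ := by exact_mod_cast h₂
  have hl0 : 0 ≤ (N₁ : ℝ) / (N₁ + N₂ : ℕ) := by positivity
  have hl1 : (N₁ : ℝ) / (N₁ + N₂ : ℕ) ≤ 1 := by
    rw [div_le_one (by push_cast; positivity)]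
    push_cast
    linarith
  have := log_comparison μ hμ _ hν hν1 spinVec (beta0 N₁ N₂) (beta1 N₁ N₂) (beta2 N₁ N₂) _ hl0 hl1
    (beta_identity h₁ h₂)
  linarith

/-! ### Factorization -/

/-- Product weight on the cube of dimension `N₁ + N₂`. -/
def prodW {N₁ N₂ : ℕ} (w₁ : (Fin N₁ → Bool) → ℝ) (w₂ : (Fin N₂ → Bool) → ℝ)
    (x : Fin (N₁ + N₂) → Bool) : ℝ :=
  w₁ (fun j => x (Fin.castAdd N₂ j)) * w₂ (fun j => x (Fin.natAdd N₁ j))

theorem sum_prodW {N₁ N₂ : ℕ} (w₁ : (Fin N₁ → Bool) → ℝ) (w₂ : (Fin N₂ → Bool) → ℝ) :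
    ∑ x, prodW w₁ w₂ x = (∑ x, w₁ x) * ∑ x, w₂ x := by
  rw [← (Fin.appendEquiv (α := Bool) N₁ N₂).sum_comp, Fintype.sum_prod_type, Finset.sum_mul_sum]
  refine Finset.sum_congr rfl fun a _ => Finset.sum_congr rfl fun b _ => ?_
  simp [prodW, Fin.appendEquiv]

theorem gaussVec_map_cast (N₁ N₂ : ℕ) :
    (gaussVec (N₁ + N₂)).map (fun (g : Fin (N₁ + N₂) → ℝ) (j : Fin N₁) => g (Fin.castAdd N₂ j))
      = gaussVec N₁ := by
  symm
  refine Measure.pi_eq fun s hs => ?_
  rw [Measure.map_apply (measurable_restrict_cast N₁ N₂) (MeasurableSet.univ_pi hs)]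
  have : (fun (g : Fin (N₁ + N₂) → ℝ) (j : Fin N₁) => g (Fin.castAdd N₂ j)) ⁻¹' Set.pi Set.univ s
      = Set.pi Set.univ (Fin.addCases s (fun _ => Set.univ)) := by
    ext g
    simp only [Set.mem_preimage, Set.mem_pi, Set.mem_univ, forall_true_left]
    constructor
    · intro h i
      refine Fin.addCases (fun j => ?_) (fun j => ?_) i
      · simpa using h j
      · simp
    · intro h j
      simpa using h (Fin.castAdd N₂ j)
  rw [this]
  unfold gaussVec
  rw [Measure.pi_pi, Fin.prod_univ_add]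
  simp

theorem gaussVec_map_nat (N₁ N₂ : ℕ) :
    (gaussVec (N₁ + N₂)).map (fun (g : Fin (N₁ + N₂) → ℝ) (j : Fin N₂) => g (Fin.natAdd N₁ j))
      = gaussVec N₂ := by
  symm
  refine Measure.pi_eq fun s hs => ?_
  rw [Measure.map_apply (measurable_restrict_nat N₁ N₂) (MeasurableSet.univ_pi hs)]
  have : (fun (g : Fin (N₁ + N₂) → ℝ) (j : Fin N₂) => g (Fin.natAdd N₁ j)) ⁻¹' Set.pi Set.univ s
      = Set.pi Set.univ (Fin.addCases (fun _ => Set.univ) s) := by
    ext g
    simp only [Set.mem_preimage, Set.mem_pi, Set.mem_univ, forall_true_left]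
    constructor
    · intro h i
      refine Fin.addCases (fun j => ?_) (fun j => ?_) i
      · simp
      · simpa using h j
    · intro h j
      simpa using h (Fin.natAdd N₁ j)
  rw [this]
  unfold gaussVec
  rw [Measure.pi_pi, Fin.prod_univ_add]
  simp

theorem H_factor (hμ : μ.real Set.univ < 1) (hc : 0 < c) (N₁ N₂ : ℕ) (i j : ℕ)
    (w₁ : (Fin N₁ → Bool) → ℝ) (w₂ : (Fin N₂ → Bool) → ℝ) (hw₁ : ∀ x, 0 < w₁ x) (hw₂ : ∀ x, 0 < w₂ x) :
    H (gaussVec (N₁ + N₂)) (pat3 μ c N₁ N₂) (List.replicate i PatT.a ++ List.replicate j PatT.b)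
        (prodW w₁ w₂)
      = H (gaussVec N₁) (phiOne μ c N₁) (List.replicate i ()) w₁
        + H (gaussVec N₂) (phiOne μ c N₂) (List.replicate j ()) w₂ := by
  have hφ₁ := admissible_one hμ hc N₁
  have hφ₂ := admissible_one hμ hc N₂
  induction i generalizing w₁ with
  | zero =>
    induction j generalizing w₂ with
    | zero =>
      simp only [List.replicate_zero, List.nil_append, H]
      rw [sum_prodW, Real.log_mul (sum_pos_of_pos w₁ hw₁).ne' (sum_pos_of_pos w₂ hw₂).ne']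
    | succ j ih =>
      simp only [List.replicate_zero, List.nil_append, List.replicate_succ, H] at ih ⊢
      have hpt : ∀ g : Fin (N₁ + N₂) → ℝ,
          H (gaussVec (N₁ + N₂)) (pat3 μ c N₁ N₂) (List.replicate j PatT.b)
              (fun x => prodW w₁ w₂ x * pat3 μ c N₁ N₂ PatT.b g x)
            = Real.log (∑ x, w₁ x)
              + H (gaussVec N₂) (phiOne μ c N₂) (List.replicate j ())
                  (fun x => w₂ x * phiOne μ c N₂ () (fun j => g (Fin.natAdd N₁ j)) x) := by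
        intro g
        rw [← ih (fun x => w₂ x * phiOne μ c N₂ () (fun j => g (Fin.natAdd N₁ j)) x)
          (fun x => mul_pos (hw₂ x) (hφ₂.pos _ _ x))]
        congr 1
        funext x
        simp only [prodW, pat3, phiOne]
        ring
      simp_rw [hpt]
      have hint := H_integrable hφ₂ () (List.replicate j ()) w₂ hw₂
      have hmap := gaussVec_map_nat N₁ N₂
      have hint' : Integrable (fun g : Fin (N₁ + N₂) → ℝ =>
          H (gaussVec N₂) (phiOne μ c N₂) (List.replicate j ())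
            (fun x => w₂ x * phiOne μ c N₂ () (fun j => g (Fin.natAdd N₁ j)) x)) (gaussVec (N₁ + N₂)) := by
        have hint2 : Integrable (fun g : Fin N₂ → ℝ =>
            H (gaussVec N₂) (phiOne μ c N₂) (List.replicate j ()) (fun x => w₂ x * phiOne μ c N₂ () g x))
            ((gaussVec (N₁ + N₂)).map (fun (g : Fin (N₁ + N₂) → ℝ) (j : Fin N₂) => g (Fin.natAdd N₁ j))) := by
          rw [hmap]
          exact hint
        exact hint2.comp_measurable (measurable_restrict_nat N₁ N₂)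
      rw [integral_add (integrable_const _) hint']
      simp only [integral_const, probReal_univ, smul_eq_mul, one_mul]
      congr 1
      have hsm : StronglyMeasurable fun g : Fin N₂ → ℝ =>
          H (gaussVec N₂) (phiOne μ c N₂) (List.replicate j ()) (fun x => w₂ x * phiOne μ c N₂ () g x) :=
        (H_meas hφ₂ _ (fun (g : Fin N₂ → ℝ) x => w₂ x * phiOne μ c N₂ () g x)
          (fun x => (hφ₂.meas _ x).const_mul _)).stronglyMeasurable
      have := integral_map (μ := gaussVec (N₁ + N₂)) (measurable_restrict_nat N₁ N₂).aemeasurable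
        (f := fun g : Fin N₂ → ℝ =>
          H (gaussVec N₂) (phiOne μ c N₂) (List.replicate j ()) (fun x => w₂ x * phiOne μ c N₂ () g x))
        (hsm.aestronglyMeasurable)
      rw [hmap] at this
      exact this.symm
  | succ i ih =>
    simp only [List.replicate_succ, List.cons_append, H] at ih ⊢
    have hpt : ∀ g : Fin (N₁ + N₂) → ℝ,
        H (gaussVec (N₁ + N₂)) (pat3 μ c N₁ N₂) (List.replicate i PatT.a ++ List.replicate j PatT.b)
            (fun x => prodW w₁ w₂ x * pat3 μ c N₁ N₂ PatT.a g x)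
          = H (gaussVec N₁) (phiOne μ c N₁) (List.replicate i ())
                (fun x => w₁ x * phiOne μ c N₁ () (fun j => g (Fin.castAdd N₂ j)) x)
            + H (gaussVec N₂) (phiOne μ c N₂) (List.replicate j ()) w₂ := by
      intro g
      rw [← ih (fun x => w₁ x * phiOne μ c N₁ () (fun j => g (Fin.castAdd N₂ j)) x)
        (fun x => mul_pos (hw₁ x) (hφ₁.pos _ _ x))]
      congr 1
      funext x
      simp only [prodW, pat3, phiOne]
      ring
    simp_rw [hpt]
    have hint := H_integrable hφ₁ () (List.replicate i ()) w₁ hw₁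
    have hmap := gaussVec_map_cast N₁ N₂
    have hint' : Integrable (fun g : Fin (N₁ + N₂) → ℝ =>
        H (gaussVec N₁) (phiOne μ c N₁) (List.replicate i ())
          (fun x => w₁ x * phiOne μ c N₁ () (fun j => g (Fin.castAdd N₂ j)) x)) (gaussVec (N₁ + N₂)) := by
      have hint2 : Integrable (fun g : Fin N₁ → ℝ =>
          H (gaussVec N₁) (phiOne μ c N₁) (List.replicate i ()) (fun x => w₁ x * phiOne μ c N₁ () g x))
          ((gaussVec (N₁ + N₂)).map (fun (g : Fin (N₁ + N₂) → ℝ) (j : Fin N₁) => g (Fin.castAdd N₂ j))) := by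
        rw [hmap]
        exact hint
      exact hint2.comp_measurable (measurable_restrict_cast N₁ N₂)
    rw [integral_add hint' (integrable_const _)]
    simp only [integral_const, probReal_univ, smul_eq_mul, one_mul]
    congr 1
    have hsm : StronglyMeasurable fun g : Fin N₁ → ℝ =>
        H (gaussVec N₁) (phiOne μ c N₁) (List.replicate i ()) (fun x => w₁ x * phiOne μ c N₁ () g x) :=
      (H_meas hφ₁ _ (fun (g : Fin N₁ → ℝ) x => w₁ x * phiOne μ c N₁ () g x)
        (fun x => (hφ₁.meas _ x).const_mul _)).stronglyMeasurable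
    have := integral_map (μ := gaussVec (N₁ + N₂)) (measurable_restrict_cast N₁ N₂).aemeasurable
      (f := fun g : Fin N₁ → ℝ =>
        H (gaussVec N₁) (phiOne μ c N₁) (List.replicate i ()) (fun x => w₁ x * phiOne μ c N₁ () g x))
      (hsm.aestronglyMeasurable)
    rw [hmap] at this
    exact this.symm

theorem H_single (N₁ N₂ M : ℕ) (w : (Fin (N₁ + N₂) → Bool) → ℝ) :
    H (gaussVec (N₁ + N₂)) (pat3 μ c N₁ N₂) (List.replicate M PatT.c) w
      = H (gaussVec (N₁ + N₂)) (phiOne μ c (N₁ + N₂)) (List.replicate M ()) w := by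
  induction M generalizing w with
  | zero => simp [H]
  | succ M ih =>
    simp only [List.replicate_succ, H]
    refine integral_congr_ae (Filter.Eventually.of_forall fun g => ?_)
    exact ih _

/-- **Binomial superadditivity**. -/
theorem logZ_binomial (hμ : μ.real Set.univ < 1) (hc : 0 < c) (N₁ N₂ : ℕ) (h₁ : 1 ≤ N₁) (h₂ : 1 ≤ N₂)
    (M : ℕ) :
    ∑ k ∈ Finset.range (M + 1),
        (M.choose k : ℝ) * ((N₁ : ℝ) / (N₁ + N₂ : ℕ)) ^ k * (1 - (N₁ : ℝ) / (N₁ + N₂ : ℕ)) ^ (M - k) *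
          (logZ μ c N₁ k + logZ μ c N₂ (M - k))
      ≤ logZ μ c (N₁ + N₂) M := by
  have hN₁ : (0 : ℝ) < N₁ := by exact_mod_cast h₁
  have hN₂ : (0 : ℝ) < N₂ := by exact_mod_cast h₂
  have hl0 : 0 ≤ (N₁ : ℝ) / (N₁ + N₂ : ℕ) := by positivity
  have hl1 : (N₁ : ℝ) / (N₁ + N₂ : ℕ) ≤ 1 := by
    rw [div_le_one (by push_cast; positivity)]
    push_cast
    linarith
  have hw : ∀ x : Fin (N₁ + N₂) → Bool, 0 < prodW (fun _ : Fin N₁ → Bool => ((2 : ℝ) ^ N₁)⁻¹)
      (fun _ : Fin N₂ → Bool => ((2 : ℝ) ^ N₂)⁻¹) x := by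
    intro x
    unfold prodW
    positivity
  have hconst : (fun _ : Fin (N₁ + N₂) → Bool => ((2 : ℝ) ^ (N₁ + N₂))⁻¹)
      = prodW (fun _ : Fin N₁ → Bool => ((2 : ℝ) ^ N₁)⁻¹) (fun _ : Fin N₂ → Bool => ((2 : ℝ) ^ N₂)⁻¹) := by
    funext x
    unfold prodW
    rw [pow_add, mul_inv]
  have key := H_binomial (admissible_three hμ hc N₁ N₂) PatT.c PatT.a PatT.b
    ((N₁ : ℝ) / (N₁ + N₂ : ℕ)) hl0 hl1 (core_three hμ hc N₁ N₂ h₁ h₂) M _ hw
  have hR : logZ μ c (N₁ + N₂) M
      = H (gaussVec (N₁ + N₂)) (pat3 μ c N₁ N₂) (List.replicate M PatT.c)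
          (prodW (fun _ : Fin N₁ → Bool => ((2 : ℝ) ^ N₁)⁻¹) (fun _ : Fin N₂ → Bool => ((2 : ℝ) ^ N₂)⁻¹)) := by
    rw [H_single, ← hconst]
    rfl
  rw [hR]
  refine le_trans (le_of_eq ?_) key
  refine Finset.sum_congr rfl fun k _ => ?_
  rw [H_factor hμ hc N₁ N₂ k (M - k) _ _ (fun _ => by positivity) (fun _ => by positivity)]
  rfl

/-- **Approximate superadditivity.** -/
theorem logZ_almost_superadditive (hμ : μ.real Set.univ < 1) (hc : 0 < c) (α : ℝ) (hα : 0 < α) :
    ∃ C : ℝ, 0 ≤ C ∧ ∀ N₁ N₂ : ℕ, 1 ≤ N₁ → 1 ≤ N₂ →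
      logZ μ c N₁ ⌊α * N₁⌋₊ + logZ μ c N₂ ⌊α * N₂⌋₊
          - C * (Real.sqrt ((N₁ + N₂ : ℕ) : ℝ) + 1)
        ≤ logZ μ c (N₁ + N₂) ⌊α * ((N₁ + N₂ : ℕ) : ℝ)⌋₊ := by
  set K := potK μ c with hK
  have hK0 : 0 ≤ K := potK_nonneg μ c
  refine ⟨2 * K * (Real.sqrt α + 2), by positivity, fun N₁ N₂ h₁ h₂ => ?_⟩
  have hN₁ : (0 : ℝ) < N₁ := by exact_mod_cast h₁
  have hN₂ : (0 : ℝ) < N₂ := by exact_mod_cast h₂
  set N : ℝ := ((N₁ + N₂ : ℕ) : ℝ) with hNdef
  have hN : 0 < N := by rw [hNdef]; push_cast; positivity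
  have hNsum : N = N₁ + N₂ := by rw [hNdef]; push_cast; ring
  set l : ℝ := (N₁ : ℝ) / (N₁ + N₂ : ℕ) with hl
  have hl' : l = N₁ / N := rfl
  have hl0 : 0 ≤ l := by positivity
  have hl1 : l ≤ 1 := by
    rw [hl', div_le_one hN, hNsum]
    linarith
  set M := ⌊α * N⌋₊ with hM
  set M₁ := ⌊α * N₁⌋₊ with hM₁
  set M₂ := ⌊α * N₂⌋₊ with hM₂
  have hMf : (M : ℝ) ≤ α * N := Nat.floor_le (by positivity)
  have hMf' : α * N < M + 1 := Nat.lt_floor_add_one _
  have hM₁f : (M₁ : ℝ) ≤ α * N₁ := Nat.floor_le (by positivity)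
  have hM₁f' : α * N₁ < M₁ + 1 := Nat.lt_floor_add_one _
  have hM₂f : (M₂ : ℝ) ≤ α * N₂ := Nat.floor_le (by positivity)
  have hM₂f' : α * N₂ < M₂ + 1 := Nat.lt_floor_add_one _
  -- `l M` is close to `α N₁`
  have hlM : |l * M - α * N₁| ≤ 1 := by
    have e : α * N₁ = l * (α * N) := by
      rw [hl']
      field_simp
    rw [e, ← mul_sub, abs_mul, abs_of_nonneg hl0]
    have : |(M : ℝ) - α * N| ≤ 1 := by
      rw [abs_le]
      constructor <;> linarith
    calc l * |(M : ℝ) - α * N| ≤ l * 1 := mul_le_mul_of_nonneg_left this hl0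
      _ ≤ 1 := by linarith
  have hpt : ∀ k, k ≤ M → (logZ μ c N₁ M₁ + logZ μ c N₂ M₂ - 4 * K) + (-(2 * K)) * |(k : ℝ) - l * M|
      ≤ logZ μ c N₁ k + logZ μ c N₂ (M - k) := by
    intro k hk
    have h1 := abs_le.1 (logZ_lipschitz hμ hc N₁ k M₁)
    have h2 := abs_le.1 (logZ_lipschitz hμ hc N₂ (M - k) M₂)
    have hd1 : |(k : ℝ) - M₁| ≤ |(k : ℝ) - l * M| + 2 := by
      have e : (k : ℝ) - M₁ = ((k : ℝ) - l * M) + (l * M - α * N₁) + (α * N₁ - M₁) := by ring
      rw [e]
      refine (abs_add_le _ _).trans ?_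
      refine (add_le_add (abs_add_le _ _) le_rfl).trans ?_
      have : |α * N₁ - M₁| ≤ 1 := by
        rw [abs_le]
        constructor <;> linarith
      linarith
    have hd2 : |((M - k : ℕ) : ℝ) - M₂| ≤ |(k : ℝ) - l * M| + 2 := by
      rw [Nat.cast_sub hk]
      have hl2 : α * N₂ = (1 - l) * (α * N) := by
        rw [hl']
        field_simp
        rw [hNsum]
        ring
      have hlM2 : |(1 - l) * M - α * N₂| ≤ 1 := by
        rw [hl2, ← mul_sub, abs_mul, abs_of_nonneg (sub_nonneg.2 hl1)]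
        have : |(M : ℝ) - α * N| ≤ 1 := by
          rw [abs_le]
          constructor <;> linarith
        calc (1 - l) * |(M : ℝ) - α * N| ≤ (1 - l) * 1 :=
              mul_le_mul_of_nonneg_left this (sub_nonneg.2 hl1)
          _ ≤ 1 := by linarith
      have e : (M : ℝ) - k - M₂ = -((k : ℝ) - l * M) + ((1 - l) * M - α * N₂) + (α * N₂ - M₂) := by ring
      rw [e]
      refine (abs_add_le _ _).trans ?_
      refine (add_le_add (abs_add_le _ _) le_rfl).trans ?_
      rw [abs_neg]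
      have : |α * N₂ - M₂| ≤ 1 := by
        rw [abs_le]
        constructor <;> linarith
      linarith
    have e1 := mul_le_mul_of_nonneg_left hd1 hK0
    have e2 := mul_le_mul_of_nonneg_left hd2 hK0
    nlinarith [h1.1, h2.1]
  have hb := logZ_binomial hμ hc N₁ N₂ h₁ h₂ M
  change binAvg l M (fun k => logZ μ c N₁ k + logZ μ c N₂ (M - k)) ≤ _ at hb
  have hm := binAvg_mono l hl0 hl1 M hpt
  rw [binAvg_add, binAvg_const, binAvg_mul_const] at hm
  have hmom : binAvg l M (fun k => |(k : ℝ) - l * M|) ≤ Real.sqrt M := binomial_abs_moment l hl0 hl1 M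
  have hsq : Real.sqrt M ≤ Real.sqrt α * Real.sqrt N := by
    rw [← Real.sqrt_mul hα.le]
    exact Real.sqrt_le_sqrt hMf
  have hsN : 0 ≤ Real.sqrt N := Real.sqrt_nonneg _
  have hsα : 0 ≤ Real.sqrt α := Real.sqrt_nonneg _
  have final : -(2 * K) * binAvg l M (fun k => |(k : ℝ) - l * M|) ≥ -(2 * K) * (Real.sqrt α * Real.sqrt N) :=
    mul_le_mul_of_nonpos_left (hmom.trans hsq) (by linarith)
  have hfin2 : 2 * K * (Real.sqrt α + 2) * (Real.sqrt N + 1)
      ≥ 2 * K * (Real.sqrt α * Real.sqrt N) + 4 * K := by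
    nlinarith [mul_nonneg hK0 hsN, mul_nonneg hK0 hsα]
  linarith

end

end P157
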