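import Mathlib

/-!
# P157, module SplitC: binomial concentration and almost superadditivity (abstract form).

No dependence on the rest of P157: `Split` can import this file and close
`binomial_abs_moment` and `logZ_almost_superadditive` by one line each.
-/

namespace P157
namespace SplitC

open Finset

/-- The total mass of the binomial weights. -/
theorem binom_sum (l : ℝ) (M : ℕ) :
    ∑ k ∈ range (M + 1), (M.choose k : ℝ) * l ^ k * (1 - l) ^ (M - k) = 1 := by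
  have h := add_pow l (1 - l) M
  have h1 : l + (1 - l) = 1 := by ring
  rw [h1, one_pow] at h
  calc _ = ∑ m ∈ range (M + 1), l ^ m * (1 - l) ^ (M - m) * (M.choose m : ℝ) :=
        sum_congr rfl fun k _ => by ring
    _ = 1 := h.symm

/-- The variance of the binomial weights. -/
theorem binom_var (l : ℝ) (M : ℕ) :
    ∑ k ∈ range (M + 1), (M.choose k : ℝ) * l ^ k * (1 - l) ^ (M - k) * ((k : ℝ) - l * M) ^ 2
      = M * l * (1 - l) := by
  have h := congrArg (Polynomial.eval l) (bernsteinPolynomial.variance ℝ M)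
  simp only [Polynomial.eval_finsetSum, Polynomial.eval_mul, Polynomial.eval_pow,
    Polynomial.eval_sub, Polynomial.eval_X, Polynomial.eval_natCast,
    Polynomial.eval_one, bernsteinPolynomial, nsmul_eq_mul, Polynomial.eval_natCast] at h
  rw [← h]
  refine sum_congr rfl fun k _ => ?_
  ring

theorem binomial_abs_moment (l : ℝ) (hl0 : 0 ≤ l) (hl1 : l ≤ 1) (M : ℕ) :
    ∑ k ∈ range (M + 1), (M.choose k : ℝ) * l ^ k * (1 - l) ^ (M - k) * |(k : ℝ) - l * M|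
      ≤ Real.sqrt M := by
  have hl1' : 0 ≤ 1 - l := by linarith
  rcases Nat.eq_zero_or_pos M with rfl | hM
  · simp
  have hMpos : (0 : ℝ) < M := by exact_mod_cast hM
  set A := Real.sqrt M with hA
  have hApos : 0 < A := Real.sqrt_pos.mpr hMpos
  have hA2 : A ^ 2 = M := Real.sq_sqrt hMpos.le
  have hpt : ∀ k ∈ range (M + 1),
      (M.choose k : ℝ) * l ^ k * (1 - l) ^ (M - k) * |(k : ℝ) - l * M|
        ≤ (M.choose k : ℝ) * l ^ k * (1 - l) ^ (M - k) * ((k : ℝ) - l * M) ^ 2 / (2 * A)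
          + (M.choose k : ℝ) * l ^ k * (1 - l) ^ (M - k) * (A / 2) := by
    intro k _
    have hw : 0 ≤ (M.choose k : ℝ) * l ^ k * (1 - l) ^ (M - k) := by positivity
    have key : |(k : ℝ) - l * M| ≤ ((k : ℝ) - l * M) ^ 2 / (2 * A) + A / 2 := by
      rw [← sq_abs ((k : ℝ) - l * M)]
      set x := |(k : ℝ) - l * M|
      have : x ^ 2 / (2 * A) + A / 2 - x = (x - A) ^ 2 / (2 * A) := by
        field_simp; ring
      have h2 : 0 ≤ (x - A) ^ 2 / (2 * A) := by positivity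
      linarith
    calc _ ≤ (M.choose k : ℝ) * l ^ k * (1 - l) ^ (M - k)
            * (((k : ℝ) - l * M) ^ 2 / (2 * A) + A / 2) := mul_le_mul_of_nonneg_left key hw
      _ = _ := by ring
  calc _ ≤ ∑ k ∈ range (M + 1), ((M.choose k : ℝ) * l ^ k * (1 - l) ^ (M - k) * ((k : ℝ) - l * M) ^ 2
            / (2 * A) + (M.choose k : ℝ) * l ^ k * (1 - l) ^ (M - k) * (A / 2)) := sum_le_sum hpt
    _ = (M * l * (1 - l)) / (2 * A) + A / 2 := by
        rw [sum_add_distrib, ← sum_div, binom_var, ← sum_mul, binom_sum, one_mul]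
    _ ≤ A := by
        have h1 : (M : ℝ) * l * (1 - l) ≤ A ^ 2 := by
          rw [hA2]
          have : l * (1 - l) ≤ 1 := by nlinarith
          nlinarith
        have h2 : (M : ℝ) * l * (1 - l) / (2 * A) ≤ A / 2 := by
          rw [div_le_div_iff₀ (by positivity) (by norm_num)]
          nlinarith
        linarith

/-- Abstract form of `logZ_almost_superadditive`. -/
theorem almost_superadditive (L : ℕ → ℕ → ℝ) (K : ℝ) (hK : 0 ≤ K)
    (hlip : ∀ N M M' : ℕ, |L N M - L N M'| ≤ K * |(M : ℝ) - M'|)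
    (hbin : ∀ N₁ N₂ : ℕ, 1 ≤ N₁ → 1 ≤ N₂ → ∀ M : ℕ,
      ∑ k ∈ range (M + 1),
        (M.choose k : ℝ) * ((N₁ : ℝ) / (N₁ + N₂ : ℕ)) ^ k * (1 - (N₁ : ℝ) / (N₁ + N₂ : ℕ)) ^ (M - k) *
          (L N₁ k + L N₂ (M - k)) ≤ L (N₁ + N₂) M)
    (α : ℝ) (hα : 0 < α) :
    ∃ C : ℝ, 0 ≤ C ∧ ∀ N₁ N₂ : ℕ, 1 ≤ N₁ → 1 ≤ N₂ →
      L N₁ ⌊α * N₁⌋₊ + L N₂ ⌊α * N₂⌋₊ - C * (Real.sqrt ((N₁ + N₂ : ℕ) : ℝ) + 1)
        ≤ L (N₁ + N₂) ⌊α * ((N₁ + N₂ : ℕ) : ℝ)⌋₊ := by
  refine ⟨2 * K * Real.sqrt α + 4 * K, by positivity, ?_⟩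
  intro N₁ N₂ h₁ h₂
  set N : ℕ := N₁ + N₂ with hN
  have hNpos : (0 : ℝ) < (N : ℝ) := by
    have : 0 < N := by omega
    exact_mod_cast this
  have hNsum : (N : ℝ) = N₁ + N₂ := by rw [hN]; push_cast; ring
  set l : ℝ := (N₁ : ℝ) / (N : ℝ) with hl
  have hN1pos : (0 : ℝ) ≤ (N₁ : ℝ) := Nat.cast_nonneg _
  have hN2pos : (0 : ℝ) ≤ (N₂ : ℝ) := Nat.cast_nonneg _
  have hl0 : 0 ≤ l := by positivity
  have hl1 : l ≤ 1 := by
    rw [hl, div_le_one hNpos, hNsum]; linarith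
  have hl1' : 0 ≤ 1 - l := by linarith
  set M : ℕ := ⌊α * (N : ℝ)⌋₊ with hM
  set a₁ := L N₁ ⌊α * N₁⌋₊ with ha₁
  set a₂ := L N₂ ⌊α * N₂⌋₊ with ha₂
  -- floors
  have hfl : ∀ x : ℝ, 0 ≤ x → |x - (⌊x⌋₊ : ℝ)| ≤ 1 := by
    intro x hx
    have h1 := Nat.floor_le hx
    have h2 := Nat.lt_floor_add_one x
    rw [abs_le]; constructor <;> linarith
  have hαN₁ : 0 ≤ α * (N₁ : ℝ) := by positivity
  have hαN₂ : 0 ≤ α * (N₂ : ℝ) := by positivity
  have hαN : 0 ≤ α * (N : ℝ) := by positivity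
  have hM' : |α * (N : ℝ) - (M : ℝ)| ≤ 1 := hfl _ hαN
  have hF₁ := hfl _ hαN₁
  have hF₂ := hfl _ hαN₂
  -- the two comparisons
  have hl_N₁ : l * (N : ℝ) = N₁ := by rw [hl]; field_simp
  have hl_N₂ : (1 - l) * (N : ℝ) = N₂ := by
    have : (1 - l) * (N : ℝ) = (N : ℝ) - l * N := by ring
    rw [this, hl_N₁, hNsum]; ring
  have hd₁ : ∀ k : ℕ, |(k : ℝ) - ⌊α * N₁⌋₊| ≤ |(k : ℝ) - l * M| + 2 := by
    intro k
    have e1 : (k : ℝ) - ⌊α * N₁⌋₊
        = ((k : ℝ) - l * M) + l * ((M : ℝ) - α * N) + (α * N₁ - ⌊α * N₁⌋₊) := by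
      have : l * (α * (N : ℝ)) = α * N₁ := by rw [← hl_N₁]; ring
      linear_combination this
    have e2 : |l * ((M : ℝ) - α * N)| ≤ 1 := by
      rw [abs_mul, abs_of_nonneg hl0, abs_sub_comm]
      calc l * |α * (N : ℝ) - M| ≤ 1 * 1 := mul_le_mul hl1 hM' (abs_nonneg _) (by norm_num)
        _ = 1 := by norm_num
    rw [e1]
    calc _ ≤ |((k : ℝ) - l * M) + l * ((M : ℝ) - α * N)| + |α * (N₁ : ℝ) - ⌊α * N₁⌋₊| := abs_add_le _ _
      _ ≤ |(k : ℝ) - l * M| + |l * ((M : ℝ) - α * N)| + |α * (N₁ : ℝ) - ⌊α * N₁⌋₊| := by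
          gcongr; exact abs_add_le _ _
      _ ≤ _ := by linarith
  have hd₂ : ∀ k ∈ range (M + 1),
      |((M - k : ℕ) : ℝ) - ⌊α * N₂⌋₊| ≤ |(k : ℝ) - l * M| + 2 := by
    intro k hk
    have hkM : k ≤ M := by
      have := mem_range.mp hk; omega
    have e0 : ((M - k : ℕ) : ℝ) = (M : ℝ) - k := by push_cast [Nat.cast_sub hkM]; ring
    have e1 : ((M - k : ℕ) : ℝ) - ⌊α * N₂⌋₊
        = -((k : ℝ) - l * M) + (1 - l) * ((M : ℝ) - α * N) + (α * N₂ - ⌊α * N₂⌋₊) := by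
      have : (1 - l) * (α * (N : ℝ)) = α * N₂ := by rw [← hl_N₂]; ring
      rw [e0]
      linear_combination this
    have e2 : |(1 - l) * ((M : ℝ) - α * N)| ≤ 1 := by
      rw [abs_mul, abs_of_nonneg hl1', abs_sub_comm]
      calc (1 - l) * |α * (N : ℝ) - M| ≤ 1 * 1 :=
            mul_le_mul (by linarith) hM' (abs_nonneg _) (by norm_num)
        _ = 1 := by norm_num
    rw [e1]
    calc _ ≤ |-((k : ℝ) - l * M) + (1 - l) * ((M : ℝ) - α * N)| + |α * (N₂ : ℝ) - ⌊α * N₂⌋₊| :=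
          abs_add_le _ _
      _ ≤ |-((k : ℝ) - l * M)| + |(1 - l) * ((M : ℝ) - α * N)| + |α * (N₂ : ℝ) - ⌊α * N₂⌋₊| := by
          gcongr; exact abs_add_le _ _
      _ ≤ _ := by rw [abs_neg]; linarith
  -- lower bound of each term
  have hterm : ∀ k ∈ range (M + 1), a₁ + a₂ - 2 * K * (|(k : ℝ) - l * M| + 2)
      ≤ L N₁ k + L N₂ (M - k) := by
    intro k hk
    have h1 := hlip N₁ k ⌊α * N₁⌋₊
    have h2 := hlip N₂ (M - k) ⌊α * N₂⌋₊
    have h3 : K * |(k : ℝ) - ⌊α * N₁⌋₊| ≤ K * (|(k : ℝ) - l * M| + 2) :=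
      mul_le_mul_of_nonneg_left (hd₁ k) hK
    have h4 : K * |((M - k : ℕ) : ℝ) - ⌊α * N₂⌋₊| ≤ K * (|(k : ℝ) - l * M| + 2) :=
      mul_le_mul_of_nonneg_left (hd₂ k hk) hK
    have h5 := (abs_le.mp h1).1
    have h6 := (abs_le.mp h2).1
    have e : 2 * K * (|(k : ℝ) - l * M| + 2) = K * (|(k : ℝ) - l * M| + 2) + K * (|(k : ℝ) - l * M| + 2) := by
      ring
    rw [e]
    linarith
  have hB := hbin N₁ N₂ h₁ h₂ M
  rw [← hN, ← hl] at hB
  have hw : ∀ k ∈ range (M + 1), 0 ≤ (M.choose k : ℝ) * l ^ k * (1 - l) ^ (M - k) := by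
    intro k _; positivity
  have hsum : a₁ + a₂ - 2 * K * Real.sqrt M - 4 * K
      ≤ ∑ k ∈ range (M + 1), (M.choose k : ℝ) * l ^ k * (1 - l) ^ (M - k) * (L N₁ k + L N₂ (M - k)) := by
    have h1 : ∑ k ∈ range (M + 1), (M.choose k : ℝ) * l ^ k * (1 - l) ^ (M - k)
          * (a₁ + a₂ - 2 * K * (|(k : ℝ) - l * M| + 2))
        ≤ ∑ k ∈ range (M + 1), (M.choose k : ℝ) * l ^ k * (1 - l) ^ (M - k) * (L N₁ k + L N₂ (M - k)) :=
      sum_le_sum fun k hk => mul_le_mul_of_nonneg_left (hterm k hk) (hw k hk)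
    have h2 : ∑ k ∈ range (M + 1), (M.choose k : ℝ) * l ^ k * (1 - l) ^ (M - k)
          * (a₁ + a₂ - 2 * K * (|(k : ℝ) - l * M| + 2))
        = (a₁ + a₂ - 4 * K) * (∑ k ∈ range (M + 1), (M.choose k : ℝ) * l ^ k * (1 - l) ^ (M - k))
          - 2 * K * ∑ k ∈ range (M + 1),
              (M.choose k : ℝ) * l ^ k * (1 - l) ^ (M - k) * |(k : ℝ) - l * M| := by
      rw [mul_sum, mul_sum, ← sum_sub_distrib]
      refine sum_congr rfl fun k _ => ?_
      ring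
    rw [h2, binom_sum, mul_one] at h1
    have h3 := binomial_abs_moment l hl0 hl1 M
    have h4 : 2 * K * ∑ k ∈ range (M + 1),
        (M.choose k : ℝ) * l ^ k * (1 - l) ^ (M - k) * |(k : ℝ) - l * M| ≤ 2 * K * Real.sqrt M :=
      mul_le_mul_of_nonneg_left h3 (by positivity)
    linarith
  have hMsq : Real.sqrt M ≤ Real.sqrt α * Real.sqrt (N : ℝ) := by
    rw [← Real.sqrt_mul hα.le]
    apply Real.sqrt_le_sqrt
    exact Nat.floor_le hαN
  have hs0 : 0 ≤ Real.sqrt α := Real.sqrt_nonneg _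
  have hsN : 0 ≤ Real.sqrt (N : ℝ) := Real.sqrt_nonneg _
  have hfinal : 2 * K * Real.sqrt M + 4 * K
      ≤ (2 * K * Real.sqrt α + 4 * K) * (Real.sqrt (N : ℝ) + 1) := by
    have h1 : 2 * K * Real.sqrt M ≤ 2 * K * (Real.sqrt α * Real.sqrt (N : ℝ)) :=
      mul_le_mul_of_nonneg_left hMsq (by positivity)
    have h2 : 0 ≤ K * Real.sqrt (N : ℝ) := mul_nonneg hK hsN
    have h3 : 0 ≤ K * Real.sqrt α := mul_nonneg hK hs0
    nlinarith
  linarith

end SplitC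
end P157
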